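import Crest.Agent.R264.Base.Cd

set_option autoImplicit false
set_option linter.unusedSectionVars false
open Set Filter Topology Metric Complex

namespace Crest.Agent.R264

variable {E F G : Type}
  [NormedAddCommGroup E] [NormedSpace ℂ E] [NormedSpace ℝ E] [IsScalarTower ℝ ℂ E] [FiniteDimensional ℂ E]
  [NormedAddCommGroup F] [NormedSpace ℂ F] [NormedSpace ℝ F] [IsScalarTower ℝ ℂ F] [FiniteDimensional ℂ F]
  [NormedAddCommGroup G] [NormedSpace ℂ G] [NormedSpace ℝ G] [IsScalarTower ℝ ℂ G] [FiniteDimensional ℂ G]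

/-! Small sets. -/

theorem Small.mono {X S S' : Set E} (h : Small X S) (hs : S' ∩ X ⊆ S) : Small X S' := by
  obtain ⟨O, g, h1, h2⟩ := h
  exact ⟨O, g, h1, fun x hx => h2 x ⟨hs hx, hx.2⟩⟩

theorem Small.empty (X : Set E) : Small X ∅ := by
  exact ⟨fun _ => ∅, fun _ _ => 0, fun _ => ⟨isOpen_empty, contDiffOn_const, fun _ h => h.2.elim⟩,
    fun _ h => h.1.elim⟩

theorem Small.iUnion {X : Set E} {J : Type} [Countable J] {S : J → Set E} (h : ∀ j, Small X (S j)) :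
    Small X (⋃ j, S j) := by
  cases isEmpty_or_nonempty J
  · rw [iUnion_of_empty]
    exact Small.empty X
  choose O g h1 h2 using h
  obtain ⟨e, he⟩ := exists_surjective_nat (J × ℕ)
  refine ⟨fun i => O (e i).1 (e i).2, fun i => g (e i).1 (e i).2, fun i => h1 _ _, fun x hx => ?_⟩
  obtain ⟨j, hj⟩ := mem_iUnion.1 hx.1
  obtain ⟨i, hi⟩ := h2 j x ⟨hj, hx.2⟩
  obtain ⟨k, hk⟩ := he (j, i)
  exact ⟨k, by simpa only [hk] using hi⟩

theorem Small.union {X S S' : Set E} (h : Small X S) (h' : Small X S') : Small X (S ∪ S') := by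
  rw [union_eq_iUnion]
  exact Small.iUnion fun b => by cases b <;> assumption

theorem Small.inter_open {X S O : Set E} (h : Small X S) (hO : IsOpen O) : Small (X ∩ O) S := by
  obtain ⟨U, g, h1, h2⟩ := h
  refine ⟨U, g, fun i => ⟨(h1 i).1, (h1 i).2.1, fun x hx => ?_⟩, fun x hx => h2 x ⟨hx.1, hx.2.1⟩⟩
  rw [Tan_inter (hO.mem_nhds hx.1.2)]
  exact (h1 i).2.2 x ⟨hx.1.1, hx.2⟩

theorem Small.of_inter {X S O : Set E} (h : Small (X ∩ O) S) (hO : IsOpen O) : Small X (S ∩ O) := by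
  obtain ⟨U, g, h1, h2⟩ := h
  refine ⟨fun i => U i ∩ O, g, fun i => ⟨(h1 i).1.inter hO, (h1 i).2.1.mono inter_subset_left, fun x hx => ?_⟩,
    fun x hx => (h2 x ⟨hx.1.1, hx.2, hx.1.2⟩).imp fun i hi => ⟨⟨hi.1, hx.1.2⟩, hi.2⟩⟩
  rw [← Tan_inter (hO.mem_nhds hx.2.2)]
  exact (h1 i).2.2 x ⟨⟨hx.1, hx.2.2⟩, hx.2.1⟩

/-- Lindelöf -/
theorem Small.of_local {X S : Set E} (h : ∀ x ∈ S ∩ X, ∃ O, IsOpen O ∧ x ∈ O ∧ Small (X ∩ O) S) : Small X S := by
  choose! O h1 h2 h3 using h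
  obtain ⟨t, ht, hc, hs⟩ := TopologicalSpace.countable_cover_nhdsWithin (f := O) (s := S ∩ X)
    fun x hx => mem_nhdsWithin_of_mem_nhds ((h1 x hx).mem_nhds (h2 x hx))
  have := hc.to_subtype
  refine (Small.iUnion (J := t) fun x => (h3 x (ht x.2)).of_inter (h1 x (ht x.2))).mono fun y hy => ?_
  obtain ⟨x, hx, hy'⟩ := mem_iUnion₂.1 (hs hy)
  exact mem_iUnion.2 ⟨⟨x, hx⟩, hy.1, hy'⟩

/-- preimage under a map which is submersive along the preimage (extend `f` analytically near each point) -/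
theorem Small.preimage {n : ℕ} {X : Set E} (hX : Mfd n X) {Y S : Set F} (h : Small Y S) {f : E → F}
    (hf : AnalyticOn ℂ f X) (hm : MapsTo f X Y) :
    Small X {x | x ∈ X ∧ f x ∈ S ∧ ∀ c ∈ Tan Y (f x), ∃ v ∈ Tan X x, Dv X f x v = c} := by
  obtain ⟨U, g, h1, h2⟩ := h
  refine (Small.iUnion (S := fun i => {x | f x ∈ U i ∧ g i (f x) = 0 ∧
    ∀ c ∈ Tan Y (f x), ∃ v ∈ Tan X x, Dv X f x v = c}) fun i => Small.of_local fun x hx => ?_).mono fun x hx => ?_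
  swap
  · obtain ⟨i, hi⟩ := h2 (f x) ⟨hx.1.2.1, hm hx.2⟩
    exact mem_iUnion.2 ⟨i, hi.1, hi.2, hx.1.2.2⟩
  obtain ⟨⟨x1, x2, x3⟩, hx⟩ := hx
  obtain ⟨φ, hφ, e1⟩ := anOn_iff.1 hf x hx
  obtain ⟨O, o1, o2, e, e2, e3⟩ := hX.frame hx
  have e0 : f x = φ x := e1.eq_of_nhdsWithin hx
  have c1 : ContDiffAt ℝ 1 (g i) (φ x) := (h1 i).2.1.contDiffAt ((h1 i).1.mem_nhds (e0 ▸ x1))
  have c2 : ContDiffAt ℝ 1 (g i ∘ φ) x := c1.comp x (hφ.contDiffAt.restrict_scalars ℝ)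
  have c3 : ∀ c, ∃ a, fderiv ℝ (g i ∘ φ) x (e x a) = c := fun c => by
    obtain ⟨w, hw, rfl⟩ := (h1 i).2.2 (f x) ⟨hm hx, x1⟩ x2 c
    obtain ⟨v, hv, rfl⟩ := x3 w hw
    rw [Dv_eq_fderiv hx hφ.differentiableAt e1 hv, e0]
    rw [(e3 x ⟨hx, o2⟩).2] at hv
    obtain ⟨a, rfl⟩ := hv
    exact ⟨a, by rw [((c1.differentiableAt one_ne_zero).hasFDerivAt.comp x
      (hφ.differentiableAt.hasFDerivAt.restrictScalars ℝ)).fderiv]; rfl⟩
  have c4 : ∀ a, ContinuousAt (fun y => fderiv ℝ (g i ∘ φ) y (e y a)) x := fun a =>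
    (c2.continuousAt_fderiv one_ne_zero).clm_apply ((e2 x o2).continuousAt.clm_apply continuousAt_const)
  obtain ⟨a, ha⟩ := c3 (1, 0)
  obtain ⟨b, hb⟩ := c3 (0, 1)
  have c5 := (((c4 a).fst.mul (c4 b).snd).sub ((c4 a).snd.mul (c4 b).fst)).eventually_ne (y := 0)
    (by simp [ha, hb])
  obtain ⟨W, w1, w2, w3⟩ := _root_.eventually_nhds_iff.1 ((c2.eventually (by simp)).and (c5.and
    ((eventually_nhdsWithin_iff.1 e1).and (o1.mem_nhds o2))))
  refine ⟨W, w2, w3, fun _ => W, fun _ => g i ∘ φ, fun _ => ⟨w2, fun y hy => (w1 y hy).1.contDiffWithinAt,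
    fun y hy _ c => ?_⟩, fun y hy => ⟨0, hy.2.2, ?_⟩⟩
  · obtain ⟨-, k1, -, k2⟩ := w1 y hy.2
    have k3 : ∀ a, e y a ∈ Tan X y := fun a => (e3 y ⟨hy.1.1, k2⟩).2 ▸ ⟨a, rfl⟩
    simp only [Pi.sub_apply, Pi.mul_apply] at k1
    rw [Tan_inter (w2.mem_nhds hy.2)]
    generalize hP : fderiv ℝ (g i ∘ φ) y (e y a) = P at k1
    generalize hQ : fderiv ℝ (g i ∘ φ) y (e y b) = Q at k1
    refine ⟨((c.1 * Q.2 - c.2 * Q.1) / (P.1 * Q.2 - P.2 * Q.1)) • e y a +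
      ((c.2 * P.1 - c.1 * P.2) / (P.1 * Q.2 - P.2 * Q.1)) • e y b,
      add_mem (Submodule.smul_of_tower_mem _ _ (k3 a)) (Submodule.smul_of_tower_mem _ _ (k3 b)), ?_⟩
    rw [map_add, map_smul, map_smul, hP, hQ]
    ext <;> simp only [Prod.fst_add, Prod.snd_add, Prod.smul_fst, Prod.smul_snd, smul_eq_mul] <;>
      rw [div_mul_eq_mul_div, div_mul_eq_mul_div, ← add_div, div_eq_iff k1] <;> ring
  · exact (congrArg (g i) ((w1 y hy.2.2).2.2.1 hy.2.1).symm).trans hy.1.2.1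

/-- the regular part of the zero set of a function in a chart -/
theorem smb_reg {n : ℕ} {X W : Set E} {h : (Fin n → ℂ) → E} {Ψ : E → Fin n → ℂ} {O : Set (Fin n → ℂ)}
    (c : IsChart X h Ψ O W) {u : (Fin n → ℂ) → ℂ} (hu : AnalyticOnNhd ℂ u O) :
    Small X {y | y ∈ W ∧ u (Ψ y) = 0 ∧ fderiv ℂ u (Ψ y) ≠ 0} := by
  have ho1 : IsOpen (O ∩ (fderiv ℂ u) ⁻¹' {0}ᶜ) :=
    hu.fderiv.continuousOn.isOpen_inter_preimage c.oO isOpen_compl_singleton
  have ho : IsOpen (W ∩ Ψ ⁻¹' (O ∩ (fderiv ℂ u) ⁻¹' {0}ᶜ)) :=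
    c.aΨ.continuousOn.isOpen_inter_preimage c.oW ho1
  have han : ∀ y ∈ W ∩ Ψ ⁻¹' (O ∩ (fderiv ℂ u) ⁻¹' {0}ᶜ), AnalyticAt ℂ (fun y => u (Ψ y)) y := fun y hy =>
    (hu _ hy.2.1).comp (c.aΨ y hy.1)
  refine ⟨fun _ => W ∩ Ψ ⁻¹' (O ∩ (fderiv ℂ u) ⁻¹' {0}ᶜ), fun _ y => equivRealProdCLM (u (Ψ y)),
    fun _ => ⟨ho, ?_, ?_⟩, ?_⟩
  · refine equivRealProdCLM.contDiff.comp_contDiffOn fun y hy => ?_
    exact (((han y hy).contDiffAt (n := 1)).restrict_scalars ℝ).contDiffWithinAt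
  · intro y hy _ a
    obtain ⟨hyO, hyh⟩ := c.hW y ⟨hy.1, hy.2.1⟩
    obtain ⟨ht1, ht2⟩ := c.tan hyO
    rw [hyh] at ht1 ht2
    have hne : fderiv ℂ u (Ψ y) ≠ 0 := hy.2.2.2
    obtain ⟨e, he⟩ : ∃ e, fderiv ℂ u (Ψ y) e ≠ 0 := by
      by_contra hcon
      push Not at hcon
      exact hne (ContinuousLinearMap.ext hcon)
    refine ⟨fderiv ℂ h (Ψ y) ((equivRealProdCLM.symm a / fderiv ℂ u (Ψ y) e) • e), ?_, ?_⟩
    · rw [ht1]; exact ⟨_, rfl⟩
    · have h1 : HasFDerivAt (fun y => u (Ψ y)) ((fderiv ℂ u (Ψ y)).comp (fderiv ℂ Ψ y)) y :=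
        (hu _ hyO).differentiableAt.hasFDerivAt.comp y (c.aΨ y hy.2.1).differentiableAt.hasFDerivAt
      have h2 := (equivRealProdCLM : ℂ →L[ℝ] ℝ × ℝ).hasFDerivAt.comp y (h1.restrictScalars ℝ)
      have h3 : fderiv ℝ (fun y => equivRealProdCLM (u (Ψ y))) y = _ := h2.fderiv
      rw [h3]
      simp only [ContinuousLinearMap.comp_apply, ContinuousLinearMap.coe_restrictScalars', ht2, map_smul,
        smul_eq_mul, div_mul_cancel₀ _ he, ContinuousLinearEquiv.coe_coe,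
        ContinuousLinearEquiv.apply_symm_apply]
  · intro y hy
    obtain ⟨⟨h1, h2, h3⟩, h4⟩ := hy
    exact ⟨0, ⟨h1, (c.hW y ⟨h4, h1⟩).1, h3⟩, by simp [h2]⟩

/-- finite order of vanishing -/
theorem smb_order {n : ℕ} {O : Set (Fin n → ℂ)} {u : (Fin n → ℂ) → ℂ} (hu : AnalyticOnNhd ℂ u O) {v : Fin n → ℂ}
    (hv : v ∈ O) (h0 : u v = 0) (hne : ¬ ∀ᶠ w in 𝓝 v, u w = 0) :
    ∃ (k : ℕ) (a : Fin k → Fin n), iteratedFDeriv ℂ k u v (fun j => Pi.basisFun ℂ (Fin n) (a j)) = 0 ∧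
      fderiv ℂ (fun w => iteratedFDeriv ℂ k u w (fun j => Pi.basisFun ℂ (Fin n) (a j))) v ≠ 0 := by
  by_contra hcon
  push Not at hcon
  have hz : ∀ k, iteratedFDeriv ℂ k u v = 0 := by
    intro k
    induction k with
    | zero => ext m; simp [h0]
    | succ k ih =>
      apply ContinuousMultilinearMap.toMultilinearMap_injective
      refine Module.Basis.ext_multilinear (fun _ => Pi.basisFun ℂ (Fin n)) fun a => ?_
      have h1 := hcon k (Fin.tail a) (by rw [ih]; rfl)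
      have h2 := fderiv_continuousMultilinear_apply_const_apply
        ((hu.iteratedFDeriv k) v hv).differentiableAt (fun j => Pi.basisFun ℂ (Fin n) (Fin.tail a j))
        (Pi.basisFun ℂ (Fin n) (a 0))
      rw [h1] at h2
      exact h2.symm
  obtain ⟨p, r, hp⟩ := hu v hv
  apply hne
  have h1 : ∀ y ∈ Metric.eball (0 : Fin n → ℂ) r, u (v + y) = 0 := fun y hy => by
    have := hp.hasSum_iteratedFDeriv hy
    simp only [hz, zero_apply, smul_zero] at this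
    exact this.unique hasSum_zero
  filter_upwards [Metric.eball_mem_nhds v hp.r_pos] with w hw
  have := h1 (w - v) (by simpa [Metric.mem_eball, edist_eq_enorm_sub] using hw)
  simpa using this

theorem smb_chart {n : ℕ} {X W : Set E} {h : (Fin n → ℂ) → E} {Ψ : E → Fin n → ℂ} {O : Set (Fin n → ℂ)}
    (c : IsChart X h Ψ O W) {u : (Fin n → ℂ) → ℂ} (hu : AnalyticOnNhd ℂ u O)
    (hne : ∀ v ∈ O, ¬ ∀ᶠ w in 𝓝 v, u w = 0) {S : Set E} (hS : ∀ y ∈ S ∩ (X ∩ W), u (Ψ y) = 0) :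
    Small (X ∩ W) S := by
  have h1 : ∀ j : (Σ k : ℕ, Fin k → Fin n), AnalyticOnNhd ℂ
      (fun w => iteratedFDeriv ℂ j.1 u w (fun i => Pi.basisFun ℂ (Fin n) (j.2 i))) O := fun j =>
    (ContinuousMultilinearMap.apply ℂ (fun _ : Fin j.1 => Fin n → ℂ) ℂ
      (fun i => Pi.basisFun ℂ (Fin n) (j.2 i))).comp_analyticOnNhd (hu.iteratedFDeriv j.1)
  refine ((Small.iUnion fun j => smb_reg c (h1 j)).inter_open c.oW).mono fun y hy => ?_
  have hO := (c.hW y hy.2).1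
  obtain ⟨k, a, h2, h3⟩ := smb_order hu hO (hS y hy) (hne _ hO)
  exact mem_iUnion.2 ⟨⟨k, a⟩, hy.2.2, h2, h3⟩

/-- the zero set of a holomorphic function: stratify by the order of vanishing (in a chart, a point of the zero set
lies in `{∂^α f = 0, d ∂^α f ≠ 0}` for some multi-index `α`) -/
theorem small_zero {n : ℕ} {X : Set E} (hX : Mfd n X) (hc : IsPreconnected X) {f : E → ℂ} (hf : AnalyticOn ℂ f X)
    (hne : ∃ x ∈ X, f x ≠ 0) : Small X {x | f x = 0} ∧ ClIn X {x | f x = 0} := by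
  refine ⟨Small.of_local fun x hx => ?_, fun x hx hcl => ?_⟩
  · obtain ⟨h, Ψ, O, W, c, hxW⟩ := hX x hx.2
    refine ⟨W, c.oW, hxW, smb_chart c (u := fun v => f (h v))
      (fun v hv => (c.an_iff hv).1 (hf _ (c.hO v hv).1.1)) (fun v hv hev => ?_) fun y hy => ?_⟩
    · obtain ⟨x₀, hx₀, hf₀⟩ := hne
      refine hf₀ (ident hX hc hf (g := fun _ => 0) analyticOn_const (c.hO v hv).1.1 ?_ x₀ hx₀)
      rw [← c.map_nhds hv]
      exact hev
    · simp only [(c.hW y hy.2).2]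
      exact hy.1
  · have h1 : ContinuousWithinAt f ({x | f x = 0} ∩ X) x := (hf.continuousOn x hx).mono inter_subset_right
    have h2 := h1.mem_closure hcl (t := {0}) fun y hy => hy.1
    simpa using h2

theorem smb_det {O : Set G} {L : G → F →L[ℂ] F} (hL : AnalyticOnNhd ℂ L O) :
    AnalyticOnNhd ℂ (fun v => LinearMap.det (L v : F →ₗ[ℂ] F)) O := by
  classical
  intro v hv
  let b := Module.finBasis ℂ F
  simp only [← LinearMap.det_toMatrix b, Matrix.det_apply', LinearMap.toMatrix_apply]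
  refine Finset.analyticAt_fun_sum _ fun σ _ => analyticAt_const.mul ?_
  refine Finset.analyticAt_fun_prod _ fun i _ => ?_
  have h1 : AnalyticAt ℂ (fun w => L w (b i)) v :=
    (ContinuousLinearMap.apply ℂ F (b i)).analyticAt _ |>.comp (hL v hv)
  exact ((b.coord (σ i)).toContinuousLinearMap.analyticAt _).comp h1

/-- submersive points in a chart -/
theorem smb_sub {n : ℕ} {X W : Set E} {h : (Fin n → ℂ) → E} {Ψ : E → Fin n → ℂ} {O : Set (Fin n → ℂ)}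
    (c : IsChart X h Ψ O W) {π : E → F} (hπ : AnalyticOn ℂ π X) {v : Fin n → ℂ} (hv : v ∈ O) :
    h v ∈ Sub X π ↔ Function.Surjective (fderiv ℂ (fun w => π (h w)) v) := by
  have hX : h v ∈ X := (c.hO v hv).1.1
  have hd := fun e => (fderiv_comp_param (c.ah v hv).differentiableAt
    (Filter.eventually_of_mem (c.oO.mem_nhds hv) fun w hw => (c.hO w hw).1.1) (anW_diff (hπ _ hX)) e)
  constructor
  · intro hs q
    obtain ⟨w, hw, hq⟩ := hs.2 q
    rw [(c.tan hv).1] at hw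
    obtain ⟨e, rfl⟩ := hw
    exact ⟨e, (hd e).2.2.trans hq⟩
  · intro hs
    refine ⟨hX, fun q => ?_⟩
    obtain ⟨e, he⟩ := hs q
    exact ⟨_, (hd e).1, (hd e).2.2.symm.trans he⟩

/-- dichotomy in a connected chart -/
theorem smb_dich {n : ℕ} {X W : Set E} {h : (Fin n → ℂ) → E} {Ψ : E → Fin n → ℂ} {O : Set (Fin n → ℂ)}
    (c : IsChart X h Ψ O W) (hO : IsPreconnected O) {π : E → F} (hπ : AnalyticOn ℂ π X) :
    (∀ y ∈ X ∩ W, y ∉ Sub X π) ∨ ∃ u : (Fin n → ℂ) → ℂ, AnalyticOnNhd ℂ u O ∧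
      (∀ v ∈ O, ¬ ∀ᶠ w in 𝓝 v, u w = 0) ∧ ∀ v ∈ O, h v ∉ Sub X π → u v = 0 := by
  by_cases hex : ∀ y ∈ X ∩ W, y ∉ Sub X π
  · exact Or.inl hex
  right
  push Not at hex
  obtain ⟨y, hy, hys⟩ := hex
  obtain ⟨hyO, hyh⟩ := c.hW y hy
  have hp : AnalyticOnNhd ℂ (fun w => π (h w)) O := fun v hv => (c.an_iff hv).1 (hπ _ (c.hO v hv).1.1)
  have hs : Function.Surjective (fderiv ℂ (fun w => π (h w)) (Ψ y)) := (smb_sub c hπ hyO).1 (by rwa [hyh])
  obtain ⟨A, hA⟩ := (fderiv ℂ (fun w => π (h w)) (Ψ y) : (Fin n → ℂ) →ₗ[ℂ] F).exists_rightInverse_of_surjective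
    (LinearMap.range_eq_top.2 hs)
  have hL : AnalyticOnNhd ℂ (fun v => (fderiv ℂ (fun w => π (h w)) v).comp A.toContinuousLinearMap) O :=
    ((ContinuousLinearMap.compL ℂ F (Fin n → ℂ) F).flip A.toContinuousLinearMap).comp_analyticOnNhd hp.fderiv
  refine ⟨_, smb_det hL, fun v hv hev => ?_, fun v hv hns => ?_⟩
  · have h1 := (smb_det hL).eqOn_zero_of_preconnected_of_eventuallyEq_zero hO hv hev hyO
    have h2 : (((fderiv ℂ (fun w => π (h w)) (Ψ y)).comp A.toContinuousLinearMap : F →L[ℂ] F) : F →ₗ[ℂ] F) =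
        LinearMap.id := hA
    simp only [h2, LinearMap.det_id, Pi.zero_apply] at h1
    exact one_ne_zero h1
  · by_contra hdet
    apply hns
    rw [smb_sub c hπ hv]
    rw [LinearMap.det_eq_zero_iff_ker_ne_bot, not_not, LinearMap.ker_eq_bot,
      LinearMap.injective_iff_surjective] at hdet
    intro q
    obtain ⟨a, ha⟩ := hdet q
    exact ⟨A a, ha⟩

/-- the non-submersive points (local frames, minors; the set of points near which `π` is nowhere submersive is clopen) -/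
theorem small_not_sub {n : ℕ} {X : Set E} (hX : Mfd n X) (hc : IsPreconnected X) {π : E → F}
    (hπ : AnalyticOn ℂ π X) (hne : (Sub X π).Nonempty) : Small X (Sub X π)ᶜ ∧ ClIn X (Sub X π)ᶜ := by
  have key : ∀ x ∈ X, ¬ ∀ᶠ y in 𝓝[X] x, y ∉ Sub X π := by
    intro x hx hev
    obtain ⟨x₀, hx₀⟩ := hne
    have h1 := clopen_ind hc (A := {x | ∀ᶠ y in 𝓝[X] x, y ∉ Sub X π}) ⟨x, hx, hev⟩
      (fun x _ hx => eventually_eventually_nhdsWithin.2 hx) (fun x hx hfr => ?_) hx₀.1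
    · exact (eventually_nhdsWithin_iff.1 h1).self_of_nhds hx₀.1 hx₀
    · obtain ⟨h, Ψ, δ, W, W', hδ, c, -, -, -, hxW, -⟩ := hX.ball hx univ_mem
      have hW : ∀ᶠ y in 𝓝[X] x, y ∈ X ∩ W := inter_mem_nhdsWithin X (c.oW.mem_nhds hxW)
      rcases smb_dich c (convex_ball _ _).isPreconnected hπ with h2 | ⟨u, hu, hu1, hu2⟩
      · exact hW.mono h2
      · obtain ⟨y, hy1, hy2⟩ := (hfr.and_eventually hW).exists
        obtain ⟨hyO, hyh⟩ := c.hW y hy2
        refine absurd ?_ (hu1 _ hyO)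
        have h3 : ∀ᶠ y' in 𝓝[X] (h (Ψ y)), y' ∉ Sub X π := by rw [hyh]; exact hy1
        rw [← c.map_nhds hyO, eventually_map] at h3
        filter_upwards [h3, c.oO.mem_nhds hyO] with w hw1 hw2 using hu2 w hw2 hw1
  refine ⟨Small.of_local fun x hx => ?_, fun x hx hcl hs => ?_⟩
  · obtain ⟨h, Ψ, δ, W, W', hδ, c, -, -, -, hxW, -⟩ := hX.ball hx.2 univ_mem
    have hW : ∀ᶠ y in 𝓝[X] x, y ∈ X ∩ W := inter_mem_nhdsWithin X (c.oW.mem_nhds hxW)
    rcases smb_dich c (convex_ball _ _).isPreconnected hπ with h2 | ⟨u, hu, hu1, hu2⟩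
    · exact absurd (hW.mono h2) (key x hx.2)
    · refine ⟨W, c.oW, hxW, smb_chart c hu hu1 fun y hy => ?_⟩
      obtain ⟨hyO, hyh⟩ := c.hW y hy.2
      exact hu2 _ hyO (by rw [hyh]; exact hy.1)
  · have h1 := eventually_nhdsWithin_iff.1 (Sub.open hX hπ hs)
    obtain ⟨y, hy1, hy2⟩ := ((mem_closure_iff_frequently.1 hcl).and_eventually h1).exists
    exact hy1.1 (hy2 hy1.2)

/-- level sets of submersions -/
theorem smallc_level {V W Y : Type} [NormedAddCommGroup V] [NormedSpace ℝ V] [FiniteDimensional ℝ V]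
    [NormedAddCommGroup W] [NormedSpace ℝ W] [FiniteDimensional ℝ W] [NormedAddCommGroup Y] [NormedSpace ℝ Y]
    {g : V → W} {L : V →L[ℝ] W} {a : V} (hg : HasStrictFDerivAt g L a) (hL : L.range = ⊤) {h : V → Y}
    {M : V →L[ℝ] Y} (hh : HasStrictFDerivAt h M a) :
    Module.finrank ℝ W ≤ Module.finrank ℝ V ∧ ∃ t ∈ 𝓝 a,
      dimH (h '' (t ∩ {v | g v = g a})) ≤ ((Module.finrank ℝ V - Module.finrank ℝ W : ℕ) : ENNReal) := by
  have := FiniteDimensional.complete ℝ V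
  have rk := LinearMap.finrank_range_add_finrank_ker (L : V →ₗ[ℝ] W)
  rw [show LinearMap.range (L : V →ₗ[ℝ] W) = ⊤ from hL, finrank_top] at rk
  refine ⟨by omega, ?_⟩
  have h1 := hg.to_implicitFunction hL
  have h2 : HasStrictFDerivAt h M (hg.implicitFunction g L hL (g a) 0) := by
    rw [hg.implicitFunction_apply_image hL]
    exact hh
  obtain ⟨K, u, hu, lip⟩ := (h2.comp 0 h1).exists_lipschitzOnWith
  have c : ContinuousAt (hg.implicitToOpenPartialHomeomorph g L hL) a :=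
    (hg.implicitToOpenPartialHomeomorph g L hL).continuousAt (hg.mem_implicitToOpenPartialHomeomorph_source hL)
  have c2 : Tendsto (fun v => (hg.implicitToOpenPartialHomeomorph g L hL v).2) (𝓝 a) (𝓝 0) := by
    have := (continuous_snd.continuousAt.comp c).tendsto
    simpa only [Function.comp_def, hg.implicitToOpenPartialHomeomorph_self hL] using this
  refine ⟨_, inter_mem (hg.eq_implicitFunction hL) (c2 hu), ?_⟩
  refine le_trans (dimH_mono ?_) (lip.dimH_image_le.trans ((dimH_mono (subset_univ _)).trans ?_))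
  · rintro _ ⟨v, ⟨⟨v1, v2⟩, v3⟩, rfl⟩
    refine ⟨_, v2, ?_⟩
    have v3 : g v = g a := v3
    have v1 : hg.implicitFunction g L hL (g v) (hg.implicitToOpenPartialHomeomorph g L hL v).2 = v := v1
    rw [v3] at v1
    simp only [v1]
  · rw [Real.dimH_univ_eq_finrank]
    exact_mod_cast (by omega : Module.finrank ℝ L.ker ≤ Module.finrank ℝ V - Module.finrank ℝ W)

theorem smallc_fin (n : ℕ) : Module.finrank ℝ (Fin n → ℂ) = 2 * n := by
  rw [← Module.finrank_mul_finrank ℝ ℂ (Fin n → ℂ), Complex.finrank_real_complex]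
  simp

theorem smallc_dim {n : ℕ} {X S : Set E} (hX : Mfd n X) (h : Small X S) (ne : (S ∩ X).Nonempty) :
    1 ≤ n ∧ dimH (S ∩ X) ≤ ((2 * n - 2 : ℕ) : ENNReal) := by
  obtain ⟨O, g, hg, hc⟩ := h
  have key : ∀ i, ∀ x ∈ {x | x ∈ X ∩ O i ∧ g i x = 0}, 1 ≤ n ∧ ∃ t ∈ 𝓝[{x | x ∈ X ∩ O i ∧ g i x = 0}] x,
      dimH t ≤ ((2 * n - 2 : ℕ) : ENNReal) := by
    intro i x hx
    obtain ⟨o1, o2, o3⟩ := hg i
    obtain ⟨p, Ψ, U, W, c, xW⟩ := hX x hx.1.1
    obtain ⟨vU, e⟩ := c.hW x ⟨hx.1.1, xW⟩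
    have a1 : HasStrictFDerivAt p ((fderiv ℂ p (Ψ x)).restrictScalars ℝ) (Ψ x) :=
      (c.ah _ vU).hasStrictFDerivAt.restrictScalars ℝ
    have a2 : HasStrictFDerivAt (g i) (fderiv ℝ (g i) x) (p (Ψ x)) := by
      rw [e]
      exact (o2.contDiffAt (o1.mem_nhds hx.1.2)).hasStrictFDerivAt one_ne_zero
    have su : ((fderiv ℝ (g i) x).comp ((fderiv ℂ p (Ψ x)).restrictScalars ℝ)).range = ⊤ := by
      refine eq_top_iff.2 fun w _ => ?_
      obtain ⟨v, hv, rfl⟩ := o3 x hx.1 hx.2 w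
      have := (c.tan vU).1
      rw [e] at this
      rw [this] at hv
      obtain ⟨u, rfl⟩ := hv
      exact ⟨u, rfl⟩
    obtain ⟨r1, t, ht, r2⟩ := smallc_level (a2.comp (Ψ x) a1) su a1
    rw [smallc_fin, Module.finrank_prod, Module.finrank_self] at r1 r2
    refine ⟨by omega, _, ?_, r2⟩
    have t1 : ∀ᶠ y in 𝓝 x, Ψ y ∈ t := (c.aΨ x xW).continuousAt ht
    filter_upwards [mem_nhdsWithin_of_mem_nhds t1, mem_nhdsWithin_of_mem_nhds (c.oW.mem_nhds xW),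
      self_mem_nhdsWithin] with y y1 y2 y3
    have e' := (c.hW y ⟨y3.1.1, y2⟩).2
    refine ⟨Ψ y, ⟨y1, ?_⟩, e'⟩
    show g i (p (Ψ y)) = g i (p (Ψ x))
    rw [e, e', y3.2, hx.2]
  obtain ⟨x, hx⟩ := ne
  obtain ⟨i, i1, i2⟩ := hc x hx
  refine ⟨(key i x ⟨⟨hx.2, i1⟩, i2⟩).1, ?_⟩
  refine le_trans (dimH_mono (t := ⋃ i, {x | x ∈ X ∩ O i ∧ g i x = 0}) fun y hy => ?_) ?_
  · obtain ⟨j, j1, j2⟩ := hc y hy
    exact mem_iUnion.2 ⟨j, ⟨hy.2, j1⟩, j2⟩
  · rw [dimH_iUnion]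
    refine iSup_le fun j => not_lt.1 fun k => ?_
    obtain ⟨y, hy, hy'⟩ := exists_mem_nhdsWithin_lt_dimH_of_lt_dimH k
    obtain ⟨-, t, ht, r⟩ := key j y hy
    exact absurd r (not_le.2 (hy' t ht))

theorem smallc_img {H : Type} [NormedAddCommGroup H] [NormedSpace ℝ H] {Z : Set E} {P : E → H}
    (hP : ∀ x ∈ Z, ∃ P', ContDiffAt ℝ 1 P' x ∧ P =ᶠ[𝓝[Z] x] P') : dimH (P '' Z) ≤ dimH Z := by
  refine dimH_image_le_of_locally_lipschitzOn fun x hx => ?_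
  obtain ⟨P', h1, h2⟩ := hP x hx
  obtain ⟨K, t, ht, lip⟩ := h1.exists_lipschitzOnWith
  refine ⟨K, _, inter_mem (mem_nhdsWithin_of_mem_nhds ht) h2, fun a ha b hb => ?_⟩
  rw [show P a = P' a from ha.2, show P b = P' b from hb.2]
  exact lip ha.1 hb.1

/-- projection onto a real hyperplane -/
theorem smallc_proj (L : F →L[ℝ] ℝ) {e : F} (he : L e = 1) :
    Module.finrank ℝ L.ker + 1 = 2 * Module.finrank ℂ F ∧
      ∃ ℓ : F →L[ℝ] L.ker, ℓ e = 0 ∧ ∀ y : L.ker, ℓ y = y := by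
  constructor
  · have rk := LinearMap.finrank_range_add_finrank_ker (L : F →ₗ[ℝ] ℝ)
    have su : LinearMap.range (L : F →ₗ[ℝ] ℝ) = ⊤ :=
      eq_top_iff.2 fun c _ => ⟨c • e, by simp [he]⟩
    rw [su, finrank_top, Module.finrank_self, ← Module.finrank_mul_finrank ℝ ℂ F,
      Complex.finrank_real_complex] at rk
    omega
  · refine ⟨(ContinuousLinearMap.id ℝ F - L.smulRight e).codRestrict L.ker fun a => by simp [he], ?_, fun y => ?_⟩
    · ext
      simp [he]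
    · ext
      have : L y = 0 := y.2
      simp [this]

/-- Hausdorff dimension: `S ∩ X` is covered by countably many `C¹` images of pieces of `ℝ^(2n-2)`
(`dimH_iUnion`, `ContDiffOn.dimH_image_le`, `dense_compl_of_dimH_lt_finrank`). -/
theorem Small.dense_image {n : ℕ} {X S : Set E} (hX : Mfd n X) (h : Small X S) {π : E → F} (hπ : AnalyticOn ℂ π X)
    {H : Type} [NormedAddCommGroup H] [NormedSpace ℝ H] [FiniteDimensional ℝ H] (ℓ : F →L[ℝ] H)
    (hd : 2 * n ≤ Module.finrank ℝ H + 1) : Dense ((fun x => ℓ (π x)) '' (S ∩ X))ᶜ := by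
  rcases (S ∩ X).eq_empty_or_nonempty with e | ne
  · simp [e]
  obtain ⟨h1, h2⟩ := smallc_dim hX h ne
  refine dense_compl_of_dimH_lt_finrank (lt_of_le_of_lt ((smallc_img fun x hx => ?_).trans h2) ?_)
  · obtain ⟨g, hg, e⟩ := anOn_iff.1 hπ x hx.2
    refine ⟨fun y => ℓ (g y), ℓ.contDiff.contDiffAt.comp x (hg.contDiffAt.restrict_scalars ℝ), ?_⟩
    filter_upwards [e.filter_mono (nhdsWithin_mono _ inter_subset_right)] with y hy
    rw [hy]
  · exact_mod_cast (by omega : 2 * n - 2 < Module.finrank ℝ H)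

theorem Small.dense {n : ℕ} {X S : Set E} (hX : Mfd n X) (h : Small X S) : X ⊆ closure (X \ S) := by
  intro x hx
  obtain ⟨p, Ψ, U, W, c, xW⟩ := hX x hx
  obtain ⟨vU, e⟩ := c.hW x ⟨hx, xW⟩
  have d := Small.dense_image (hX.inter c.oW) (h.inter_open c.oW) (π := Ψ)
    (c.aΨ.analyticOn.mono inter_subset_right) (ContinuousLinearMap.id ℝ (Fin n → ℂ))
    (by rw [smallc_fin]; omega)
  have f := mem_closure_iff_frequently.1 (d (Ψ x))
  have ct : Tendsto p (𝓝 (Ψ x)) (𝓝 x) := by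
    have := (c.ah _ vU).continuousAt.tendsto
    rwa [e] at this
  refine mem_closure_iff_frequently.2 (ct.frequently ?_)
  refine (f.and_eventually (c.oO.mem_nhds vU)).mono fun v hv => ?_
  obtain ⟨a, b⟩ := c.hO v hv.2
  exact ⟨a.1, fun k => hv.1 ⟨p v, ⟨k, a⟩, b⟩⟩

/-- the image of a small set contains no piece of a real hypersurface -/
theorem Small.not_hyp {n : ℕ} {X S : Set E} (hX : Mfd n X) (h : Small X S) {π : E → F} (hπ : AnalyticOn ℂ π X)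
    (hn : n ≤ Module.finrank ℂ F) {r : F → ℝ} {q : F} (hr : AnalyticAt ℝ r q) (h0 : r q = 0)
    (hd : fderiv ℝ r q ≠ 0) : ∃ᶠ q' in 𝓝 q, r q' = 0 ∧ q' ∉ π '' (S ∩ X) := by
  obtain ⟨e₀, he₀⟩ : ∃ e₀, fderiv ℝ r q e₀ ≠ 0 := by
    by_contra k
    exact hd (ContinuousLinearMap.ext fun v => not_not.1 fun k' => k ⟨v, k'⟩)
  have he : fderiv ℝ r q ((fderiv ℝ r q e₀)⁻¹ • e₀) = 1 := by simp [he₀]
  obtain ⟨rk, ℓ, l0, l1⟩ := smallc_proj (fderiv ℝ r q) he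
  have d := Small.dense_image hX h hπ ℓ (by omega)
  have T := hr.hasStrictFDerivAt.prodMk (ℓ.hasStrictFDerivAt (x := q))
  have m := T.map_nhds_eq_of_surj (eq_top_iff.2 fun w _ =>
    ⟨w.1 • ((fderiv ℝ r q e₀)⁻¹ • e₀) + w.2, by
      have : fderiv ℝ r q w.2 = 0 := w.2.2
      refine Prod.ext ?_ ?_
      · show fderiv ℝ r q _ = w.1
        rw [map_add, map_smul, he, this]
        simp
      · show ℓ _ = w.2
        rw [map_add, map_smul, l0, l1]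
        simp⟩)
  intro k
  have k1 := image_mem_map (m := fun x => (r x, ℓ x)) k
  rw [m, h0] at k1
  have k2 : ∀ᶠ y in 𝓝 (ℓ q), ((0 : ℝ), y) ∈ (fun x => (r x, ℓ x)) '' {x | ¬ (r x = 0 ∧ x ∉ π '' (S ∩ X))} :=
    (continuous_const.prodMk continuous_id).continuousAt.eventually_mem k1
  obtain ⟨y, y1, q', y2, y3⟩ := ((mem_closure_iff_frequently.1 (d (ℓ q))).and_eventually k2).exists
  obtain ⟨y4, y5⟩ := Prod.mk.inj y3
  obtain ⟨x, hx, rfl⟩ := not_not.1 fun z => y2 ⟨y4, z⟩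
  exact y1 ⟨x, hx, y5⟩

/-- generic lines miss a small set -/
theorem Small.avoid {O S : Set E} (hO : IsOpen O) (h : Small O S) {e : E} (he : e ≠ 0) :
    Dense {a : E | ∀ θ : ℝ, a + θ • e ∉ S ∩ O} := by
  obtain ⟨L, hL⟩ := SeparatingDual.exists_eq_one (R := ℝ) he
  obtain ⟨rk, ℓ, l0, l1⟩ := smallc_proj L hL
  have d := Small.dense_image (Mfd.of_isOpen hO) h (π := fun x => x) analyticOn_id ℓ (by omega)
  refine Dense.mono (fun a ha θ k => ?_) (d.preimage (ℓ.isOpenMap fun y => ⟨y, l1 y⟩))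
  exact ha ⟨_, k, by simp [l0]⟩

end Crest.Agent.R264
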