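import Crest.Agent.R264.Base.Ident

set_option autoImplicit false
set_option linter.unusedSectionVars false
open Set Filter Topology Metric Complex

namespace Crest.Agent.R264

variable {E F G : Type}
  [NormedAddCommGroup E] [NormedSpace ℂ E] [NormedSpace ℝ E] [IsScalarTower ℝ ℂ E] [FiniteDimensional ℂ E]
  [NormedAddCommGroup F] [NormedSpace ℂ F] [NormedSpace ℝ F] [IsScalarTower ℝ ℂ F] [FiniteDimensional ℂ F]
  [NormedAddCommGroup G] [NormedSpace ℂ G] [NormedSpace ℝ G] [IsScalarTower ℝ ℂ G] [FiniteDimensional ℂ G]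

/-! Real hypersurfaces and sections. -/

section Real
variable {H : Type} [NormedAddCommGroup H] [NormedSpace ℝ H] [FiniteDimensional ℝ H]

/-- a chart in which `r` is linear -/
theorem topa_chart {r : H → ℝ} {q : H} (hr : AnalyticAt ℝ r q) (h0 : r q = 0) (hd : fderiv ℝ r q ≠ 0) :
    ∃ (e : OpenPartialHomeomorph H H) (v : H), fderiv ℝ r q v = 1 ∧ q ∈ e.source ∧ e q = 0 ∧
      (∀ x, fderiv ℝ r q (e x) = r x) ∧ HasStrictFDerivAt e.symm (ContinuousLinearMap.id ℝ H) 0 := by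
  have : CompleteSpace H := FiniteDimensional.complete ℝ H
  set L := fderiv ℝ r q with hL
  obtain ⟨w, hw⟩ : ∃ w, L w ≠ 0 := by
    by_contra h
    exact hd (ContinuousLinearMap.ext fun w => by simpa using not_exists.1 h w)
  have hv : L ((L w)⁻¹ • w) = 1 := by rw [map_smul, smul_eq_mul, inv_mul_cancel₀ hw]
  set v := (L w)⁻¹ • w
  have hs : HasStrictFDerivAt (fun x => x - q + (r x - L (x - q)) • v)
      ((ContinuousLinearEquiv.refl ℝ H : H ≃L[ℝ] H) : H →L[ℝ] H) q := by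
    have h1 : HasStrictFDerivAt (fun x : H => x - q) (ContinuousLinearMap.id ℝ H) q :=
      (hasStrictFDerivAt_id q).sub_const q
    have h2 : HasStrictFDerivAt (fun x => r x - L (x - q)) (L - L.comp (ContinuousLinearMap.id ℝ H)) q :=
      hr.hasStrictFDerivAt.sub (L.hasStrictFDerivAt.comp q h1)
    have h3 := h1.add (h2.smul_const v)
    refine HasStrictFDerivAt.congr_fderiv h3 ?_
    ext x
    simp
  have hq0 : q - q + (r q - L (q - q)) • v = 0 := by simp [h0]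
  refine ⟨hs.toOpenPartialHomeomorph _, v, hv, hs.mem_toOpenPartialHomeomorph_source, ?_, fun x => ?_, ?_⟩
  · rw [hs.toOpenPartialHomeomorph_coe]; exact hq0
  · rw [hs.toOpenPartialHomeomorph_coe]
    simp only [map_add, map_smul, hv, smul_eq_mul]
    ring
  · have := hs.to_localInverse
    rw [hq0] at this
    exact this

theorem topa_contr (e : OpenPartialHomeomorph H H) {S : Set H} (hS : S ⊆ e.target) (hc : Convex ℝ S)
    (hne : S.Nonempty) : ContractibleSpace (e.source ∩ e ⁻¹' S : Set H) := by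
  have := hc.contractibleSpace hne
  let φ : (e.source ∩ e ⁻¹' S : Set H) ≃ₜ S :=
    { toFun := fun x => ⟨e x, x.2.2⟩
      invFun := fun y => ⟨e.symm y, e.map_target (hS y.2), by
        rw [mem_preimage, e.right_inv (hS y.2)]; exact y.2⟩
      left_inv := fun x => Subtype.ext (e.left_inv x.2.1)
      right_inv := fun y => Subtype.ext (e.right_inv (hS y.2))
      continuous_toFun := by
        refine Continuous.subtype_mk ?_ _
        exact (e.continuousOn.mono inter_subset_left).domRestrict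
      continuous_invFun := by
        refine Continuous.subtype_mk ?_ _
        exact (e.continuousOn_symm.mono hS).domRestrict }
  exact φ.contractibleSpace

/-- Half boxes.  With `dr(v) ≠ 0` and a projection `ℓ` along `v`, `(r, ℓ)` is a local homeomorphism; take the preimage
of a small ball. -/
theorem half_box {r : H → ℝ} {q : H} (hr : AnalyticAt ℝ r q) (h0 : r q = 0) (hd : fderiv ℝ r q ≠ 0) {U : Set H}
    (hU : U ∈ 𝓝 q) : ∃ W, IsOpen W ∧ q ∈ W ∧ W ⊆ U ∧ AnalyticOnNhd ℝ r W ∧ (∀ q' ∈ W, fderiv ℝ r q' ≠ 0) ∧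
      ContractibleSpace W ∧ ContractibleSpace (W ∩ {x | 0 < r x} : Set H) ∧
      ContractibleSpace (W ∩ {x | 0 < -r x} : Set H) ∧ IsPreconnected (W ∩ {x | r x = 0}) ∧
      (∀ q' ∈ W, r q' = 0 → q' ∈ closure (W ∩ {x | 0 < r x}) ∧ q' ∈ closure (W ∩ {x | 0 < -r x})) := by
  have : CompleteSpace H := FiniteDimensional.complete ℝ H
  obtain ⟨e, v, hv, hq, he0, hL, hs⟩ := topa_chart hr h0 hd
  set L := fderiv ℝ r q with hLdef
  have h0t : (0 : H) ∈ e.target := he0 ▸ e.map_source hq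
  have hsq : e.symm 0 = q := by rw [← he0, e.left_inv hq]
  have hU' : ∀ᶠ x in 𝓝 q, x ∈ U ∧ AnalyticAt ℝ r x ∧ fderiv ℝ r x ≠ 0 :=
    (show ∀ᶠ x in 𝓝 q, x ∈ U from hU).and (hr.eventually_analyticAt.and (hr.fderiv.continuousAt.eventually_ne hd))
  have hct : Tendsto e.symm (𝓝 0) (𝓝 q) := hsq ▸ (e.continuousAt_symm h0t).tendsto
  obtain ⟨ε, hε, hb⟩ := Metric.eventually_nhds_iff_ball.1
    ((hct.eventually hU').and (e.open_target.mem_nhds h0t))
  have hbt : ball (0 : H) ε ⊆ e.target := fun y hy => (hb y hy).2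
  have hW : ∀ x ∈ e.source ∩ e ⁻¹' ball 0 ε, x ∈ U ∧ AnalyticAt ℝ r x ∧ fderiv ℝ r x ≠ 0 := by
    intro x hx
    have := (hb _ hx.2).1
    rwa [e.left_inv hx.1] at this
  have hset : ∀ (A : Set ℝ), (e.source ∩ e ⁻¹' ball 0 ε) ∩ {x | r x ∈ A} =
      e.source ∩ e ⁻¹' (ball 0 ε ∩ L ⁻¹' A) := by
    intro A
    ext x
    simp only [mem_inter_iff, mem_preimage, mem_ofPred_eq, hL, and_assoc]
  -- points off the hypersurface near a point of it
  have hnear : ∀ (s : ℝ) (y : H), y ∈ ball (0 : H) ε → ∀ᶠ t in 𝓝[>] (0 : ℝ), y + (t * s) • v ∈ ball (0 : H) ε := by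
    intro s y hy
    have hc : Continuous fun t : ℝ => y + (t * s) • v := by fun_prop
    have : Tendsto (fun t : ℝ => y + (t * s) • v) (𝓝 0) (𝓝 y) := by simpa using hc.tendsto 0
    exact (this.eventually (isOpen_ball.mem_nhds hy)).filter_mono nhdsWithin_le_nhds
  have hcv : ∀ A : Set ℝ, Convex ℝ A → Convex ℝ (ball (0 : H) ε ∩ L ⁻¹' A) := fun A hA =>
    (convex_ball _ _).inter (hA.linear_preimage (L : H →ₗ[ℝ] ℝ))
  have hcon : ∀ A : Set ℝ, Convex ℝ A → (ball (0 : H) ε ∩ L ⁻¹' A).Nonempty →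
      ContractibleSpace ((e.source ∩ e ⁻¹' ball 0 ε) ∩ {x | r x ∈ A} : Set H) := by
    intro A hA hne
    rw [hset]
    exact topa_contr e (inter_subset_left.trans hbt) (hcv A hA) hne
  have hneg : {x | 0 < -r x} = {x | r x ∈ Iio (0 : ℝ)} := by ext x; simp
  have hne : ∀ (s : ℝ) (A : Set ℝ), (∀ t, 0 < t → t * s ∈ A) → (ball (0 : H) ε ∩ L ⁻¹' A).Nonempty := by
    intro s A hA
    obtain ⟨t, ht, ht'⟩ := ((hnear s 0 (mem_ball_self hε)).and self_mem_nhdsWithin).exists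
    refine ⟨_, ht, ?_⟩
    simpa [hv] using hA t ht'
  have hcl : ∀ (s : ℝ) (A : Set ℝ), (∀ t, 0 < t → t * s ∈ A) → ∀ q' ∈ e.source ∩ e ⁻¹' ball 0 ε, r q' = 0 →
      q' ∈ closure ((e.source ∩ e ⁻¹' ball 0 ε) ∩ {x | r x ∈ A}) := by
    intro s A hA q' hq' hr0
    have hc : Continuous fun t : ℝ => e q' + (t * s) • v := by fun_prop
    have h1 : Tendsto (fun t : ℝ => e q' + (t * s) • v) (𝓝 0) (𝓝 (e q')) := by simpa using hc.tendsto 0
    have h2 : Tendsto e.symm (𝓝 (e q')) (𝓝 q') := by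
      have := (e.continuousAt_symm (e.map_source hq'.1)).tendsto
      rwa [e.left_inv hq'.1] at this
    refine mem_closure_of_tendsto (b := 𝓝[>] (0 : ℝ)) ((h2.comp h1).mono_left nhdsWithin_le_nhds) ?_
    filter_upwards [hnear s _ hq'.2, self_mem_nhdsWithin] with t ht ht'
    rw [hset]
    refine ⟨e.map_target (hbt ht), ?_⟩
    rw [mem_preimage, Function.comp_apply, e.right_inv (hbt ht)]
    refine ⟨ht, ?_⟩
    simpa [hv, hL, hr0] using hA t ht'
  refine ⟨e.source ∩ e ⁻¹' ball 0 ε, e.isOpen_inter_preimage isOpen_ball, ⟨hq, by simpa [he0] using hε⟩,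
    fun x hx => (hW x hx).1, fun x hx => (hW x hx).2.1, fun x hx => (hW x hx).2.2,
    topa_contr e hbt (convex_ball _ _) ⟨0, mem_ball_self hε⟩,
    hcon (Ioi 0) (convex_Ioi 0) (hne 1 _ fun t ht => by simpa using ht), ?_, ?_, fun q' hq' hr0 => ⟨?_, ?_⟩⟩
  · rw [hneg]
    exact hcon (Iio 0) (convex_Iio 0) (hne (-1) _ fun t ht => by simpa using ht)
  · have := hcon {0} (convex_singleton 0) ⟨0, mem_ball_self hε, by simp⟩
    exact (isConnected_iff_connectedSpace.2 (inferInstanceAs (ConnectedSpace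
      ((e.source ∩ e ⁻¹' ball 0 ε) ∩ {x | r x ∈ ({0} : Set ℝ)} : Set H)))).isPreconnected
  · exact hcl 1 (Ioi 0) (fun t ht => by simpa using ht) q' hq' hr0
  · rw [hneg]
    exact hcl (-1) (Iio 0) (fun t ht => by simpa using ht) q' hq' hr0

theorem preconn_of_contr {W : Set H} (h : ContractibleSpace W) : IsConnected W := by
  exact isConnected_iff_connectedSpace.2 inferInstance

/-- two smooth hypersurfaces, one inside the other, coincide, and their sides agree up to a sign -/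
theorem sign_swap {r r' : H → ℝ} {q : H} (hr : AnalyticAt ℝ r q) (hr' : AnalyticAt ℝ r' q) (h0 : r q = 0)
    (hd : fderiv ℝ r q ≠ 0) (hd' : fderiv ℝ r' q ≠ 0) (h : ∀ᶠ x in 𝓝 q, r x = 0 → r' x = 0) :
    ∃ c : ℝ, c ≠ 0 ∧ fderiv ℝ r' q = c • fderiv ℝ r q ∧
      ∀ᶠ x in 𝓝 q, (r x = 0 ↔ r' x = 0) ∧ (0 < r x ↔ 0 < c * r' x) ∧ (0 < -r x ↔ 0 < -(c * r' x)) := by
  obtain ⟨e, v, hv, hq, he0, hL, hs⟩ := topa_chart hr h0 hd
  set L := fderiv ℝ r q with hLdef
  set L' := fderiv ℝ r' q with hL'def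
  have h0t : (0 : H) ∈ e.target := he0 ▸ e.map_source hq
  have hsq : e.symm 0 = q := by rw [← he0, e.left_inv hq]
  have hct : Tendsto e.symm (𝓝 0) (𝓝 q) := hsq ▸ (e.continuousAt_symm h0t).tendsto
  have hg : HasStrictFDerivAt (fun y => r' (e.symm y)) L' 0 := by
    have h1 : HasStrictFDerivAt r' L' (e.symm 0) := hsq ▸ hr'.hasStrictFDerivAt
    simpa using h1.comp 0 hs
  have hz : ∀ᶠ y in 𝓝 (0 : H), L y = 0 → r' (e.symm y) = 0 := by
    filter_upwards [hct.eventually h, e.open_target.mem_nhds h0t] with y hy hyt hLy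
    refine hy ?_
    rw [← hL, e.right_inv hyt, hLy]
  have hker : ∀ w, L w = 0 → L' w = 0 := by
    intro w hw
    have h1 : HasDerivAt (fun t : ℝ => t • w) w 0 := by simpa using (hasDerivAt_id (0 : ℝ)).smul_const w
    have h2 : HasDerivAt (fun t : ℝ => r' (e.symm (t • w))) (L' w) 0 :=
      HasFDerivAt.comp_hasDerivAt (l := fun y => r' (e.symm y)) 0 (by simpa using hg.hasFDerivAt) h1
    have h3 : Tendsto (fun t : ℝ => t • w) (𝓝 0) (𝓝 0) := by simpa using h1.continuousAt.tendsto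
    have h4 : (fun t : ℝ => r' (e.symm (t • w))) =ᶠ[𝓝 0] fun _ => 0 := by
      filter_upwards [h3.eventually hz] with t ht
      exact ht (by simp [hw])
    exact h2.unique ((hasDerivAt_const (0 : ℝ) (0 : ℝ)).congr_of_eventuallyEq h4)
  have hc : L' = L' v • L := by
    ext w
    have := hker (w - L w • v) (by simp [hv])
    simp only [map_sub, map_smul, smul_eq_mul] at this
    simp only [ContinuousLinearMap.smul_apply, smul_eq_mul]
    linarith
  set c := L' v with hcdef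
  have hc0 : c ≠ 0 := fun h => hd' (by rw [hc, h, zero_smul])
  refine ⟨c, hc0, hc, ?_⟩
  have hv0 : 0 < ‖v‖ := norm_pos_iff.2 fun h => by simp [h] at hv
  have hδ : 0 < |c| / (2 * ‖v‖) := div_pos (abs_pos.2 hc0) (by positivity)
  have hb := hg.isLittleO.bound hδ
  have ht : Tendsto (fun x => (e x, e x - L (e x) • v)) (𝓝 q) (𝓝 ((0 : H), (0 : H))) := by
    have h1 : Tendsto e (𝓝 q) (𝓝 0) := he0 ▸ (e.continuousAt hq).tendsto
    have h2 : Continuous fun y : H => (y, y - L y • v) := by fun_prop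
    have h3 := (h2.tendsto 0).comp h1
    simp only [map_zero, zero_smul, sub_zero] at h3
    exact h3
  filter_upwards [ht.eventually hb, (continuous_snd.tendsto _ |>.comp ht).eventually hz,
    e.open_source.mem_nhds hq] with x hx hx0 hxs
  have hx1 : r' (e.symm (e x - L (e x) • v)) = 0 := hx0 (by simp [hv])
  rw [hL] at hx1
  simp only [e.left_inv hxs, sub_sub_cancel, map_smul, smul_eq_mul, hL, norm_smul, Real.norm_eq_abs] at hx
  rw [hx1, sub_zero, ← hcdef] at hx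
  have hx2 : |r' x - r x * c| ≤ |c| / 2 * |r x| := by
    refine hx.trans (le_of_eq ?_)
    field_simp
  have hx3 : |c * r' x - r x * c ^ 2| ≤ c ^ 2 / 2 * |r x| := by
    have : c * r' x - r x * c ^ 2 = c * (r' x - r x * c) := by ring
    rw [this, abs_mul, ← sq_abs c]
    nlinarith [mul_le_mul_of_nonneg_left hx2 (abs_nonneg c)]
  have hc2 : 0 < c ^ 2 := by positivity
  obtain ⟨a1, a2⟩ := abs_le.1 hx3
  rcases lt_trichotomy (r x) 0 with hn | hn | hn
  · rw [abs_of_neg hn] at a1 a2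
    have : c * r' x < 0 := by nlinarith
    refine ⟨⟨fun h => absurd h hn.ne, fun h => by simp [h] at this⟩, ⟨fun h => by linarith, fun h => by linarith⟩,
      ⟨fun _ => by linarith, fun _ => by linarith⟩⟩
  · have : c * r' x = 0 := by
      rw [hn] at a1 a2
      simp only [abs_zero, mul_zero, neg_zero, zero_mul, sub_zero] at a1 a2
      linarith
    have h' : r' x = 0 := (mul_eq_zero.1 this).resolve_left hc0
    simp [hn, h']
  · rw [abs_of_pos hn] at a1 a2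
    have : 0 < c * r' x := by nlinarith
    refine ⟨⟨fun h => absurd h hn.ne', fun h => by simp [h] at this⟩, ⟨fun _ => this, fun _ => hn⟩,
      ⟨fun h => by linarith, fun h => by linarith⟩⟩

theorem dense_ne {R : H → ℝ} (hR : AnalyticOnNhd ℝ R univ) (hne : ∃ q, R q ≠ 0) : Dense {q | R q ≠ 0} := by
  intro x
  by_contra hx
  have h1 : R =ᶠ[𝓝 x] 0 := by
    filter_upwards [isClosed_closure.isOpen_compl.mem_nhds hx] with y hy
    by_contra h
    exact hy (subset_closure h)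
  obtain ⟨q, hq⟩ := hne
  exact hq (hR.eqOn_zero_of_preconnected_of_eventuallyEq_zero isPreconnected_univ (mem_univ x) h1 (mem_univ q))

end Real

/-- a connected family of regular points covered by finitely many sections lies in one of them -/
theorem Sec.pick {n : ℕ} {X : Set E} (hX : Mfd n X) (hn : Module.finrank ℂ F = n) {π : E → F}
    (hπ : AnalyticOn ℂ π X) {V : Set F} (hV : IsOpen V) (hc : IsConnected V) {τ : F → E} (hτ : Sec X π V τ)
    {𝒮 : Set (Set F × (F → E))} (hf : 𝒮.Finite) (hS : ∀ s ∈ 𝒮, IsOpen s.1 ∧ V ⊆ s.1 ∧ Sec X π s.1 s.2)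
    (hcov : ∀ q ∈ V, ∃ s ∈ 𝒮, s.2 q = τ q) : ∃ s ∈ 𝒮, EqOn s.2 τ V := by
  obtain ⟨q, hq⟩ := hc.nonempty
  obtain ⟨s, hs, he⟩ := hcov q hq
  obtain ⟨h1, h2, h3⟩ := hS s hs
  exact ⟨s, hs, Sec.eqOn hX hn hπ h1 hV h3 hτ hc.isPreconnected (subset_inter h2 subset_rfl) hq he⟩

theorem topb_cov {n : ℕ} {X : Set E} (hX : Mfd n X) (hn : Module.finrank ℂ F = n) {π : E → F}
    (hπ : AnalyticOn ℂ π X) {R : F → ℝ} (h : PP X π R) {V : Set F} (hR : ∀ q ∈ V, R q ≠ 0) :
    IsCoveringMap fun y : ↥(X ∩ π ⁻¹' V) => (⟨π y, y.2.2⟩ : V) := by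
  set p : ↥(X ∩ π ⁻¹' V) → V := fun y => ⟨π y, y.2.2⟩ with hp
  have hc : Continuous p :=
    (continuousOn_iff_continuous_domRestrict.1 (hπ.continuousOn.mono inter_subset_left)).subtype_mk _
  have hA : ∀ y : ↥(X ∩ π ⁻¹' V), ∃ W τ, IsOpen W ∧ π y ∈ W ∧ Sec X π W τ ∧ τ (π y) = y := by
    intro y
    obtain ⟨W, h1, h2, 𝒮, -, h3, h4⟩ := h (π y) (hR _ y.2.2)
    obtain ⟨τ, h5, h6⟩ := h4 y y.2.1 h2
    exact ⟨W, τ, h1, h2, h3 τ h5, h6⟩
  have ho : IsOpenMap p := by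
    rw [isOpenMap_iff_nhds_le]
    intro y N hN
    obtain ⟨W, τ, h1, h2, h3, h4⟩ := hA y
    obtain ⟨O, hO, hON⟩ := (mem_nhds_subtype _ _ _).1 (mem_map.1 hN)
    have h5 : ∀ᶠ q in 𝓝 (π y), τ q ∈ O := (h3.1 _ h2).continuousAt.preimage_mem_nhds (h4.symm ▸ hO)
    have h6 : ∀ᶠ q : V in 𝓝 (p y), q.1 ∈ W ∧ τ q ∈ O :=
      (continuous_subtype_val.tendsto (p y)).eventually (p := fun q => q ∈ W ∧ τ q ∈ O)
        ((h1.eventually_mem h2).and h5)
    filter_upwards [h6] with q hq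
    obtain ⟨e1, e2⟩ := h3.2 q hq.1
    have h7 := hON (a := ⟨τ q, e1, by rw [mem_preimage, e2]; exact q.2⟩) hq.2
    rw [mem_preimage] at h7
    convert h7 using 1
    exact Subtype.ext e2.symm
  have hl : IsLocalHomeomorph p := by
    rw [isLocalHomeomorph_iff_isOpenEmbedding_restrict]
    intro y
    obtain ⟨W, τ, h1, h2, h3, h4⟩ := hA y
    have h5 := (h3.nhds hX hn hπ h1 h2).2.2
    rw [h4] at h5
    have h6 : ∀ᶠ y' : ↥(X ∩ π ⁻¹' V) in 𝓝 y, π y' ∈ W ∧ τ (π y') = y' :=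
      (tendsto_nhdsWithin_iff.2 ⟨continuous_subtype_val.tendsto y,
        Eventually.of_forall fun y' => y'.2.1⟩).eventually h5
    obtain ⟨U, hU, hUo, hyU⟩ := _root_.mem_nhds_iff.1 h6
    refine ⟨U, hUo.mem_nhds hyU, .of_continuous_injective_isOpenMap (hc.comp continuous_subtype_val)
      (fun a b hab => ?_) (ho.domRestrict hUo)⟩
    have e : π a = π b := congrArg Subtype.val hab
    refine Subtype.ext (Subtype.ext ?_)
    rw [← (hU a.2).2, ← (hU b.2).2, e]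
  have hcl : IsClosedMap p := by
    rw [isClosedMap_iff_comap_nhds_le]
    intro q N hN
    obtain ⟨O', hO', h1, h2⟩ := mem_nhdsSet_iff_exists.1 hN
    obtain ⟨O, hO, rfl⟩ := isOpen_induced_iff.1 hO'
    obtain ⟨W, h3, h4, 𝒮, h5, h6, h7⟩ := h q (hR _ q.2)
    have h8 : ∀ᶠ q' in 𝓝 q.1, ∀ σ ∈ 𝒮, σ q' ∈ O := by
      refine (eventually_all_finite h5).2 fun σ hσ => ?_
      obtain ⟨e1, e2⟩ := (h6 σ hσ).2 q h4
      exact ((h6 σ hσ).1 _ h4).continuousAt.preimage_mem_nhds (hO.mem_nhds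
        (h1 (a := ⟨σ q, e1, by rw [mem_preimage, e2]; exact q.2⟩) (Subtype.ext e2)))
    have h9 : ∀ᶠ q' : V in 𝓝 q, q'.1 ∈ W ∧ ∀ σ ∈ 𝒮, σ q' ∈ O :=
      continuous_subtype_val.continuousAt.eventually ((h3.eventually_mem h4).and h8)
    refine mem_comap.2 ⟨_, h9, fun y hy => h2 ?_⟩
    obtain ⟨σ, e1, e2⟩ := h7 y y.2.1 hy.1
    have e3 : σ (π y) ∈ O := hy.2 σ e1
    rwa [e2] at e3
  rw [isCoveringMap_iff_isCoveringMapOn_univ]
  refine hcl.isCoveringMapOn_of_isLocalHomeomorphOn (fun q _ => ?_) hl.isLocalHomeomorphOn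
  obtain ⟨W, h3, h4, 𝒮, h5, h6, h7⟩ := h q (hR _ q.2)
  refine ((h5.image fun σ => σ q).preimage Subtype.val_injective.injOn).subset fun y hy => ?_
  have e : π y = q := congrArg Subtype.val hy
  obtain ⟨σ, e1, e2⟩ := h7 y y.2.1 (e ▸ h4)
  exact ⟨σ, e1, by rw [← e2, e]⟩

/-- Sections over contractible open sets on which `R ≠ 0`: `π : X ∩ π ⁻¹' V → V` is a finite covering
(shrink to balls and use `Sec.eqOn` to make the local sections disjoint; `IsCoveringMap`, lifting of the identity,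
or a direct monodromy argument). -/
theorem PP.sections {n : ℕ} {X : Set E} (hX : Mfd n X) (hn : Module.finrank ℂ F = n) {π : E → F}
    (hπ : AnalyticOn ℂ π X) {R : F → ℝ} (h : PP X π R) {V : Set F} (hV : IsOpen V) (hc : ContractibleSpace V)
    (hR : ∀ q ∈ V, R q ≠ 0) :
    ∃ 𝒮 : Set (F → E), 𝒮.Finite ∧ (∀ σ ∈ 𝒮, Sec X π V σ) ∧ ∀ x ∈ X, π x ∈ V → ∃ σ ∈ 𝒮, σ (π x) = x := by
  classical
  have hconn := preconn_of_contr hc
  refine ⟨{σ | Sec X π V σ ∧ ∀ q, q ∉ V → σ q = 0}, ?_, fun σ hσ => hσ.1, fun x hx hxV => ?_⟩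
  · obtain ⟨q, hq⟩ := hconn.nonempty
    obtain ⟨W, h3, h4, 𝒮, h5, h6, h7⟩ := h q (hR _ hq)
    refine Finite.of_finite_image (f := fun σ => σ q) ((h5.image fun σ => σ q).subset ?_) ?_
    · rintro _ ⟨σ, hσ, rfl⟩
      obtain ⟨e1, e2⟩ := hσ.1.2 q hq
      obtain ⟨τ, e3, e4⟩ := h7 _ e1 (e2.symm ▸ h4)
      exact ⟨τ, e3, by rwa [e2] at e4⟩
    · intro σ hσ σ' hσ' he
      have := Sec.eqOn hX hn hπ hV hV hσ.1 hσ'.1 hconn.isPreconnected (subset_inter subset_rfl subset_rfl)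
        hq he
      funext q'
      by_cases hq' : q' ∈ V
      · exact this hq'
      · rw [hσ.2 q' hq', hσ'.2 q' hq']
  have := hV.locallyPathConnectedSpace
  obtain ⟨Φ, ⟨h1, h2⟩, -⟩ := (topb_cov hX hn hπ h hR).existsUnique_continuousMap_lifts
    (ContinuousMap.id V) ⟨π x, hxV⟩ ⟨x, hx, hxV⟩ rfl
  set σ : F → E := fun q => if hq : q ∈ V then (Φ ⟨q, hq⟩ : E) else 0 with hσ
  have e0 : ∀ q : V, σ q = Φ q := fun q => dif_pos q.2
  have e1 : ∀ q ∈ V, σ q ∈ X ∧ π (σ q) = q := fun q hq => by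
    rw [e0 ⟨q, hq⟩]
    exact ⟨(Φ _).2.1, congrArg Subtype.val (congrFun h2 ⟨q, hq⟩)⟩
  have e2 : ContinuousOn σ V := by
    rw [continuousOn_iff_continuous_domRestrict]
    exact (continuous_subtype_val.comp Φ.continuous).congr fun q => (e0 q).symm
  refine ⟨σ, ⟨⟨fun q hq => ?_, e1⟩, fun q hq => dif_neg hq⟩, by rw [e0 ⟨_, hxV⟩, h1]⟩
  obtain ⟨W, h3, h4, 𝒮, h5, h6, h7⟩ := h q (hR _ hq)
  obtain ⟨τ, e3, e4⟩ := h7 _ (e1 q hq).1 ((e1 q hq).2.symm ▸ h4)
  rw [(e1 q hq).2] at e4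
  have e5 := ((h6 τ e3).nhds hX hn hπ h3 h4).2.2
  rw [e4] at e5
  have e6 : Tendsto σ (𝓝 q) (𝓝[X] (σ q)) := tendsto_nhdsWithin_iff.2
    ⟨e2.continuousAt (hV.mem_nhds hq), (hV.eventually_mem hq).mono fun q' hq' => (e1 q' hq').1⟩
  refine ((h6 τ e3).1 q h4).congr ?_
  filter_upwards [e6.eventually e5, hV.eventually_mem hq] with q' a1 a2
  rw [← a1.2, (e1 q' a2).2]

end Crest.Agent.R264
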