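import Crest.Agent.R264.Defs
import Crest.Agent.R266.SCV

set_option autoImplicit false
set_option linter.unusedSectionVars false
open Set Filter Topology Metric Complex

namespace Crest.Agent.R264

variable {E F G : Type}
  [NormedAddCommGroup E] [NormedSpace ℂ E] [NormedSpace ℝ E] [IsScalarTower ℝ ℂ E] [FiniteDimensional ℂ E]
  [NormedAddCommGroup F] [NormedSpace ℂ F] [NormedSpace ℝ F] [IsScalarTower ℝ ℂ F] [FiniteDimensional ℂ F]
  [NormedAddCommGroup G] [NormedSpace ℂ G] [NormedSpace ℝ G] [IsScalarTower ℝ ℂ G] [FiniteDimensional ℂ G]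

/-! Calculus on sets (no manifold hypothesis). -/

theorem anOn_iff {X : Set E} {f : E → F} :
    AnalyticOn ℂ f X ↔ ∀ x ∈ X, ∃ g, AnalyticAt ℂ g x ∧ f =ᶠ[𝓝[X] x] g := by
  refine forall₂_congr fun x hx => ?_
  rw [analyticWithinAt_iff_exists_analyticAt, insert_eq_of_mem hx]
  exact exists_congr fun g => and_comm

theorem anW_iff {X : Set E} {f : E → F} {x : E} (hx : x ∈ X) :
    AnalyticWithinAt ℂ f X x ↔ ∃ g, AnalyticAt ℂ g x ∧ f =ᶠ[𝓝[X] x] g := by
  rw [analyticWithinAt_iff_exists_analyticAt, insert_eq_of_mem hx]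
  exact exists_congr fun g => and_comm

/-- analyticity on `X` is local -/
theorem anOn_of_local {X : Set E} {f : E → F} (h : ∀ x ∈ X, ∃ O ∈ 𝓝 x, AnalyticOn ℂ f (X ∩ O)) :
    AnalyticOn ℂ f X := by
  intro x hx
  obtain ⟨O, hO, ha⟩ := h x hx
  exact (ha x ⟨hx, mem_of_mem_nhds hO⟩).mono_of_mem_nhdsWithin (inter_mem_nhdsWithin X hO)

theorem anW_diff {X : Set E} {f : E → F} {x : E} (h : AnalyticWithinAt ℂ f X x) : DifferentiableWithinAt ℂ f X x :=
  h.differentiableWithinAt.mono (subset_insert x X)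

theorem Dv_of_has {X : Set E} {f : E → F} {x v : E} {L : E →L[ℂ] F} (h : HasFDerivWithinAt f L X x)
    (hv : v ∈ Tan X x) : Dv X f x v = L v := by
  have h1 : (Tan X x) ≤ LinearMap.eqLocus (Dv X f x : E →ₗ[ℂ] F) (L : E →ₗ[ℂ] F) :=
    Submodule.span_le.2 fun w hw => h.differentiableWithinAt.hasFDerivWithinAt.unique_on h hw
  exact h1 hv

theorem Dv_eq_fderiv {X : Set E} {f g : E → F} {x v : E} (hx : x ∈ X) (hg : DifferentiableAt ℂ g x)
    (h : f =ᶠ[𝓝[X] x] g) (hv : v ∈ Tan X x) : Dv X f x v = fderiv ℂ g x v := by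
  exact Dv_of_has (hg.hasFDerivAt.hasFDerivWithinAt.congr_of_eventuallyEq h (h.self_of_nhdsWithin hx)) hv

theorem Dv_congr {X : Set E} {f g : E → F} {x : E} (hx : x ∈ X) (h : f =ᶠ[𝓝[X] x] g) : Dv X f x = Dv X g x := by
  exact h.fderivWithin_eq (h.self_of_nhdsWithin hx)

theorem Tan_mono {X Y : Set E} {x : E} (h : ∀ᶠ y in 𝓝[X] x, y ∈ Y) : Tan X x ≤ Tan Y x := by
  exact Submodule.span_mono (tangentConeAt_mono_nhds (le_inf inf_le_left (le_principal_iff.2 h)))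

theorem Tan_inter {X O : Set E} {x : E} (hO : O ∈ 𝓝 x) : Tan (X ∩ O) x = Tan X x := by
  rw [Tan, Tan, tangentConeAt_inter_nhds hO]

theorem Tan_of_mem_nhds {O : Set E} {x : E} (hO : O ∈ 𝓝 x) : Tan O x = ⊤ := by
  rw [Tan, tangentConeAt_of_mem_nhds hO, Submodule.span_univ]

theorem Dv_inter {X O : Set E} {f : E → F} {x : E} (hO : O ∈ 𝓝 x) : Dv (X ∩ O) f x = Dv X f x := by
  exact fderivWithin_inter hO

theorem Dv_of_mem_nhds {O : Set E} {f : E → F} {x : E} (hO : O ∈ 𝓝 x) : Dv O f x = fderiv ℂ f x := by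
  exact fderivWithin_of_mem_nhds hO

/-- restriction to a subset -/
theorem Dv_mono {X Y : Set E} {f : E → F} {x v : E} (hf : DifferentiableWithinAt ℂ f X x)
    (h : ∀ᶠ y in 𝓝[Y] x, y ∈ X) (hv : v ∈ Tan Y x) : Dv Y f x v = Dv X f x v := by
  exact Dv_of_has (hf.hasFDerivWithinAt.mono_of_mem_nhdsWithin h) hv

theorem Dv_mem_tan {X : Set E} {Y : Set F} {f : E → F} {x v : E} (hf : DifferentiableWithinAt ℂ f X x)
    (hm : ∀ᶠ y in 𝓝[X] x, f y ∈ Y) (hv : v ∈ Tan X x) : Dv X f x v ∈ Tan Y (f x) := by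
  have h1 : HasFDerivWithinAt f (Dv X f x) (X ∩ f ⁻¹' Y) x := hf.hasFDerivWithinAt.mono inter_subset_left
  have h2 : tangentConeAt ℂ X x ⊆ tangentConeAt ℂ (X ∩ f ⁻¹' Y) x :=
    tangentConeAt_mono_nhds (le_inf inf_le_left (le_principal_iff.2 (inter_mem self_mem_nhdsWithin hm)))
  have h3 : Tan X x ≤ (Tan Y (f x)).comap (Dv X f x : E →ₗ[ℂ] F) :=
    Submodule.span_le.2 fun w hw => Submodule.subset_span
      (tangentConeAt_mono (by rintro _ ⟨y, hy, rfl⟩; exact hy.2) (h1.mapsTo_tangent_cone (h2 hw)))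
  exact h3 hv

theorem Dv_comp {X : Set E} {Y : Set F} {f : E → F} {g : F → G} {x v : E} (hf : DifferentiableWithinAt ℂ f X x)
    (hg : DifferentiableWithinAt ℂ g Y (f x)) (hm : ∀ᶠ y in 𝓝[X] x, f y ∈ Y) (hv : v ∈ Tan X x) :
    Dv X (fun y => g (f y)) x v = Dv Y g (f x) (Dv X f x v) := by
  have h1 : HasFDerivWithinAt (fun y => g (f y)) ((Dv Y g (f x)).comp (Dv X f x)) (X ∩ f ⁻¹' Y) x :=
    hg.hasFDerivWithinAt.comp x (hf.hasFDerivWithinAt.mono inter_subset_left) fun y hy => hy.2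
  exact Dv_of_has (h1.mono_of_mem_nhdsWithin (inter_mem self_mem_nhdsWithin hm)) hv

theorem Dv_id {X : Set E} {x v : E} (hv : v ∈ Tan X x) : Dv X (fun y => y) x v = v := by
  exact Dv_of_has (hasFDerivWithinAt_id x X) hv

theorem Dv_const {X : Set E} {x v : E} (c : F) : Dv X (fun _ => c) x v = 0 := by
  simp [Dv]

theorem Dv_add {X : Set E} {f g : E → F} {x v : E} (hf : DifferentiableWithinAt ℂ f X x)
    (hg : DifferentiableWithinAt ℂ g X x) (hv : v ∈ Tan X x) :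
    Dv X (fun y => f y + g y) x v = Dv X f x v + Dv X g x v := by
  exact Dv_of_has (hf.hasFDerivWithinAt.add hg.hasFDerivWithinAt) hv

theorem Dv_sub {X : Set E} {f g : E → F} {x v : E} (hf : DifferentiableWithinAt ℂ f X x)
    (hg : DifferentiableWithinAt ℂ g X x) (hv : v ∈ Tan X x) :
    Dv X (fun y => f y - g y) x v = Dv X f x v - Dv X g x v := by
  exact Dv_of_has (hf.hasFDerivWithinAt.sub hg.hasFDerivWithinAt) hv

theorem Dv_smul {X : Set E} {c : E → ℂ} {f : E → F} {x v : E} (hc : DifferentiableWithinAt ℂ c X x)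
    (hf : DifferentiableWithinAt ℂ f X x) (hv : v ∈ Tan X x) :
    Dv X (fun y => c y • f y) x v = c x • Dv X f x v + Dv X c x v • f x := by
  exact Dv_of_has (hc.hasFDerivWithinAt.smul hf.hasFDerivWithinAt) hv

theorem Dv_const_smul {X : Set E} {f : E → F} {x v : E} (c : ℂ) (hf : DifferentiableWithinAt ℂ f X x)
    (hv : v ∈ Tan X x) : Dv X (fun y => c • f y) x v = c • Dv X f x v := by
  exact Dv_of_has (hf.hasFDerivWithinAt.const_smul c) hv

theorem Dv_rsmul {X : Set E} {f : E → F} {x v : E} (c : ℝ) (hf : DifferentiableWithinAt ℂ f X x)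
    (hv : v ∈ Tan X x) : Dv X (fun y => c • f y) x v = c • Dv X f x v := by
  have h := Dv_const_smul (c : ℂ) hf hv
  have e : ∀ w : F, (c : ℂ) • w = c • w := fun w => algebraMap_smul ℂ c w
  simpa only [e] using h

theorem Dv_clm {X : Set E} {f : E → F} {x v : E} (L : F →L[ℂ] G) (hf : DifferentiableWithinAt ℂ f X x)
    (hv : v ∈ Tan X x) : Dv X (fun y => L (f y)) x v = L (Dv X f x v) := by
  exact Dv_of_has (L.hasFDerivAt.comp_hasFDerivWithinAt x hf.hasFDerivWithinAt) hv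

theorem Dv_prod {X : Set E} {f : E → F} {g : E → G} {x v : E} (hf : DifferentiableWithinAt ℂ f X x)
    (hg : DifferentiableWithinAt ℂ g X x) (hv : v ∈ Tan X x) :
    Dv X (fun y => (f y, g y)) x v = (Dv X f x v, Dv X g x v) := by
  exact Dv_of_has (hf.hasFDerivWithinAt.prodMk hg.hasFDerivWithinAt) hv

theorem Tan_prod {X : Set E} {Y : Set F} {x : E} {y : F} (hx : x ∈ X) (hy : y ∈ Y) :
    Tan (X ×ˢ Y) (x, y) = (Tan X x).prod (Tan Y y) := by
  apply le_antisymm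
  · intro v hv
    have h1 := Dv_mem_tan (X := X ×ˢ Y) (Y := X) (f := Prod.fst) (x := (x, y)) differentiableWithinAt_fst
      (eventually_mem_nhdsWithin.mono fun p hp => hp.1) hv
    have h2 := Dv_mem_tan (X := X ×ˢ Y) (Y := Y) (f := Prod.snd) (x := (x, y)) differentiableWithinAt_snd
      (eventually_mem_nhdsWithin.mono fun p hp => hp.2) hv
    rw [Dv_of_has hasFDerivWithinAt_fst hv] at h1
    rw [Dv_of_has hasFDerivWithinAt_snd hv] at h2
    exact ⟨h1, h2⟩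
  · rintro ⟨v, w⟩ ⟨hv, hw⟩
    have h1 : Tan X x ≤ (Tan (X ×ˢ Y) (x, y)).comap (LinearMap.inl ℂ E F) :=
      Submodule.span_le.2 fun w hw => Submodule.subset_span
        (subset_tangentConeAt_prod_left (subset_closure hy) ⟨w, hw, rfl⟩)
    have h2 : Tan Y y ≤ (Tan (X ×ˢ Y) (x, y)).comap (LinearMap.inr ℂ E F) :=
      Submodule.span_le.2 fun w hw => Submodule.subset_span
        (subset_tangentConeAt_prod_right (subset_closure hx) ⟨w, hw, rfl⟩)
    have h3 : ((v, 0) : E × F) ∈ Tan (X ×ˢ Y) (x, y) := h1 hv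
    have h4 : ((0, w) : E × F) ∈ Tan (X ×ˢ Y) (x, y) := h2 hw
    simpa using add_mem h3 h4

/-- velocity of a real curve in `X` -/
theorem tan_of_curve {X : Set E} {c : ℝ → E} {v : E} {t : ℝ} (hc : HasDerivAt c v t) (h : ∀ᶠ s in 𝓝 t, c s ∈ X) :
    v ∈ Tan X (c t) := by
  have h1 : HasFDerivWithinAt c (ContinuousLinearMap.toSpanSingleton ℝ v) (c ⁻¹' X) t :=
    hc.hasFDerivAt.hasFDerivWithinAt
  have h2 := h1.mapsTo_tangent_cone (show (1 : ℝ) ∈ tangentConeAt ℝ (c ⁻¹' X) t by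
    rw [tangentConeAt_of_mem_nhds (show c ⁻¹' X ∈ 𝓝 t from h)]; trivial)
  have h3 := tangentConeAt_mono_field (𝕜' := ℂ) (tangentConeAt_mono (image_preimage_subset c X) h2)
  exact Submodule.subset_span (by simpa using h3)

theorem hasDerivAt_comp_curve {X : Set E} {f : E → F} {c : ℝ → E} {v : E} {t : ℝ} (hc : HasDerivAt c v t)
    (h : ∀ᶠ s in 𝓝 t, c s ∈ X) (hf : DifferentiableWithinAt ℂ f X (c t)) :
    HasDerivAt (fun s => f (c s)) (Dv X f (c t) v) t := by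
  have h1 := (hf.hasFDerivWithinAt.restrictScalars ℝ).comp_hasDerivWithinAt t
    (hc.hasDerivWithinAt (s := c ⁻¹' X)) fun s hs => hs
  exact h1.hasDerivAt h

/-- the same for maps from an open piece of a complex space -/
theorem fderiv_comp_param {X : Set E} {f : E → F} {c : G → E} {t : G} (hc : DifferentiableAt ℂ c t)
    (h : ∀ᶠ s in 𝓝 t, c s ∈ X) (hf : DifferentiableWithinAt ℂ f X (c t)) (e : G) :
    fderiv ℂ c t e ∈ Tan X (c t) ∧ DifferentiableAt ℂ (fun s => f (c s)) t ∧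
      fderiv ℂ (fun s => f (c s)) t e = Dv X f (c t) (fderiv ℂ c t e) := by
  have h1 : HasFDerivAt (fun s => f (c s)) ((Dv X f (c t)).comp (fderiv ℂ c t)) t :=
    (hf.hasFDerivWithinAt.comp t (hc.hasFDerivAt.hasFDerivWithinAt (s := c ⁻¹' X)) fun s hs => hs).hasFDerivAt h
  refine ⟨?_, h1.differentiableAt, by rw [h1.fderiv]; rfl⟩
  have h2 := Dv_mem_tan (X := univ) (Y := X) (v := e) hc.differentiableWithinAt (by rwa [nhdsWithin_univ])
    (by rw [Tan_of_mem_nhds univ_mem]; trivial)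
  rwa [Dv_of_mem_nhds univ_mem] at h2

theorem anAt_comp_param {X : Set E} {f : E → F} {c : G → E} {t : G} (hc : AnalyticAt ℂ c t)
    (h : ∀ᶠ s in 𝓝 t, c s ∈ X) (hf : AnalyticWithinAt ℂ f X (c t)) : AnalyticAt ℂ (fun s => f (c s)) t := by
  obtain ⟨g, hg, he⟩ := (anW_iff h.self_of_nhds).1 hf
  have h1 : Tendsto c (𝓝 t) (𝓝[X] (c t)) := tendsto_nhdsWithin_iff.2 ⟨hc.continuousAt, h⟩
  exact (hg.comp hc).congr (h1.eventually he.symm)

theorem Bih.symm {X : Set E} {Y : Set F} {f : E → F} {g : F → E} (h : Bih X Y f g) : Bih Y X g f := by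
  exact ⟨h.ag, h.af, h.mg, h.mf, h.fg, h.gf⟩

theorem Bih.refl (X : Set E) : Bih X X (fun x => x) (fun x => x) := by
  exact ⟨analyticOn_id, analyticOn_id, mapsTo_id X, mapsTo_id X, fun _ _ => rfl, fun _ _ => rfl⟩

theorem Bih.trans {X : Set E} {Y : Set F} {Z : Set G} {f : E → F} {g : F → E} {f' : F → G} {g' : G → F}
    (h : Bih X Y f g) (h' : Bih Y Z f' g') : Bih X Z (fun x => f' (f x)) (fun z => g (g' z)) := by
  exact ⟨h'.af.comp h.af h.mf, h.ag.comp h'.ag h'.mg, h'.mf.comp h.mf, h.mg.comp h'.mg,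
    fun x hx => by rw [h'.gf _ (h.mf hx), h.gf x hx], fun z hz => by rw [h.fg _ (h'.mg hz), h'.fg z hz]⟩

theorem Bih.Dv_left {X : Set E} {Y : Set F} {f : E → F} {g : F → E} (h : Bih X Y f g) {x v : E} (hx : x ∈ X)
    (hv : v ∈ Tan X x) : Dv X f x v ∈ Tan Y (f x) ∧ Dv Y g (f x) (Dv X f x v) = v := by
  have hm : ∀ᶠ y in 𝓝[X] x, f y ∈ Y := eventually_mem_nhdsWithin.mono fun y hy => h.mf hy
  have hf := h.af.differentiableOn x hx
  refine ⟨Dv_mem_tan hf hm hv, ?_⟩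
  rw [← Dv_comp hf (h.ag.differentiableOn _ (h.mf hx)) hm hv,
    Dv_congr hx (g := fun y => y) (eventually_mem_nhdsWithin.mono fun y hy => h.gf y hy), Dv_id hv]

theorem Bih.map_nhds {X : Set E} {Y : Set F} {f : E → F} {g : F → E} (h : Bih X Y f g) {x : E} (hx : x ∈ X) :
    map f (𝓝[X] x) = 𝓝[Y] (f x) := by
  refine le_antisymm ((h.af x hx).continuousWithinAt.tendsto_nhdsWithin h.mf) ?_
  have h1 := (h.ag _ (h.mf hx)).continuousWithinAt.tendsto_nhdsWithin h.mg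
  rw [h.gf x hx] at h1
  have h2 : map f (map g (𝓝[Y] (f x))) = 𝓝[Y] (f x) := by
    rw [map_map]
    exact (map_congr (eventually_mem_nhdsWithin.mono fun y hy => h.fg y hy)).trans map_id
  rw [← h2]
  exact map_mono h1

theorem Bih.prod {H : Type} [NormedAddCommGroup H] [NormedSpace ℂ H] [FiniteDimensional ℂ H]
    {X : Set E} {Y : Set F} {X' : Set G} {Y' : Set H} {f : E → F} {g : F → E} {f' : G → H} {g' : H → G}
    (h : Bih X Y f g) (h' : Bih X' Y' f' g') :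
    Bih (X ×ˢ X') (Y ×ˢ Y') (fun x => (f x.1, f' x.2)) (fun y => (g y.1, g' y.2)) := by
  exact ⟨(h.af.comp analyticOn_fst fun p hp => hp.1).prod (h'.af.comp analyticOn_snd fun p hp => hp.2),
    (h.ag.comp analyticOn_fst fun p hp => hp.1).prod (h'.ag.comp analyticOn_snd fun p hp => hp.2),
    fun p hp => ⟨h.mf hp.1, h'.mf hp.2⟩, fun p hp => ⟨h.mg hp.1, h'.mg hp.2⟩,
    fun p hp => Prod.ext (h.gf _ hp.1) (h'.gf _ hp.2), fun p hp => Prod.ext (h.fg _ hp.1) (h'.fg _ hp.2)⟩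

theorem IsGrp.bih {X : Set E} {φ : ℝ → E → E} (h : IsGrp X φ) (t : ℝ) : Bih X X (φ t) (φ (-t)) := by
  exact ⟨h.an t, h.an (-t), h.maps t, h.maps (-t), fun x hx => by rw [← h.add _ _ x hx, neg_add_cancel, h.zero x hx],
    fun x hx => by rw [← h.add _ _ x hx, add_neg_cancel, h.zero x hx]⟩

end Crest.Agent.R264
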