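import Crest.Agent.R264.Base.Montel

set_option autoImplicit false
set_option linter.unusedSectionVars false
open Set Filter Topology Metric Complex

namespace Crest.Agent.R264

variable {E F G : Type}
  [NormedAddCommGroup E] [NormedSpace ℂ E] [NormedSpace ℝ E] [IsScalarTower ℝ ℂ E] [FiniteDimensional ℂ E]
  [NormedAddCommGroup F] [NormedSpace ℂ F] [NormedSpace ℝ F] [IsScalarTower ℝ ℂ F] [FiniteDimensional ℂ F]
  [NormedAddCommGroup G] [NormedSpace ℂ G] [NormedSpace ℝ G] [IsScalarTower ℝ ℂ G] [FiniteDimensional ℂ G]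

/-! The pseudodistance `cd`, tautness, operations on `CM`. -/

theorem le_cd {X : Set E} {x y : E} (hx : x ∈ X) (hy : y ∈ X) {f : E → ℂ} (hf : AnalyticOn ℂ f X)
    (hb : ∀ z ∈ X, ‖f z‖ ≤ 1) : ‖f x - f y‖ ≤ cd X x y := by
  refine le_ciSup (f := fun f : {f : E → ℂ // AnalyticOn ℂ f X ∧ ∀ z ∈ X, ‖f z‖ ≤ 1} => ‖f.1 x - f.1 y‖)
    ⟨2, ?_⟩ ⟨f, hf, hb⟩
  rintro _ ⟨g, rfl⟩
  have := norm_sub_le (g.1 x) (g.1 y)
  linarith [g.2.2 x hx, g.2.2 y hy]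

theorem cd_le {X : Set E} {x y : E} {c : ℝ}
    (h : ∀ f : E → ℂ, AnalyticOn ℂ f X → (∀ z ∈ X, ‖f z‖ ≤ 1) → ‖f x - f y‖ ≤ c) : cd X x y ≤ c := by
  have : Nonempty {f : E → ℂ // AnalyticOn ℂ f X ∧ ∀ z ∈ X, ‖f z‖ ≤ 1} :=
    ⟨⟨fun _ => 0, analyticOn_const, fun _ _ => by simp⟩⟩
  exact ciSup_le fun f => h f.1 f.2.1 f.2.2

theorem cd_nonneg (X : Set E) (x y : E) : 0 ≤ cd X x y := by
  exact Real.iSup_nonneg fun _ => norm_nonneg _

theorem cd_self (X : Set E) (x : E) : cd X x x = 0 := by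
  exact le_antisymm (cd_le fun f _ _ => by simp) (cd_nonneg X x x)

theorem cd_comm (X : Set E) (x y : E) : cd X x y = cd X y x := by
  simp only [cd, norm_sub_rev]

theorem cd_triangle {X : Set E} {x y z : E} (hx : x ∈ X) (hy : y ∈ X) (hz : z ∈ X) :
    cd X x z ≤ cd X x y + cd X y z := by
  refine cd_le fun f hf hb => (norm_sub_le_norm_sub_add_norm_sub _ (f y) _).trans ?_
  exact add_le_add (le_cd hx hy hf hb) (le_cd hy hz hf hb)

theorem cd_map_le {X : Set E} {Y : Set F} {f : E → F} (hf : AnalyticOn ℂ f X) (hm : MapsTo f X Y) {x y : E}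
    (hx : x ∈ X) (hy : y ∈ X) : cd Y (f x) (f y) ≤ cd X x y := by
  exact cd_le fun g hg hb => le_cd (f := g ∘ f) hx hy (hg.comp hf hm) fun z hz => hb _ (hm hz)

theorem Bih.cd_eq {X : Set E} {Y : Set F} {f : E → F} {g : F → E} (h : Bih X Y f g) {x y : E} (hx : x ∈ X)
    (hy : y ∈ X) : cd Y (f x) (f y) = cd X x y := by
  refine le_antisymm (cd_map_le h.af h.mf hx hy) ?_
  have := cd_map_le h.ag h.mg (h.mf hx) (h.mf hy)
  rwa [h.gf x hx, h.gf y hy] at this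

/-- linear functionals of norm one (`exists_dual_vector`) -/
theorem norm_le_cd {X : Set E} (hb : Bornology.IsBounded X) :
    ∃ C > 0, ∀ x ∈ X, ∀ y ∈ X, ‖x - y‖ ≤ C * cd X x y := by
  obtain ⟨R, hR, hX⟩ := hb.exists_pos_norm_le
  refine ⟨R, hR, fun x hx y hy => ?_⟩
  obtain ⟨φ, h1, h2⟩ := exists_dual_vector'' ℂ (x - y)
  have := le_cd (f := fun z => (R : ℂ)⁻¹ * φ z) hx hy (analyticOn_const.mul (φ.analyticOn X)) fun z hz => by
    rw [norm_mul, norm_inv, Complex.norm_real, Real.norm_of_nonneg hR.le, inv_mul_le_iff₀ hR, mul_one]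
    exact (φ.le_of_opNorm_le h1 z).trans (by simpa using hX z hz)
  rw [← mul_sub, ← map_sub, h2, norm_mul, norm_inv, Complex.norm_real, Real.norm_of_nonneg hR.le,
    inv_mul_le_iff₀ hR] at this
  simpa using this

theorem cd_le_norm {n : ℕ} {X : Set E} (hX : Mfd n X) {x : E} (hx : x ∈ X) :
    ∃ O ∈ 𝓝 x, ∃ L : ℝ, 0 ≤ L ∧ ∀ y ∈ X ∩ O, ∀ y' ∈ X ∩ O, cd X y y' ≤ L * ‖y - y'‖ := by
  obtain ⟨O, hO, -, L, hL, h⟩ := unif_lip (F := ℂ) hX hx univ_mem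
  refine ⟨O, hO, L, hL, fun y hy y' hy' => cd_le fun f hf hb => ?_⟩
  simpa using (h f 1 (by simpa using hf) (by simpa using hb)).1 y hy y' hy'

theorem cd_continuousOn {n : ℕ} {X : Set E} (hX : Mfd n X) :
    ContinuousOn (fun p : E × E => cd X p.1 p.2) (X ×ˢ X) := by
  rintro ⟨x, y⟩ ⟨hx, hy⟩
  have key : ∀ x ∈ X, Tendsto (fun x' => cd X x x') (𝓝[X] x) (𝓝 0) := fun x hx => by
    obtain ⟨O, hO, L, -, h⟩ := cd_le_norm hX hx
    refine squeeze_zero' (g := fun x' => L * ‖x - x'‖) (Eventually.of_forall fun _ => cd_nonneg _ _ _) ?_ ?_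
    · filter_upwards [inter_mem_nhdsWithin X hO] with x' hx' using h x ⟨hx, mem_of_mem_nhds hO⟩ x' hx'
    · have : Continuous fun x' => L * ‖x - x'‖ := by fun_prop
      simpa using (this.tendsto x).mono_left (nhdsWithin_le_nhds (s := X))
  rw [ContinuousWithinAt, tendsto_iff_norm_sub_tendsto_zero, nhdsWithin_prod_eq]
  refine squeeze_zero' (g := fun p : E × E => cd X x p.1 + cd X y p.2) (Eventually.of_forall fun _ => norm_nonneg _)
    ?_ ?_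
  · filter_upwards [prod_mem_prod (self_mem_nhdsWithin (s := X) (a := x)) (self_mem_nhdsWithin (s := X) (a := y))]
      with p hp
    have h1 := cd_triangle hp.1 hx hp.2
    have h2 := cd_triangle hx hy hp.2
    have h3 := cd_triangle hx hp.1 hy
    have h4 := cd_triangle hp.1 hp.2 hy
    rw [cd_comm X p.1 x] at h1
    rw [cd_comm X p.2 y] at h4
    rw [Real.norm_eq_abs, abs_le]
    constructor <;> linarith
  · simpa using ((key x hx).comp tendsto_fst).add ((key y hy).comp tendsto_snd)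

/-- a `cd`-Cauchy type criterion for limits to stay in `X` -/
theorem CM.lim_mem {n : ℕ} {X : Set E} (hX : CM n X) : ∃ ε > 0, ∀ {J : Type} {l : Filter J} [l.NeBot]
    {y : J → E} {x a : E}, a ∈ X → (∀ᶠ j in l, y j ∈ X ∧ cd X a (y j) ≤ ε) → Tendsto y l (𝓝 x) → x ∈ X := by
  obtain ⟨ε, hε, h⟩ := hX.cpt
  exact ⟨ε, hε, fun ha hy hl => ((h _ ha).isClosed.mem_of_tendsto hl hy).1⟩

/-- Tautness.  The set of `y` with `g y ∈ X` is open and closed in `Y`: on a small neighbourhood `N` of `y` where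
`cd (Y ∩ O) ≤ ε / 2` one has `cd X (f j y') (f j y'') ≤ ε / 2` (`cd_map_le`). -/
theorem taut {n m : ℕ} {X : Set E} (hX : CM n X) {Y : Set F} (hY : Mfd m Y) (hc : IsPreconnected Y) {J : Type}
    {l : Filter J} [l.NeBot] {f : J → F → E} {g : F → E}
    (h : ∀ y ∈ Y, ∃ O ∈ 𝓝 y, ∀ᶠ j in l, AnalyticOn ℂ (f j) (Y ∩ O) ∧ MapsTo (f j) (Y ∩ O) X)
    (hl : ∀ y ∈ Y, Tendsto (fun j => f j y) l (𝓝 (g y))) {y₀ : F} (hy₀ : y₀ ∈ Y) (h0 : g y₀ ∈ X) :
    MapsTo g Y X := by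
  obtain ⟨ε, hε, hlim⟩ := hX.lim_mem
  have key : ∀ y ∈ Y, ∃ N ∈ 𝓝 y, ∀ y' ∈ Y ∩ N, ∀ y'' ∈ Y ∩ N, g y' ∈ X → g y'' ∈ X := fun y hy => by
    obtain ⟨O, hO, hf⟩ := h y hy
    obtain ⟨O', hO', L, hL, hc⟩ := cd_le_norm (hY.inter isOpen_interior) ⟨hy, mem_interior_iff_mem_nhds.2 hO⟩
    have hρ : 0 < ε / (4 * (L + 1)) := by positivity
    refine ⟨interior O ∩ O' ∩ ball y (ε / (4 * (L + 1))),
      inter_mem (inter_mem (interior_mem_nhds.2 hO) hO') (ball_mem_nhds y hρ), fun y' hy' y'' hy'' ha => ?_⟩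
    have h1 : cd (Y ∩ interior O) y' y'' ≤ ε / 2 := by
      refine (hc y' ⟨⟨hy'.1, hy'.2.1.1⟩, hy'.2.1.2⟩ y'' ⟨⟨hy''.1, hy''.2.1.1⟩, hy''.2.1.2⟩).trans ?_
      have h2 : ‖y' - y''‖ ≤ 2 * (ε / (4 * (L + 1))) := by
        rw [← dist_eq_norm]
        linarith [dist_triangle_right y' y'' y, mem_ball.1 hy'.2.2, mem_ball.1 hy''.2.2]
      calc L * ‖y' - y''‖ ≤ (L + 1) * (2 * (ε / (4 * (L + 1)))) := by gcongr; linarith
        _ = ε / 2 := by field_simp; ring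
    have hs : Y ∩ interior O ⊆ Y ∩ O := inter_subset_inter_right _ interior_subset
    have h3 : Tendsto (fun j => (g y', f j y')) l (𝓝[X ×ˢ X] (g y', g y')) :=
      tendsto_nhdsWithin_iff.2 ⟨tendsto_const_nhds.prodMk_nhds (hl y' hy'.1),
        hf.mono fun j hj => ⟨ha, hj.2 (hs ⟨hy'.1, hy'.2.1.1⟩)⟩⟩
    have h4 := (cd_continuousOn hX.mfd (g y', g y') ⟨ha, ha⟩).tendsto.comp h3
    rw [cd_self] at h4
    refine hlim ha ?_ (hl y'' hy''.1)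
    filter_upwards [hf, h4.eventually (gt_mem_nhds (half_pos hε))] with j hj h5
    have m1 := hj.2 (hs ⟨hy'.1, hy'.2.1.1⟩)
    have m2 := hj.2 (hs ⟨hy''.1, hy''.2.1.1⟩)
    have h6 := cd_map_le (hj.1.mono hs) (hj.2.mono_left hs) ⟨hy'.1, hy'.2.1.1⟩ ⟨hy''.1, hy''.2.1.1⟩
    refine ⟨m2, (cd_triangle ha m1 m2).trans ?_⟩
    have h7 : cd X (g y') (f j y') < ε / 2 := h5
    linarith
  refine clopen_ind (A := {y | g y ∈ X}) hc ⟨y₀, hy₀, h0⟩ (fun y hy ha => ?_) fun y hy hfr => ?_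
  · obtain ⟨N, hN, hk⟩ := key y hy
    filter_upwards [inter_mem_nhdsWithin Y hN] with y' hy' using hk y ⟨hy, mem_of_mem_nhds hN⟩ y' hy' ha
  · obtain ⟨N, hN, hk⟩ := key y hy
    obtain ⟨y', h1, h2⟩ := (hfr.and_eventually (inter_mem_nhdsWithin Y hN)).exists
    exact hk y' h2 y ⟨hy, mem_of_mem_nhds hN⟩ h1

theorem cdb_cpt {n : ℕ} {X K : Set E} (hX : Mfd n X) {x : E} (hx : x ∈ X) (hK : IsCompact K) (hKX : K ⊆ X)
    {ε : ℝ} (h : ∀ y ∈ X, cd X x y ≤ ε → y ∈ K) : IsCompact {y | y ∈ X ∧ cd X x y ≤ ε} := by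
  have h1 : ContinuousOn (fun y => cd X x y) K :=
    (cd_continuousOn hX).comp (f := fun y => (x, y)) (by fun_prop) fun y hy => ⟨hx, hKX hy⟩
  have h2 := h1.preimage_isClosed_of_isClosed hK.isClosed (isClosed_Iic (a := ε))
  have h3 : {y | y ∈ X ∧ cd X x y ≤ ε} = K ∩ (fun y => cd X x y) ⁻¹' Iic ε :=
    Set.ext fun y => ⟨fun hy => ⟨h y hy.1 hy.2, hy.2⟩, fun hy => ⟨hKX hy.1, hy.2⟩⟩
  rw [h3]
  exact hK.of_isClosed_subset h2 inter_subset_left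

theorem CM.bih {n : ℕ} {X : Set E} {Y : Set F} {f : E → F} {g : F → E} (hX : CM n X) (h : Bih X Y f g)
    (hb : Bornology.IsBounded Y) : CM n Y := by
  obtain ⟨ε, hε, hK⟩ := hX.cpt
  have hY : f '' X = Y := Subset.antisymm h.mf.image_subset fun y hy => ⟨g y, h.mg hy, h.fg y hy⟩
  refine ⟨hX.mfd.bih h, hY ▸ hX.conn.image f h.af.continuousOn, hb, ε, hε, fun y hy => ?_⟩
  refine cdb_cpt (hX.mfd.bih h) hy
    ((hK (g y) (h.mg hy)).image_of_continuousOn (h.af.continuousOn.mono fun _ h => h.1))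
    (by rintro _ ⟨x, hx, rfl⟩; exact h.mf hx.1) fun y' hy' hc => ?_
  exact ⟨g y', ⟨h.mg hy', (cd_map_le h.ag h.mg hy hy').trans hc⟩, h.fg y' hy'⟩

theorem CM.prod {n m : ℕ} {X : Set E} {Y : Set F} (hX : CM n X) (hY : CM m Y) : CM (n + m) (X ×ˢ Y) := by
  obtain ⟨ε, hε, hK⟩ := hX.cpt
  obtain ⟨ε', hε', hK'⟩ := hY.cpt
  refine ⟨hX.mfd.prod hY.mfd, hX.conn.prod hY.conn, hX.bdd.prod hY.bdd, min ε ε', lt_min hε hε',
    fun p hp => ?_⟩
  refine cdb_cpt (hX.mfd.prod hY.mfd) hp ((hK p.1 hp.1).prod (hK' p.2 hp.2))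
    (fun q hq => ⟨hq.1.1, hq.2.1⟩) fun q hq hc => ⟨⟨hq.1, ?_⟩, hq.2, ?_⟩
  · exact (cd_map_le (f := Prod.fst) analyticOn_fst (fun _ h => h.1) hp hq).trans
      (hc.trans (min_le_left _ _))
  · exact (cd_map_le (f := Prod.snd) analyticOn_snd (fun _ h => h.2) hp hq).trans
      (hc.trans (min_le_right _ _))

/-- a factor of a `CM` product -/
theorem CM.fst {n m : ℕ} {X : Set E} {Y : Set F} (h : CM n (X ×ˢ Y)) (hX : Mfd m X) : CM m X := by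
  obtain ⟨ε, hε, hK⟩ := h.cpt
  obtain ⟨p, hp⟩ := h.conn.nonempty
  have hi : Prod.fst '' (X ×ˢ Y) = X := fst_image_prod X ⟨p.2, hp.2⟩
  refine ⟨hX, hi ▸ h.conn.image _ continuous_fst.continuousOn, hi ▸ h.bdd.image_fst, ε, hε,
    fun x hx => ?_⟩
  refine cdb_cpt hX hx ((hK (x, p.2) ⟨hx, hp.2⟩).image continuous_fst)
    (by rintro _ ⟨q, hq, rfl⟩; exact hq.1.1) fun y hy hc => ⟨(y, p.2), ⟨⟨hy, hp.2⟩, ?_⟩, rfl⟩
  exact (cd_map_le (f := fun x => (x, p.2)) (analyticOn_id.prod analyticOn_const)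
    (fun _ h => mk_mem_prod h hp.2) hx hy).trans hc

theorem CM.retract {n k : ℕ} {X : Set E} (hX : CM n X) {ρ : E → E} (ha : AnalyticOn ℂ ρ X) (hm : MapsTo ρ X X)
    (hi : ∀ x ∈ X, ρ (ρ x) = ρ x) (hk : Mfd k (ρ '' X)) : CM k (ρ '' X) := by
  obtain ⟨ε, hε, hK⟩ := hX.cpt
  have hs : ρ '' X ⊆ X := hm.image_subset
  refine ⟨hk, hX.conn.image ρ ha.continuousOn, hX.bdd.subset hs, ε, hε, fun x hx => ?_⟩
  refine cdb_cpt hk hx ((hK x (hs hx)).image_of_continuousOn (ha.continuousOn.mono fun _ h => h.1))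
    (image_mono fun _ h => h.1) fun y hy hc => ⟨y, ⟨hs hy, ?_⟩, ?_⟩
  · exact (cd_map_le (f := fun x => x) analyticOn_id hs hx hy).trans hc
  · obtain ⟨z, hz, rfl⟩ := hy
    exact hi z hz

theorem Coc.bih {X : Set E} {Y : Set F} {f : E → F} {g : F → E} (hX : Coc X) (h : Bih X Y f g) : Coc Y := by
  obtain ⟨K, hK, hKX, h1⟩ := hX
  refine ⟨f '' K, hK.image_of_continuousOn (h.af.continuousOn.mono hKX),
    by rintro _ ⟨x, hx, rfl⟩; exact h.mf (hKX hx), fun y hy => ?_⟩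
  obtain ⟨a, b, hab, ha⟩ := h1 (g y) (h.mg hy)
  exact ⟨_, _, h.symm.trans (hab.trans h), mem_image_of_mem f ha⟩

theorem Coc.prod {X : Set E} {Y : Set F} (hX : Coc X) (hY : Coc Y) : Coc (X ×ˢ Y) := by
  obtain ⟨K, hK, hKX, h1⟩ := hX
  obtain ⟨K', hK', hKY, h2⟩ := hY
  refine ⟨K ×ˢ K', hK.prod hK', prod_mono hKX hKY, fun p hp => ?_⟩
  obtain ⟨a, b, hab, ha⟩ := h1 p.1 hp.1
  obtain ⟨a', b', hab', ha'⟩ := h2 p.2 hp.2
  exact ⟨_, _, hab.prod hab', ha, ha'⟩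

theorem Lat.coc {X : Set E} (h : Lat X) : Coc X := by
  obtain ⟨Γ, _, _, act, h1, h2, h3, ⟨K, hK, hKX, h4⟩, -⟩ := h
  refine ⟨K, hK, hKX, fun x hx => ?_⟩
  obtain ⟨γ, hγ⟩ := h4 x hx
  refine ⟨act γ, act γ⁻¹, ⟨(h1 γ).1, (h1 γ⁻¹).1, (h1 γ).2, (h1 γ⁻¹).2, fun y hy => ?_, fun y hy => ?_⟩, hγ⟩
  · rw [← h3 _ _ y hy, inv_mul_cancel, h2 y hy]
  · rw [← h3 _ _ y hy, mul_inv_cancel, h2 y hy]

private theorem sec_bih {X : Set E} {Y : Set F} {f : E → F} {g : F → E} (h : Bih X Y f g) {π : E → G}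
    {W : Set G} (hW : IsOpen W) {σ : G → E} (hσ : Sec X π W σ) :
    Sec Y (fun y => π (g y)) W (fun q => f (σ q)) := by
  refine ⟨fun q hq => ?_, fun q hq => ⟨h.mf (hσ.2 q hq).1, ?_⟩⟩
  · refine anAt_comp_param (X := X) (hσ.1 q hq) ?_ (h.af _ (hσ.2 q hq).1)
    filter_upwards [hW.mem_nhds hq] with s hs using (hσ.2 s hs).1
  · simp only [h.gf _ (hσ.2 q hq).1, (hσ.2 q hq).2]

private theorem reg_bih {X : Set E} {Y : Set F} {f : E → F} {g : F → E} (h : Bih X Y f g) {π : E → G}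
    (hπ : AnalyticOn ℂ π X) {y : F} (hy : y ∈ Reg Y (fun y => π (g y))) : g y ∈ Reg X π := by
  obtain ⟨hyY, hr⟩ := hy
  have hx : g y ∈ X := h.mg hyY
  refine ⟨hx, fun v hv h0 => ?_⟩
  obtain ⟨h1, h2⟩ := h.Dv_left hx hv
  rw [h.fg y hyY] at h1 h2
  have h3 : Dv Y (fun y => π (g y)) y (Dv X f (g y) v) = 0 := by
    rw [Dv_comp (Y := X) (anW_diff (h.ag y hyY)) (anW_diff (hπ _ hx)) ?_ h1, h2, h0]
    filter_upwards [self_mem_nhdsWithin] with z hz using h.mg hz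
  rw [← h2, hr _ h1 h3, map_zero]

private theorem walled_bih {X : Set E} {Y : Set F} {f : E → F} {g : F → E} (h : Bih X Y f g) {π : E → G}
    (hπ : AnalyticOn ℂ π X) {W S : Set G} {r : G → ℝ} {σ : G → E}
    (hσ : Sec X π (W ∩ {q | 0 < r q}) σ) (hw : Walled X π W r S σ) :
    Walled Y (fun y => π (g y)) W r S (fun q => f (σ q)) := by
  intro y hy hW hr hS hcl
  refine hw (g y) (reg_bih h hπ hy) hW hr hS ?_
  have hsub : (fun q => f (σ q)) '' (W ∩ {q | 0 < r q}) ⊆ Y := by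
    rintro _ ⟨q, hq, rfl⟩
    exact h.mf (hσ.2 q hq).1
  have hc : ContinuousWithinAt g ((fun q => f (σ q)) '' (W ∩ {q | 0 < r q})) y :=
    (h.ag.continuousOn y hy.1).mono hsub
  refine closure_mono ?_ (hc.mem_closure_image hcl)
  rintro _ ⟨_, ⟨q, hq, rfl⟩, rfl⟩
  exact ⟨q, hq, (h.gf _ (hσ.2 q hq).1).symm⟩

theorem PP.bih {X : Set E} {Y : Set F} {f : E → F} {g : F → E} (h : Bih X Y f g) {π : E → G} {R : G → ℝ}
    (hp : PP X π R) : PP Y (fun y => π (g y)) R := by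
  intro q hq
  obtain ⟨W, hW, hqW, 𝒮, hfin, hsec, hcov⟩ := hp q hq
  refine ⟨W, hW, hqW, (fun σ => fun q => f (σ q)) '' 𝒮, hfin.image _, ?_, ?_⟩
  · rintro _ ⟨σ, hσ, rfl⟩
    exact sec_bih h hW (hsec σ hσ)
  · intro y hy hyW
    obtain ⟨σ, hσ, he⟩ := hcov (g y) (h.mg hy) hyW
    exact ⟨_, ⟨σ, hσ, rfl⟩, by simp only [he, h.fg y hy]⟩

theorem ACls.bih {X : Set E} {Y : Set F} {f : E → F} {g : F → E} (h : Bih X Y f g) {π : E → G} {R : G → ℝ}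
    {C : Set G} (hc : ACls X π R C) : ACls Y (fun y => π (g y)) R C := by
  refine ⟨hc.an.comp h.ag h.mg, hc.bdd.subset ?_, hc.anR, hc.clC, hc.smC, hc.pp.bih h, ?_, ?_⟩
  · rintro _ ⟨y, hy, rfl⟩
    exact ⟨g y, h.mg hy, rfl⟩
  · intro q hqC hq
    obtain ⟨W, r, hW, hqW, hr, hd, hiff, 𝒮₀, 𝒮p, 𝒮m, f0, fp, fm, h0, hp, hm, hcov⟩ := hc.lt q hqC hq
    have hop : IsOpen (W ∩ {q' | 0 < r q'}) :=
      hr.continuousOn.isOpen_inter_preimage hW isOpen_Ioi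
    have hom : IsOpen (W ∩ {q' | 0 < -r q'}) :=
      hr.continuousOn.neg.isOpen_inter_preimage hW isOpen_Ioi
    refine ⟨W, r, hW, hqW, hr, hd, hiff, (fun σ => fun q => f (σ q)) '' 𝒮₀,
      (fun σ => fun q => f (σ q)) '' 𝒮p, (fun σ => fun q => f (σ q)) '' 𝒮m, f0.image _, fp.image _,
      fm.image _, ?_, ?_, ?_, ?_⟩
    · rintro _ ⟨σ, hσ, rfl⟩
      exact sec_bih h hW (h0 σ hσ)
    · rintro _ ⟨σ, hσ, rfl⟩
      exact ⟨sec_bih h hop (hp σ hσ).1, walled_bih h hc.an (hp σ hσ).1 (hp σ hσ).2⟩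
    · rintro _ ⟨σ, hσ, rfl⟩
      exact ⟨sec_bih h hom (hm σ hσ).1, walled_bih (r := fun q' => -r q') h hc.an (hm σ hσ).1 (hm σ hσ).2⟩
    · intro y hy hyW
      rcases hcov (g y) (reg_bih h hc.an hy) hyW with ⟨σ, hσ, he⟩ | ⟨hpos, σ, hσ, he⟩ | ⟨hpos, σ, hσ, he⟩
      · exact Or.inl ⟨_, ⟨σ, hσ, rfl⟩, by simp only [he, h.fg y hy.1]⟩
      · exact Or.inr (Or.inl ⟨hpos, _, ⟨σ, hσ, rfl⟩, by simp only [he, h.fg y hy.1]⟩)
      · exact Or.inr (Or.inr ⟨hpos, _, ⟨σ, hσ, rfl⟩, by simp only [he, h.fg y hy.1]⟩)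
  · obtain ⟨x, hx, hR⟩ := hc.ex
    exact ⟨f x, h.mf hx, by simpa only [h.gf x hx] using hR⟩

theorem Cls.bih {n : ℕ} {X : Set E} {Y : Set F} {f : E → F} {g : F → E} (h : Bih X Y f g) (hc : Cls n X) :
    Cls n Y := by
  obtain ⟨ι, _, π, R, C, h1, h2, h3⟩ := hc
  exact ⟨ι, inferInstance, fun y => π (g y), R, C, h1, h2, h3.bih h⟩

private theorem sec_lin {X : Set E} {π : E → F} (L : F ≃L[ℂ] G) {W : Set F} {σ : F → E} (hσ : Sec X π W σ) :
    Sec X (fun x => L (π x)) (L.symm ⁻¹' W) (fun q => σ (L.symm q)) := by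
  refine ⟨fun q hq => (hσ.1 _ hq).comp ((L.symm : G →L[ℂ] F).analyticAt q), fun q hq => ⟨(hσ.2 _ hq).1, ?_⟩⟩
  simp only [(hσ.2 _ hq).2, L.apply_symm_apply]

private theorem reg_lin {X : Set E} {π : E → F} (hπ : AnalyticOn ℂ π X) (L : F ≃L[ℂ] G) {x : E}
    (hx : x ∈ Reg X (fun x => L (π x))) : x ∈ Reg X π := by
  refine ⟨hx.1, fun v hv h0 => hx.2 v hv ?_⟩
  have := Dv_clm (L : F →L[ℂ] G) (anW_diff (hπ x hx.1)) hv
  rw [h0, map_zero] at this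
  exact this

private theorem walled_lin {X : Set E} {π : E → F} (hπ : AnalyticOn ℂ π X) (L : F ≃L[ℂ] G) {W : Set F}
    {r : F → ℝ} {σ : F → E} (hw : Walled X π W r ∅ σ) :
    Walled X (fun x => L (π x)) (L.symm ⁻¹' W) (fun q => r (L.symm q)) ∅ (fun q => σ (L.symm q)) := by
  intro x hx hW hr _ hcl
  refine hw x (reg_lin hπ L hx) (by simpa using hW) (by simpa using hr) (notMem_empty _) ?_
  refine closure_mono ?_ hcl
  rintro _ ⟨q, hq, rfl⟩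
  exact ⟨L.symm q, hq, rfl⟩

/-- linear change of the target -/
theorem ACls.lin {X : Set E} {π : E → F} {R : F → ℝ} {C : Set F} (hc : ACls X π R C) (L : F ≃L[ℂ] G) :
    ACls X (fun x => L (π x)) (fun q => R (L.symm q)) (L.symm ⁻¹' C) := by
  have hLc : Continuous (L.symm : G → F) := L.symm.continuous
  set M : G →L[ℝ] F := (L.symm : G →L[ℂ] F).restrictScalars ℝ with hM
  have hMa : ∀ q, M q = L.symm q := fun q => rfl
  have hMan : ∀ q, AnalyticAt ℝ (fun q => L.symm q) q := fun q => M.analyticAt q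
  refine ⟨?_, ?_, ?_, hc.clC.preimage hLc, ?_, ?_, ?_, ?_⟩
  · exact ((L : F →L[ℂ] G).analyticOnNhd univ).comp_analyticOn hc.an (mapsTo_univ _ _)
  · have := (L : F →L[ℂ] G).lipschitz.isBounded_image hc.bdd
    rwa [image_image] at this
  · intro q _
    exact (hc.anR (L.symm q) (mem_univ _)).comp (hMan q)
  · obtain ⟨O, g, hO, hS⟩ := hc.smC
    refine ⟨fun i => L.symm ⁻¹' O i, fun i q => g i (L.symm q), fun i => ⟨(hO i).1.preimage hLc, ?_, ?_⟩, ?_⟩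
    · exact (hO i).2.1.comp M.contDiff.contDiffOn (fun q hq => hq)
    · intro q hq h0 c
      obtain ⟨v, -, hv⟩ := (hO i).2.2 (L.symm q) ⟨mem_univ _, hq.2⟩ h0 c
      refine ⟨L v, by rw [Tan_of_mem_nhds univ_mem]; trivial, ?_⟩
      have hd : DifferentiableAt ℝ (g i) (L.symm q) :=
        ((hO i).2.1.contDiffAt ((hO i).1.mem_nhds hq.2)).differentiableAt (by simp)
      have : HasFDerivAt (fun q => g i (L.symm q)) ((fderiv ℝ (g i) (L.symm q)).comp M) q :=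
        hd.hasFDerivAt.comp q M.hasFDerivAt
      rw [this.fderiv, ContinuousLinearMap.comp_apply, hMa, L.symm_apply_apply, hv]
    · intro q hq
      exact hS (L.symm q) ⟨hq.1, mem_univ _⟩
  · intro q hq
    obtain ⟨W, hW, hqW, 𝒮, hfin, hsec, hcov⟩ := hc.pp (L.symm q) hq
    refine ⟨L.symm ⁻¹' W, hW.preimage hLc, hqW, (fun σ => fun q => σ (L.symm q)) '' 𝒮, hfin.image _, ?_, ?_⟩
    · rintro _ ⟨σ, hσ, rfl⟩
      exact sec_lin L (hsec σ hσ)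
    · intro x hx hxW
      obtain ⟨σ, hσ, he⟩ := hcov x hx (by simpa using hxW)
      exact ⟨_, ⟨σ, hσ, rfl⟩, by simp only [L.symm_apply_apply, he]⟩
  · intro q hqC hq
    obtain ⟨W, r, hW, hqW, hr, hd, hiff, 𝒮₀, 𝒮p, 𝒮m, f0, fp, fm, h0, hp, hm, hcov⟩ :=
      hc.lt (L.symm q) hqC hq
    refine ⟨L.symm ⁻¹' W, fun q => r (L.symm q), hW.preimage hLc, hqW, fun q' hq' => (hr _ hq').comp (hMan q'),
      ?_, fun q' hq' => hiff _ hq', (fun σ => fun q => σ (L.symm q)) '' 𝒮₀,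
      (fun σ => fun q => σ (L.symm q)) '' 𝒮p, (fun σ => fun q => σ (L.symm q)) '' 𝒮m, f0.image _, fp.image _,
      fm.image _, ?_, ?_, ?_, ?_⟩
    · have hdr : DifferentiableAt ℝ r (L.symm q) := (hr _ hqW).differentiableAt
      have : HasFDerivAt (fun q => r (L.symm q)) ((fderiv ℝ r (L.symm q)).comp M) q :=
        hdr.hasFDerivAt.comp q M.hasFDerivAt
      rw [this.fderiv]
      intro h0
      refine hd (ContinuousLinearMap.ext fun v => ?_)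
      have := congrArg (fun T : G →L[ℝ] ℝ => T (L v)) h0
      simpa only [ContinuousLinearMap.comp_apply, hMa, L.symm_apply_apply, ContinuousLinearMap.zero_apply]
        using this
    · rintro _ ⟨σ, hσ, rfl⟩
      exact sec_lin L (h0 σ hσ)
    · rintro _ ⟨σ, hσ, rfl⟩
      exact ⟨sec_lin L (hp σ hσ).1, walled_lin hc.an L (hp σ hσ).2⟩
    · rintro _ ⟨σ, hσ, rfl⟩
      exact ⟨sec_lin L (hm σ hσ).1, walled_lin (r := fun q' => -r q') hc.an L (hm σ hσ).2⟩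
    · intro x hx hxW
      rcases hcov x (reg_lin hc.an L hx) (by simpa using hxW) with
        ⟨σ, hσ, he⟩ | ⟨hpos, σ, hσ, he⟩ | ⟨hpos, σ, hσ, he⟩
      · exact Or.inl ⟨_, ⟨σ, hσ, rfl⟩, by simp only [L.symm_apply_apply, he]⟩
      · exact Or.inr (Or.inl ⟨by simpa using hpos, _, ⟨σ, hσ, rfl⟩, by simp only [L.symm_apply_apply, he]⟩)
      · exact Or.inr (Or.inr ⟨by simpa using hpos, _, ⟨σ, hσ, rfl⟩, by simp only [L.symm_apply_apply, he]⟩)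
  · obtain ⟨x, hx, hR⟩ := hc.ex
    exact ⟨x, hx, by simpa only [L.symm_apply_apply] using hR⟩

end Crest.Agent.R264
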