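import Crest.Agent.R264.Base.Calc

set_option autoImplicit false
set_option linter.unusedSectionVars false
open Set Filter Topology Metric Complex

namespace Crest.Agent.R264

variable {E F G : Type}
  [NormedAddCommGroup E] [NormedSpace ℂ E] [NormedSpace ℝ E] [IsScalarTower ℝ ℂ E] [FiniteDimensional ℂ E]
  [NormedAddCommGroup F] [NormedSpace ℂ F] [NormedSpace ℝ F] [IsScalarTower ℝ ℂ F] [FiniteDimensional ℂ F]
  [NormedAddCommGroup G] [NormedSpace ℂ G] [NormedSpace ℝ G] [IsScalarTower ℝ ℂ G] [FiniteDimensional ℂ G]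

/-! Charts. -/

theorem IsChart.tan {n : ℕ} {X W : Set E} {h : (Fin n → ℂ) → E} {Ψ : E → Fin n → ℂ} {O : Set (Fin n → ℂ)}
    (c : IsChart X h Ψ O W) {v : Fin n → ℂ} (hv : v ∈ O) :
    Tan X (h v) = LinearMap.range (fderiv ℂ h v : (Fin n → ℂ) →ₗ[ℂ] E) ∧
      ∀ e, fderiv ℂ Ψ (h v) (fderiv ℂ h v e) = e := by
  have ha := c.ah v hv
  obtain ⟨h1, h2⟩ := c.hO v hv
  have hΨ := c.aΨ _ h1.2
  have hO := c.oO.mem_nhds hv
  have e1 : ∀ e, fderiv ℂ Ψ (h v) (fderiv ℂ h v e) = e := by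
    intro e
    have b1 := (hΨ.differentiableAt.hasFDerivAt.comp v ha.differentiableAt.hasFDerivAt).unique
      ((hasFDerivAt_id v).congr_of_eventuallyEq (mem_of_superset hO fun u hu => (c.hO u hu).2))
    exact congrArg (fun L => L e) b1
  refine ⟨le_antisymm (fun w hw => ?_) ?_, e1⟩
  · have b1 : HasFDerivAt (fun y => h (Ψ y)) ((fderiv ℂ h v).comp (fderiv ℂ Ψ (h v))) (h v) := by
      refine HasFDerivAt.comp (g := h) _ ?_ hΨ.differentiableAt.hasFDerivAt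
      rw [h2]; exact ha.differentiableAt.hasFDerivAt
    have b2 := Dv_eq_fderiv (f := fun y => y) h1.1 b1.differentiableAt
      (mem_of_superset (inter_mem_nhdsWithin X (c.oW.mem_nhds h1.2)) fun y hy => (c.hW y hy).2.symm) hw
    rw [Dv_id hw, b1.fderiv] at b2
    exact ⟨_, b2.symm⟩
  · rintro _ ⟨e, rfl⟩
    exact (fderiv_comp_param (f := fun y => y) ha.differentiableAt
      (mem_of_superset hO fun u hu => (c.hO u hu).1.1) differentiableWithinAt_id e).1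

theorem IsChart.map_nhds {n : ℕ} {X W : Set E} {h : (Fin n → ℂ) → E} {Ψ : E → Fin n → ℂ} {O : Set (Fin n → ℂ)}
    (c : IsChart X h Ψ O W) {v : Fin n → ℂ} (hv : v ∈ O) : map h (𝓝 v) = 𝓝[X] (h v) := by
  have hb : Bih O (X ∩ W) h Ψ := ⟨c.ah.analyticOn, c.aΨ.analyticOn.mono inter_subset_right,
    fun v hv => (c.hO v hv).1, fun y hy => (c.hW y hy).1, fun v hv => (c.hO v hv).2, fun y hy => (c.hW y hy).2⟩
  have := hb.map_nhds hv
  rwa [nhdsWithin_eq_nhds.2 (c.oO.mem_nhds hv), nhdsWithin_inter_of_mem'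
    (mem_nhdsWithin_of_mem_nhds (c.oW.mem_nhds (c.hO v hv).1.2))] at this

theorem IsChart.bih {n : ℕ} {X W : Set E} {h : (Fin n → ℂ) → E} {Ψ : E → Fin n → ℂ} {O : Set (Fin n → ℂ)}
    (c : IsChart X h Ψ O W) : Bih O (X ∩ W) h Ψ := by
  exact ⟨c.ah.analyticOn, c.aΨ.analyticOn.mono inter_subset_right,
    fun v hv => (c.hO v hv).1, fun y hy => (c.hW y hy).1, fun v hv => (c.hO v hv).2, fun y hy => (c.hW y hy).2⟩

theorem IsChart.an_iff {n : ℕ} {X W : Set E} {h : (Fin n → ℂ) → E} {Ψ : E → Fin n → ℂ} {O : Set (Fin n → ℂ)}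
    (c : IsChart X h Ψ O W) {v : Fin n → ℂ} (hv : v ∈ O) {f : E → F} :
    AnalyticWithinAt ℂ f X (h v) ↔ AnalyticAt ℂ (fun u => f (h u)) v := by
  obtain ⟨h1, h2⟩ := c.hO v hv
  refine ⟨fun hf => anAt_comp_param (c.ah v hv) (mem_of_superset (c.oO.mem_nhds hv) fun u hu => (c.hO u hu).1.1) hf,
    fun hf => (anW_iff h1.1).2 ⟨fun y => f (h (Ψ y)), hf.comp_of_eq (c.aΨ _ h1.2) h2, ?_⟩⟩
  filter_upwards [inter_mem_nhdsWithin X (c.oW.mem_nhds h1.2)] with y hy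
  rw [(c.hW y hy).2]

theorem IsChart.shrink {n : ℕ} {X W : Set E} {h : (Fin n → ℂ) → E} {Ψ : E → Fin n → ℂ} {O : Set (Fin n → ℂ)}
    (c : IsChart X h Ψ O W) {O' : Set (Fin n → ℂ)} {U : Set E} (hO : IsOpen O') (hs : O' ⊆ O) (hU : IsOpen U)
    (hm : ∀ v ∈ O', h v ∈ U) : IsChart X h Ψ O' (W ∩ U ∩ Ψ ⁻¹' O') := by
  refine ⟨hO, (c.aΨ.continuousOn.mono inter_subset_left).isOpen_inter_preimage (c.oW.inter hU) hO, c.ah.mono hs,
    c.aΨ.mono fun y hy => hy.1.1, fun v hv => ?_, fun y hy => ⟨hy.2.2, (c.hW y ⟨hy.1, hy.2.1.1⟩).2⟩⟩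
  obtain ⟨h1, h2⟩ := c.hO v (hs hv)
  exact ⟨⟨h1.1, ⟨h1.2, hm v hv⟩, by rw [mem_preimage, h2]; exact hv⟩, h2⟩

theorem IsChart.shift {n : ℕ} {X W : Set E} {h : (Fin n → ℂ) → E} {Ψ : E → Fin n → ℂ} {O : Set (Fin n → ℂ)}
    (c : IsChart X h Ψ O W) (a : Fin n → ℂ) :
    IsChart X (fun v => h (v + a)) (fun y => Ψ y - a) ((fun v => v + a) ⁻¹' O) W := by
  refine ⟨c.oO.preimage (by fun_prop), c.oW, fun v hv => (c.ah _ hv).comp_of_eq
    (analyticAt_id.add analyticAt_const) rfl, fun y hy => (c.aΨ y hy).sub analyticAt_const, fun v hv => ?_,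
    fun y hy => ?_⟩
  · obtain ⟨h1, h2⟩ := c.hO _ hv
    exact ⟨h1, by simp only [h2, add_sub_cancel_right]⟩
  · simpa using c.hW y hy

/-- charts onto balls centred at `0`, inside a given neighbourhood; the closed ball is still inside a chart -/
theorem Mfd.ball {n : ℕ} {X : Set E} (hX : Mfd n X) {x : E} (hx : x ∈ X) {U : Set E} (hU : U ∈ 𝓝 x) :
    ∃ (h : (Fin n → ℂ) → E) (Ψ : E → Fin n → ℂ) (δ : ℝ) (W W' : Set E), 0 < δ ∧ IsChart X h Ψ (ball 0 δ) W ∧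
      IsChart X h Ψ (ball 0 (2 * δ)) W' ∧ W ⊆ W' ∧ W' ⊆ U ∧ x ∈ W ∧ h 0 = x := by
  obtain ⟨h, Ψ, O, W, c, hW⟩ := hX x hx
  obtain ⟨h1, h2⟩ := c.hW x ⟨hx, hW⟩
  have c' := c.shift (Ψ x)
  obtain ⟨U', hU', hUo, hxU⟩ := _root_.mem_nhds_iff.1 hU
  have h0 : (0 : Fin n → ℂ) ∈ (fun v => v + Ψ x) ⁻¹' O := by simpa using h1
  have h3 : ∀ᶠ v in 𝓝 (0 : Fin n → ℂ), v ∈ (fun v => v + Ψ x) ⁻¹' O ∧ h (v + Ψ x) ∈ U' := by
    refine (c'.oO.eventually_mem h0).and ((c'.ah 0 h0).continuousAt.eventually_mem ?_)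
    simp only [zero_add, h2]; exact hUo.mem_nhds hxU
  obtain ⟨ε, hε, hb⟩ := Metric.eventually_nhds_iff_ball.1 h3
  have e : 2 * (ε / 2) = ε := by ring
  have hs : Metric.ball (0 : Fin n → ℂ) (ε / 2) ⊆ Metric.ball 0 ε := ball_subset_ball (by linarith)
  refine ⟨_, _, ε / 2, _, W ∩ U' ∩ (fun y => Ψ y - Ψ x) ⁻¹' Metric.ball 0 ε, by positivity,
    c'.shrink isOpen_ball (fun v hv => (hb v (hs hv)).1) hUo fun v hv => (hb v (hs hv)).2,
    by rw [e]; exact c'.shrink isOpen_ball (fun v hv => (hb v hv).1) hUo fun v hv => (hb v hv).2,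
    fun y hy => ⟨hy.1, hs hy.2⟩, fun y hy => hU' hy.1.2, ⟨⟨hW, hxU⟩, by simpa using hε⟩, by simp [h2]⟩

theorem Mfd.finrank_tan {n : ℕ} {X : Set E} (hX : Mfd n X) {x : E} (hx : x ∈ X) :
    Module.finrank ℂ (Tan X x) = n := by
  obtain ⟨h, Ψ, O, W, c, hW⟩ := hX x hx
  obtain ⟨h1, h2⟩ := c.hW x ⟨hx, hW⟩
  obtain ⟨h3, h4⟩ := c.tan h1
  rw [h2] at h3
  rw [h3, LinearMap.finrank_range_of_inj (Function.LeftInverse.injective (g := fderiv ℂ Ψ (h (Ψ x))) h4)]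
  simp

/-- charts with an arbitrary model space and only germ conditions -/
theorem Mfd.of_germ {n : ℕ} {X : Set E} (hn : Module.finrank ℂ G = n)
    (h : ∀ x ∈ X, ∃ (h : G → E) (Ψ : E → G), AnalyticAt ℂ Ψ x ∧ AnalyticAt ℂ h (Ψ x) ∧
      (∀ᶠ v in 𝓝 (Ψ x), h v ∈ X ∧ Ψ (h v) = v) ∧ ∀ᶠ y in 𝓝[X] x, h (Ψ y) = y) : Mfd n X := by
  intro x hx
  obtain ⟨k, Ψ, h1, h2, h3, h4⟩ := h x hx
  let L : G ≃L[ℂ] (Fin n → ℂ) := ContinuousLinearEquiv.ofFinrankEq (by simp [hn])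
  obtain ⟨W, hW, hWo, hxW⟩ := _root_.eventually_nhds_iff.1 (h1.eventually_analyticAt.and (eventually_nhdsWithin_iff.1 h4))
  have h5 : k (Ψ x) = x := h4.self_of_nhdsWithin hx
  have h6 : ∀ᶠ v in 𝓝 (Ψ x), k v ∈ W := h2.continuousAt.eventually_mem (by rw [h5]; exact hWo.mem_nhds hxW)
  obtain ⟨O, hO, hOo, hxO⟩ := _root_.eventually_nhds_iff.1 (h2.eventually_analyticAt.and (h3.and h6))
  have hc : ContinuousOn Ψ W := fun y hy => (hW y hy).1.continuousAt.continuousWithinAt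
  refine ⟨fun v => k (L.symm v), fun y => L (Ψ y), L.symm ⁻¹' O, W ∩ Ψ ⁻¹' O, ⟨hOo.preimage L.symm.continuous,
    hc.isOpen_inter_preimage hWo hOo, fun v hv => (hO _ hv).1.comp_of_eq (L.symm.analyticAt v) rfl,
    fun y hy => (L.analyticAt _).comp (hW y hy.1).1, fun v hv => ?_, fun y hy => ?_⟩, hxW, hxO⟩
  · obtain ⟨-, ⟨b1, b2⟩, b3⟩ := hO _ hv
    exact ⟨⟨b1, b3, by rw [mem_preimage, b2]; exact hv⟩, by simp [b2]⟩
  · exact ⟨by simpa using hy.2.2, by simpa using (hW y hy.2.1).2 hy.1⟩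

theorem Mfd.germ {n : ℕ} {X : Set E} (hX : Mfd n X) {x : E} (hx : x ∈ X) :
    ∃ (h : (Fin n → ℂ) → E) (Ψ : E → Fin n → ℂ), AnalyticAt ℂ Ψ x ∧ AnalyticAt ℂ h (Ψ x) ∧
      (∀ᶠ v in 𝓝 (Ψ x), h v ∈ X ∧ Ψ (h v) = v) ∧ ∀ᶠ y in 𝓝[X] x, h (Ψ y) = y := by
  obtain ⟨h, Ψ, O, W, c, hW⟩ := hX x hx
  obtain ⟨h1, h2⟩ := c.hW x ⟨hx, hW⟩
  refine ⟨h, Ψ, c.aΨ x hW, c.ah _ h1, ?_, ?_⟩
  · filter_upwards [c.oO.mem_nhds h1] with v hv using ⟨(c.hO v hv).1.1, (c.hO v hv).2⟩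
  · filter_upwards [inter_mem_nhdsWithin X (c.oW.mem_nhds hW)] with y hy using (c.hW y hy).2

theorem Mfd.of_isOpen {O : Set E} (hO : IsOpen O) : Mfd (Module.finrank ℂ E) O := by
  refine Mfd.of_germ (G := E) rfl fun x hx => ⟨id, id, analyticAt_id, analyticAt_id, ?_, by simp⟩
  filter_upwards [hO.mem_nhds hx] with v hv using ⟨hv, rfl⟩

theorem Mfd.inter {n : ℕ} {X O : Set E} (hX : Mfd n X) (hO : IsOpen O) : Mfd n (X ∩ O) := by
  refine Mfd.of_germ (G := Fin n → ℂ) (by simp) fun x hx => ?_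
  obtain ⟨h, Ψ, h1, h2, h3, h4⟩ := hX.germ hx.1
  refine ⟨h, Ψ, h1, h2, ?_, h4.filter_mono (nhdsWithin_mono _ inter_subset_left)⟩
  have h6 : ∀ᶠ v in 𝓝 (Ψ x), h v ∈ O := h2.continuousAt.eventually_mem
    (by rw [h4.self_of_nhdsWithin hx.1]; exact hO.mem_nhds hx.2)
  filter_upwards [h3, h6] with v a b using ⟨⟨a.1, b⟩, a.2⟩

theorem Mfd.of_local {n : ℕ} {X : Set E} (h : ∀ x ∈ X, ∃ O ∈ 𝓝 x, Mfd n (X ∩ O)) : Mfd n X := by
  refine Mfd.of_germ (G := Fin n → ℂ) (by simp) fun x hx => ?_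
  obtain ⟨O, hO, hm⟩ := h x hx
  obtain ⟨k, Ψ, h1, h2, h3, h4⟩ := hm.germ ⟨hx, mem_of_mem_nhds hO⟩
  refine ⟨k, Ψ, h1, h2, h3.mono fun v hv => ⟨hv.1.1, hv.2⟩, ?_⟩
  rwa [nhdsWithin_inter_of_mem' (mem_nhdsWithin_of_mem_nhds hO)] at h4

theorem Mfd.bih {n : ℕ} {X : Set E} {Y : Set F} {f : E → F} {g : F → E} (hX : Mfd n X) (h : Bih X Y f g) :
    Mfd n Y := by
  refine Mfd.of_germ (G := Fin n → ℂ) (by simp) fun y hy => ?_
  have hx := h.mg hy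
  obtain ⟨k, Ψ, h1, h2, h3, h4⟩ := hX.germ hx
  obtain ⟨g', hg', he⟩ := anOn_iff.1 h.ag y hy
  have e1 : g' y = g y := (he.self_of_nhdsWithin hy).symm
  have e2 : k (Ψ (g y)) = g y := h4.self_of_nhdsWithin hx
  have t1 : Tendsto k (𝓝 (Ψ (g y))) (𝓝[X] (g y)) := tendsto_nhdsWithin_iff.2
    ⟨by have := h2.continuousAt.tendsto; rwa [e2] at this, h3.mono fun v hv => hv.1⟩
  have t2 : Tendsto f (𝓝[X] (g y)) (𝓝[Y] y) := by
    have := (h.map_nhds hx).le; rwa [h.fg y hy] at this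
  have t3 : Tendsto g (𝓝[Y] y) (𝓝[X] (g y)) := (h.symm.map_nhds hy).le
  refine ⟨fun v => f (k v), fun y => Ψ (g' y), h1.comp_of_eq hg' e1, ?_, ?_, ?_⟩
  · simp only [e1]
    exact anAt_comp_param h2 (h3.mono fun v hv => hv.1) (by rw [e2]; exact h.af _ hx)
  · simp only [e1]
    filter_upwards [h3, (t2.comp t1).eventually he] with v a b
    refine ⟨h.mf a.1, ?_⟩
    simp only [Function.comp] at b
    rw [← b, h.gf _ a.1, a.2]
  · filter_upwards [he, t3.eventually h4, self_mem_nhdsWithin] with y' a b c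
    rw [← a, b, h.fg _ c]

theorem Mfd.prod {n m : ℕ} {X : Set E} {Y : Set F} (hX : Mfd n X) (hY : Mfd m Y) : Mfd (n + m) (X ×ˢ Y) := by
  refine Mfd.of_germ (G := (Fin n → ℂ) × (Fin m → ℂ)) (by simp) fun p hp => ?_
  obtain ⟨h, Ψ, h1, h2, h3, h4⟩ := hX.germ hp.1
  obtain ⟨h', Ψ', h1', h2', h3', h4'⟩ := hY.germ hp.2
  refine ⟨fun v => (h v.1, h' v.2), fun q => (Ψ q.1, Ψ' q.2), (h1.comp analyticAt_fst).prod (h1'.comp analyticAt_snd),
    (h2.comp_of_eq analyticAt_fst rfl).prod (h2'.comp_of_eq analyticAt_snd rfl), ?_, ?_⟩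
  · filter_upwards [h3.prod_nhds h3'] with v hv using ⟨⟨hv.1.1, hv.2.1⟩, Prod.ext hv.1.2 hv.2.2⟩
  · rw [nhdsWithin_prod_eq]
    filter_upwards [h4.prod_mk h4'] with v hv using Prod.ext hv.1 hv.2

theorem Mfd.dim_unique {n m : ℕ} {X : Set E} (h : Mfd n X) (h' : Mfd m X) (hne : X.Nonempty) : n = m := by
  obtain ⟨x, hx⟩ := hne
  rw [← h.finrank_tan hx, h'.finrank_tan hx]

/-- small connected relatively compact neighbourhoods -/
theorem Mfd.nbhd {n : ℕ} {X : Set E} (hX : Mfd n X) {x : E} (hx : x ∈ X) {U : Set E} (hU : U ∈ 𝓝 x) :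
    ∃ O, IsOpen O ∧ x ∈ O ∧ O ⊆ U ∧ IsPreconnected (X ∩ O) ∧ IsCompact (closure (X ∩ O)) ∧
      closure (X ∩ O) ⊆ X ∩ U := by
  obtain ⟨h, Ψ, δ, W, W', hδ, c, c', hW, hU', hxW, h0⟩ := hX.ball hx hU
  have e1 : X ∩ W = h '' Metric.ball 0 δ := by
    ext y; constructor
    · intro hy; exact ⟨_, (c.hW y hy).1, (c.hW y hy).2⟩
    · rintro ⟨v, hv, rfl⟩; exact (c.hO v hv).1
  have hs : closedBall (0 : Fin n → ℂ) δ ⊆ Metric.ball 0 (2 * δ) := closedBall_subset_ball (by linarith)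
  have hK : IsCompact (h '' closedBall 0 δ) :=
    (isCompact_closedBall _ _).image_of_continuousOn (c'.ah.continuousOn.mono hs)
  have e2 : closure (X ∩ W) ⊆ h '' closedBall 0 δ :=
    closure_minimal (e1 ▸ image_mono ball_subset_closedBall) hK.isClosed
  refine ⟨W, c.oW, hxW, hW.trans hU', ?_, hK.of_isClosed_subset isClosed_closure e2, fun y hy => ?_⟩
  · rw [e1]; exact (convex_ball _ _).isPreconnected.image _ c.ah.continuousOn
  · obtain ⟨v, hv, rfl⟩ := e2 hy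
    exact ⟨(c'.hO v (hs hv)).1.1, hU' (c'.hO v (hs hv)).1.2⟩

theorem Mfd.subsingleton {X : Set E} (hX : Mfd 0 X) (hc : IsPreconnected X) : X.Subsingleton := by
  classical
  have h1 : ∀ x ∈ X, ∀ᶠ y in 𝓝[X] x, y = x := by
    intro x hx
    obtain ⟨h, Ψ, -, -, -, h4⟩ := hX.germ hx
    filter_upwards [h4] with y hy
    rw [← hy, Subsingleton.elim (Ψ y) (Ψ x), h4.self_of_nhdsWithin hx]
  intro x hx y hy
  have h2 : ∀ z ∈ X, ContinuousWithinAt (fun y : E => decide (y = x)) X z := by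
    intro z hz
    exact (continuousWithinAt_const (b := decide (z = x))).congr_of_eventuallyEq
      ((h1 z hz).mono fun y hy => by rw [hy]) rfl
  have h3 := hc.constant h2 hx hy
  simpa [eq_comm] using h3

/-- `Dv X f y (W y) = fderiv (f ∘ h ∘ Ψ) y (W y)` near `x` -/
theorem der_an {n : ℕ} {X : Set E} (hX : Mfd n X) {W : E → E} {f : E → F} (hW : VF X W) (hf : AnalyticOn ℂ f X) :
    AnalyticOn ℂ (der X W f) X := by
  intro x hx
  obtain ⟨g, hg, he⟩ := anOn_iff.1 hf x hx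
  have h1 : AnalyticWithinAt ℂ (fun y => fderiv ℂ g y (W y)) X x :=
    ((ContinuousLinearMap.id ℂ (E →L[ℂ] F)).analyticAt_bilinear _).comp₂_analyticWithinAt
      hg.fderiv.analyticWithinAt (hW.an x hx)
  have h2 : der X W f =ᶠ[𝓝[X] x] fun y => fderiv ℂ g y (W y) := by
    filter_upwards [eventually_eventually_nhdsWithin.2 he, self_mem_nhdsWithin,
      mem_nhdsWithin_of_mem_nhds hg.eventually_analyticAt] with y a b c
    exact Dv_eq_fderiv b c.differentiableAt a (hW.tan y b)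
  exact h1.congr_of_eventuallyEq h2 (h2.self_of_nhdsWithin hx)

/-- every tangent vector extends to a holomorphic tangent field near the point, indeed a frame exists -/
theorem Mfd.frame {n : ℕ} {X : Set E} (hX : Mfd n X) {x : E} (hx : x ∈ X) :
    ∃ O, IsOpen O ∧ x ∈ O ∧ ∃ e : E → (Fin n → ℂ) →L[ℂ] E, AnalyticOnNhd ℂ e O ∧
      ∀ y ∈ X ∩ O, Function.Injective (e y) ∧ Tan X y = LinearMap.range (e y : (Fin n → ℂ) →ₗ[ℂ] E) := by
  obtain ⟨h, Ψ, O, W, c, hW⟩ := hX x hx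
  refine ⟨W ∩ Ψ ⁻¹' O, c.aΨ.continuousOn.isOpen_inter_preimage c.oW c.oO, ⟨hW, (c.hW x ⟨hx, hW⟩).1⟩,
    fun y => fderiv ℂ h (Ψ y), fun y hy => (c.ah _ hy.2).fderiv.comp (c.aΨ y hy.1), fun y hy => ?_⟩
  obtain ⟨h3, h4⟩ := c.tan hy.2.2
  refine ⟨Function.LeftInverse.injective (g := fderiv ℂ Ψ (h (Ψ y))) h4, ?_⟩
  rw [← h3, (c.hW y ⟨hy.1, hy.2.1⟩).2]

/-- clopen argument on a connected set -/
theorem clopen_ind {X : Set E} (hc : IsPreconnected X) {A : Set E} (hne : (X ∩ A).Nonempty)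
    (ho : ∀ x ∈ X, x ∈ A → ∀ᶠ y in 𝓝[X] x, y ∈ A) (hcl : ∀ x ∈ X, (∃ᶠ y in 𝓝[X] x, y ∈ A) → x ∈ A) :
    X ⊆ A := by
  classical
  obtain ⟨x, hx, hA⟩ := hne
  have h2 : ∀ z ∈ X, ContinuousWithinAt (fun y : E => decide (y ∈ A)) X z := by
    intro z hz
    refine (continuousWithinAt_const (b := decide (z ∈ A))).congr_of_eventuallyEq ?_ rfl
    by_cases h : z ∈ A
    · filter_upwards [ho z hz h] with y hy
      simp [hy, h]
    · filter_upwards [not_frequently.1 fun h' => h (hcl z hz h')] with y hy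
      simp [hy, h]
  intro y hy
  have h3 := hc.constant h2 hx hy
  simpa [hA] using h3

end Crest.Agent.R264
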