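import Crest.Agent.R264.Base.Chart

set_option autoImplicit false
set_option linter.unusedSectionVars false
open Set Filter Topology Metric Complex

namespace Crest.Agent.R264

variable {E F G : Type}
  [NormedAddCommGroup E] [NormedSpace ℂ E] [NormedSpace ℝ E] [IsScalarTower ℝ ℂ E] [FiniteDimensional ℂ E]
  [NormedAddCommGroup F] [NormedSpace ℂ F] [NormedSpace ℝ F] [IsScalarTower ℝ ℂ F] [FiniteDimensional ℂ F]
  [NormedAddCommGroup G] [NormedSpace ℂ G] [NormedSpace ℝ G] [IsScalarTower ℝ ℂ G] [FiniteDimensional ℂ G]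

/-! Identity theorem, open mapping, local inverses, retracts. -/

theorem ident_aux {n : ℕ} {X : Set E} (hX : Mfd n X) (hc : IsPreconnected X) {H : Type} [NormedAddCommGroup H]
    [NormedSpace ℝ H] [CompleteSpace H] {f : E → H} (hf : AnalyticOn ℝ f X) {x : E} (hx : x ∈ X)
    (h : ∀ᶠ y in 𝓝[X] x, f y = 0) : ∀ y ∈ X, f y = 0 := by
  have key : X ⊆ {y | ∀ᶠ z in 𝓝[X] y, f z = 0} := by
    refine clopen_ind hc ⟨x, hx, h⟩ (fun y _ hy => eventually_eventually_nhdsWithin.2 hy) (fun y hy hfr => ?_)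
    obtain ⟨k, Ψ, δ, W, W', hδ, c, -, -, -, hyW, h0⟩ := hX.ball hy univ_mem
    have ha : AnalyticOnNhd ℝ (fun u => f (k u)) (ball 0 δ) := by
      intro v hv
      have h1 := (c.hO v hv).1.1
      obtain ⟨g, hg1, hg2⟩ := analyticWithinAt_iff_exists_analyticAt.1 (hf _ h1)
      rw [insert_eq_of_mem h1, ← c.map_nhds hv] at hg1
      exact (hg2.comp ((c.ah v hv).restrictScalars (𝕜 := ℝ))).congr (EventuallyEq.symm hg1)
    obtain ⟨z, hz1, hz2⟩ := (hfr.and_eventually (inter_mem_nhdsWithin X (c.oW.mem_nhds hyW))).exists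
    obtain ⟨hz3, hz4⟩ := c.hW z hz2
    have hz5 : (fun u => f (k u)) =ᶠ[𝓝 (Ψ z)] 0 := by
      have : ∀ᶠ w in 𝓝[X] (k (Ψ z)), f w = 0 := by rw [hz4]; exact hz1
      rw [← c.map_nhds hz3] at this
      exact this
    have hz := ha.eqOn_zero_of_preconnected_of_eventuallyEq_zero (convex_ball 0 δ).isPreconnected hz3 hz5
    filter_upwards [inter_mem_nhdsWithin X (c.oW.mem_nhds hyW)] with w hw
    have := hz (c.hW w hw).1
    simpa [(c.hW w hw).2] using this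
  exact fun y hy => (eventually_nhdsWithin_iff.1 (key hy)).self_of_nhds hy

theorem ident {n : ℕ} {X : Set E} (hX : Mfd n X) (hc : IsPreconnected X) {f g : E → F} (hf : AnalyticOn ℂ f X)
    (hg : AnalyticOn ℂ g X) {x : E} (hx : x ∈ X) (h : f =ᶠ[𝓝[X] x] g) : ∀ y ∈ X, f y = g y := by
  have := ident_aux hX hc (f := fun y => f y - g y) ((hf.sub hg).restrictScalars (𝕜 := ℝ)) hx
    (h.mono fun y hy => sub_eq_zero.2 hy)
  exact fun y hy => sub_eq_zero.1 (this y hy)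

/-- real-analytic identity theorem on a connected complex manifold -/
theorem ident_real {n : ℕ} {X : Set E} (hX : Mfd n X) (hc : IsPreconnected X) {H : Type} [NormedAddCommGroup H]
    [NormedSpace ℝ H] [CompleteSpace H] {f : E → H} (hf : AnalyticOn ℝ f X) {x : E} (hx : x ∈ X)
    (h : ∀ᶠ y in 𝓝[X] x, f y = 0) : ∀ y ∈ X, f y = 0 := by
  exact ident_aux hX hc hf hx h

/-- open mapping theorem (`AnalyticAt.eventually_constant_or_nhds_le_map_nhds` in a chart) -/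
theorem open_map {n : ℕ} {X : Set E} (hX : Mfd n X) {f : E → ℂ} {x : E} (hx : x ∈ X)
    (hf : AnalyticWithinAt ℂ f X x) : (∀ᶠ y in 𝓝[X] x, f y = f x) ∨ 𝓝 (f x) ≤ map f (𝓝[X] x) := by
  obtain ⟨k, Ψ, O, W, c, hxW⟩ := hX x hx
  obtain ⟨h1, h2⟩ := c.hW x ⟨hx, hxW⟩
  have ha : AnalyticAt ℂ (fun u => f (k u)) (Ψ x) := (c.an_iff h1).1 (by rwa [h2])
  have hm := c.map_nhds h1
  rw [h2] at hm
  rcases ha.eventually_constant_or_nhds_le_map_nhds with h | h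
  · left
    rw [← hm]
    simpa only [h2, eventually_map] using h
  · right
    rw [← hm, map_map]
    rw [h2] at h
    exact h

theorem idb_germ {A : Type} [NormedAddCommGroup A] [NormedSpace ℂ A] [FiniteDimensional ℂ A] {φ : A → A} {p : A}
    (h1 : AnalyticAt ℂ φ p) (hi : ∀ e, fderiv ℂ φ p e = 0 → e = 0) :
    ∃ ψ : A → A, AnalyticAt ℂ ψ (φ p) ∧ (∀ᶠ a in 𝓝 p, ψ (φ a) = a) ∧ ∀ᶠ b in 𝓝 (φ p), φ (ψ b) = b := by
  have hinj : Function.Injective (fderiv ℂ φ p : A →ₗ[ℂ] A) := by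
    rw [← LinearMap.ker_eq_bot, LinearMap.ker_eq_bot']
    exact hi
  let e₀ : A ≃ₗ[ℂ] A := LinearEquiv.ofInjectiveEndo _ hinj
  let e : A ≃L[ℂ] A := e₀.toContinuousLinearEquiv
  have he : (e : A →L[ℂ] A) = fderiv ℂ φ p := by
    ext a
    rfl
  have h2 : HasStrictFDerivAt φ (e : A →L[ℂ] A) p := by
    rw [he]
    exact h1.hasStrictFDerivAt
  refine ⟨h2.localInverse φ e p, ?_, h2.eventually_left_inverse, h2.eventually_right_inverse⟩
  exact (h2.toOpenPartialHomeomorph _).analyticAt_symm' h2.mem_toOpenPartialHomeomorph_source h1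
    h2.hasFDerivAt.fderiv

theorem idb_bih_of_germ {X : Set E} {Y : Set F} {f : E → F} {g : F → E} {x : E} (hx : x ∈ X)
    (h1 : ∀ᶠ y in 𝓝[X] x, AnalyticWithinAt ℂ f X y ∧ f y ∈ Y ∧ g (f y) = y)
    (h2 : ∀ᶠ z in 𝓝[Y] (f x), AnalyticWithinAt ℂ g Y z ∧ g z ∈ X ∧ f (g z) = z)
    {U : Set E} (hU : U ∈ 𝓝 x) :
    ∃ V₀ ∈ 𝓝 (f x), ∀ V, IsOpen V → f x ∈ V → V ⊆ V₀ →
      ∃ O, IsOpen O ∧ x ∈ O ∧ O ⊆ U ∧ Bih (X ∩ O) (Y ∩ V) f g := by
  obtain ⟨-, hfx, hgx⟩ := h1.self_of_nhdsWithin hx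
  obtain ⟨hag, -, -⟩ := h2.self_of_nhdsWithin hfx
  have h1' := h1.and (mem_nhdsWithin_of_mem_nhds hU)
  rw [eventually_nhdsWithin_iff] at h1'
  have h1'' := h1'.and hU
  obtain ⟨A, hA, oA, xA⟩ := _root_.eventually_nhds_iff.1 h1''
  have h3 : ∀ᶠ z in 𝓝[Y] (f x), g z ∈ A := by
    have := hag.continuousWithinAt
    unfold ContinuousWithinAt at this
    rw [hgx] at this
    exact this (oA.mem_nhds xA)
  have h4 := h2.and h3
  rw [eventually_nhdsWithin_iff] at h4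
  refine ⟨_, h4, fun V oV xV hV => ?_⟩
  have hc : ContinuousOn f (X ∩ A) := fun y hy =>
    ((hA y hy.2).1 hy.1).1.1.continuousWithinAt.mono inter_subset_left
  obtain ⟨O₁, oO₁, hO₁⟩ := continuousOn_iff'.1 hc V oV
  have key : ∀ y ∈ X ∩ A, f y ∈ V ↔ y ∈ O₁ := by
    intro y hy
    constructor
    · intro h
      have : y ∈ f ⁻¹' V ∩ (X ∩ A) := ⟨h, hy⟩
      rw [hO₁] at this
      exact this.1
    · intro h
      have : y ∈ O₁ ∩ (X ∩ A) := ⟨h, hy⟩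
      rw [← hO₁] at this
      exact this.1
  refine ⟨A ∩ O₁, oA.inter oO₁, ⟨xA, (key x ⟨hx, xA⟩).1 xV⟩, fun y hy => (hA y hy.1).2, ?_⟩
  refine ⟨fun y hy => ?_, fun z hz => ?_, fun y hy => ?_, fun z hz => ?_, fun y hy => ?_, fun z hz => ?_⟩
  · exact ((hA y hy.2.1).1 hy.1).1.1.mono inter_subset_left
  · exact (hV hz.2 hz.1).1.1.mono inter_subset_left
  · exact ⟨((hA y hy.2.1).1 hy.1).1.2.1, (key y ⟨hy.1, hy.2.1⟩).2 hy.2.2⟩
  · obtain ⟨⟨-, a, b⟩, c⟩ := hV hz.2 hz.1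
    refine ⟨a, c, (key _ ⟨a, c⟩).1 ?_⟩
    rw [b]
    exact hz.2
  · exact ((hA y hy.2.1).1 hy.1).1.2.2
  · exact (hV hz.2 hz.1).1.2.2

theorem idb_loc_inv {n : ℕ} {X : Set E} {Y : Set F} (hX : Mfd n X) (hY : Mfd n Y) {f : E → F} {x : E} (hx : x ∈ X)
    {U : Set E} (hU : U ∈ 𝓝 x) (hf : AnalyticOn ℂ f (X ∩ U)) (hm : MapsTo f (X ∩ U) Y)
    (hi : ∀ v ∈ Tan X x, Dv X f x v = 0 → v = 0) :
    ∃ g : F → E, ∃ V₀ ∈ 𝓝 (f x), ∀ V, IsOpen V → f x ∈ V → V ⊆ V₀ →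
      ∃ O, IsOpen O ∧ x ∈ O ∧ O ⊆ U ∧ Bih (X ∩ O) (Y ∩ V) f g := by
  have xU : x ∈ U := mem_of_mem_nhds hU
  have hfx : f x ∈ Y := hm ⟨hx, xU⟩
  obtain ⟨h, Ψ, O, W, c, xW⟩ := hX x hx
  obtain ⟨h', Ψ', O', W', c', xW'⟩ := hY (f x) hfx
  obtain ⟨v0O, hv0⟩ := c.hW x ⟨hx, xW⟩
  obtain ⟨w0O, hw0⟩ := c'.hW (f x) ⟨hfx, xW'⟩
  set v₀ := Ψ x with hv₀
  set w₀ := Ψ' (f x) with hw₀
  -- analyticity of `f` within `X` near `x`
  have hfX : ∀ᶠ y in 𝓝[X] x, AnalyticWithinAt ℂ f X y ∧ f y ∈ Y := by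
    have : ∀ᶠ y in 𝓝 x, U ∈ 𝓝 y := eventually_mem_nhds_iff.2 hU
    filter_upwards [self_mem_nhdsWithin, mem_nhdsWithin_of_mem_nhds this] with y hy hyU
    refine ⟨(hf y ⟨hy, mem_of_mem_nhds hyU⟩).mono_of_mem_nhdsWithin ?_, hm ⟨hy, mem_of_mem_nhds hyU⟩⟩
    exact inter_mem_nhdsWithin X hyU
  have hfa : AnalyticWithinAt ℂ f X (h v₀) := by
    rw [hv0]
    exact (hfX.self_of_nhdsWithin hx).1
  have hah : AnalyticAt ℂ h v₀ := c.ah v₀ v0O
  have hhX : ∀ᶠ s in 𝓝 v₀, h s ∈ X := by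
    filter_upwards [c.oO.mem_nhds v0O] with s hs using (c.hO s hs).1.1
  have hfh : AnalyticAt ℂ (fun s => f (h s)) v₀ := anAt_comp_param hah hhX hfa
  have haΨ' : AnalyticAt ℂ Ψ' (f x) := c'.aΨ _ xW'
  have haΨ'' : AnalyticAt ℂ Ψ' ((fun s => f (h s)) v₀) := by
    simpa only [hv0] using haΨ'
  set φ : (Fin n → ℂ) → Fin n → ℂ := fun s => Ψ' (f (h s)) with hφ
  have hφa : AnalyticAt ℂ φ v₀ := AnalyticAt.comp (g := Ψ') (f := fun s => f (h s)) haΨ'' hfh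
  have hφ0 : φ v₀ = w₀ := by simp only [hφ, hv0, hw₀]
  have hinj : ∀ e, fderiv ℂ φ v₀ e = 0 → e = 0 := by
    intro e he
    obtain ⟨t1, -, t3⟩ := fderiv_comp_param hah.differentiableAt hhX (anW_diff hfa) e
    have hd : fderiv ℂ φ v₀ e = fderiv ℂ Ψ' (f x) (fderiv ℂ (fun s => f (h s)) v₀ e) := by
      have := fderiv_comp (𝕜 := ℂ) (g := Ψ') (f := fun s => f (h s)) v₀ haΨ''.differentiableAt
        hfh.differentiableAt
      have h2 : φ = Ψ' ∘ fun s => f (h s) := rfl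
      rw [h2, this]
      simp only [hv0, ContinuousLinearMap.comp_apply]
    rw [hv0] at t1 t3
    have hfa' : AnalyticWithinAt ℂ f X x := (hfX.self_of_nhdsWithin hx).1
    have t4 : Dv X f x (fderiv ℂ h v₀ e) ∈ Tan Y (f x) :=
      Dv_mem_tan (anW_diff hfa') (hfX.mono fun y hy => hy.2) t1
    obtain ⟨t5, t6⟩ := c'.tan w0O
    rw [hw0] at t5 t6
    rw [t5] at t4
    obtain ⟨e', he'⟩ := t4
    have he'' : fderiv ℂ h' w₀ e' = Dv X f x (fderiv ℂ h v₀ e) := he'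
    rw [hd, t3, ← he'', t6] at he
    rw [he, map_zero] at he''
    have t7 := hi _ t1 he''.symm
    have t8 := (c.tan v0O).2 e
    rw [t7, map_zero] at t8
    exact t8.symm
  obtain ⟨ψ, hψa, hψl, hψr⟩ := idb_germ hφa hinj
  rw [hφ0] at hψa hψr
  have hψ0 : ψ w₀ = v₀ := by
    have := hψl.self_of_nhds
    rwa [hφ0] at this
  refine ⟨fun z => h (ψ (Ψ' z)), idb_bih_of_germ hx ?_ ?_ hU⟩
  · have : ∀ᶠ y in 𝓝[X] x, h (ψ (Ψ' (f y))) = y := by
      have e1 := c.map_nhds v0O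
      rw [hv0] at e1
      rw [← e1, eventually_map]
      filter_upwards [hψl] with a ha
      exact congrArg h ha
    filter_upwards [hfX, this] with y hy hy' using ⟨hy.1, hy.2, hy'⟩
  · have hga : AnalyticAt ℂ (fun z => h (ψ (Ψ' z))) (f x) := by
      have a1 : AnalyticAt ℂ (fun z => ψ (Ψ' z)) (f x) := AnalyticAt.comp (g := ψ) (f := Ψ') hψa haΨ'
      have a2 : AnalyticAt ℂ h ((fun z => ψ (Ψ' z)) (f x)) := by
        simpa only [← hw₀, hψ0] using hah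
      exact AnalyticAt.comp (g := h) (f := fun z => ψ (Ψ' z)) a2 a1
    have b1 : ∀ᶠ z in 𝓝[Y] (f x), AnalyticAt ℂ (fun z => h (ψ (Ψ' z))) z :=
      mem_nhdsWithin_of_mem_nhds hga.eventually_analyticAt
    have b2 : ∀ᶠ z in 𝓝[Y] (f x), h (ψ (Ψ' z)) ∈ X ∧ f (h (ψ (Ψ' z))) = z := by
      have e1 := c'.map_nhds w0O
      rw [hw0] at e1
      rw [← e1, eventually_map]
      have tψ : Tendsto ψ (𝓝 w₀) (𝓝 v₀) := by
        have := hψa.continuousAt
        unfold ContinuousAt at this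
        rwa [hψ0] at this
      have th : Tendsto h (𝓝 v₀) (𝓝[X] x) := by
        have e2 := c.map_nhds v0O
        rw [hv0] at e2
        exact e2.le
      have tf : ∀ᶠ y in 𝓝[X] x, f y ∈ W' :=
        (hfX.self_of_nhdsWithin hx).1.continuousWithinAt (c'.oW.mem_nhds xW')
      filter_upwards [c'.oO.mem_nhds w0O, hψr, tψ hhX, tψ (th hfX), tψ (th tf)] with w hw h1 h2 h3 h4
      rw [(c'.hO w hw).2]
      refine ⟨h2, ?_⟩
      have := (c'.hW (f (h (ψ w))) ⟨h3.2, h4⟩).2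
      rw [← this]
      exact congrArg h' h1
    filter_upwards [b1, b2] with z h1 h2 using ⟨h1.analyticWithinAt, h2⟩

/-- inverse function theorem between manifolds of the same dimension -/
theorem loc_inv {n : ℕ} {X : Set E} {Y : Set F} (hX : Mfd n X) (hY : Mfd n Y) {f : E → F} {x : E} (hx : x ∈ X)
    {U : Set E} (hU : U ∈ 𝓝 x) (hf : AnalyticOn ℂ f (X ∩ U)) (hm : MapsTo f (X ∩ U) Y)
    (hi : ∀ v ∈ Tan X x, Dv X f x v = 0 → v = 0) :
    ∃ (O : Set E) (O' : Set F) (g : F → E), IsOpen O ∧ IsOpen O' ∧ x ∈ O ∧ O ⊆ U ∧ Bih (X ∩ O) (Y ∩ O') f g := by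
  obtain ⟨g, V₀, hV₀, h⟩ := idb_loc_inv hX hY hx hU hf hm hi
  obtain ⟨V, hV, oV, xV⟩ := _root_.mem_nhds_iff.1 hV₀
  obtain ⟨O, oO, xO, OU, hB⟩ := h V oV xV hV
  exact ⟨O, V, g, oO, oV, xO, OU, hB⟩

/-- local section through a regular point -/
theorem Reg.sec {n : ℕ} {X : Set E} (hX : Mfd n X) (hn : Module.finrank ℂ F = n) {π : E → F}
    (hπ : AnalyticOn ℂ π X) {x : E} (hx : x ∈ Reg X π) {U : Set E} (hU : U ∈ 𝓝 x) :
    ∃ (O : Set E) (W : Set F) (σ : F → E), IsOpen O ∧ IsOpen W ∧ x ∈ O ∧ O ⊆ U ∧ Sec X π W σ ∧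
      (∀ q ∈ W, σ q ∈ O) ∧ ∀ y ∈ X ∩ O, π y ∈ W ∧ σ (π y) = y := by
  have hY : Mfd n (univ : Set F) := hn ▸ Mfd.of_isOpen isOpen_univ
  obtain ⟨O, O', g, oO, oO', xO, OU, hB⟩ :=
    loc_inv hX hY hx.1 hU (hπ.mono inter_subset_left) (mapsTo_univ _ _) hx.2
  rw [univ_inter] at hB
  refine ⟨O, O', g, oO, oO', xO, OU, ⟨oO'.analyticOn_iff_analyticOnNhd.1 hB.ag, fun q hq => ?_⟩,
    fun q hq => (hB.mg hq).2, fun y hy => ⟨hB.mf hy, hB.gf y hy⟩⟩
  exact ⟨(hB.mg hq).1, hB.fg q hq⟩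

theorem Reg_eq_Sub {n : ℕ} {X : Set E} (hX : Mfd n X) (hn : Module.finrank ℂ F = n) (π : E → F) :
    Reg X π = Sub X π := by
  ext x
  refine and_congr_right fun hx => ?_
  have hf : Module.finrank ℂ (Tan X x) = Module.finrank ℂ F := by rw [hX.finrank_tan hx, hn]
  have := LinearMap.injective_iff_surjective_of_finrank_eq_finrank hf
    (f := (Dv X π x : E →ₗ[ℂ] F).domRestrict (Tan X x))
  rw [injective_iff_map_eq_zero] at this
  constructor
  · intro h c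
    obtain ⟨v, hv⟩ := this.1 (fun v hv => Subtype.ext (h v.1 v.2 hv)) c
    exact ⟨v.1, v.2, hv⟩
  · intro h v hv h0
    have := this.2 (fun c => by obtain ⟨v, hv, e⟩ := h c; exact ⟨⟨v, hv⟩, e⟩) ⟨v, hv⟩ h0
    exact congrArg Subtype.val this

theorem Sec.sub {X : Set E} {π : E → F} (hπ : AnalyticOn ℂ π X) {W : Set F} (hW : IsOpen W) {σ : F → E}
    (h : Sec X π W σ) {q : F} (hq : q ∈ W) : σ q ∈ Sub X π := by
  refine ⟨(h.2 q hq).1, fun c => ?_⟩
  have h1 : ∀ᶠ s in 𝓝 q, σ s ∈ X := by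
    filter_upwards [hW.mem_nhds hq] with s hs using (h.2 s hs).1
  obtain ⟨t1, -, t3⟩ := fderiv_comp_param (h.1 q hq).differentiableAt h1 (anW_diff (hπ _ (h.2 q hq).1)) c
  refine ⟨_, t1, ?_⟩
  have h2 : (fun s => π (σ s)) =ᶠ[𝓝 q] id := by
    filter_upwards [hW.mem_nhds hq] with s hs using (h.2 s hs).2
  rw [← t3, h2.fderiv_eq, fderiv_id]
  rfl

/-- the image of a section is open in `X` -/
theorem Sec.nhds {n : ℕ} {X : Set E} (hX : Mfd n X) (hn : Module.finrank ℂ F = n) {π : E → F}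
    (hπ : AnalyticOn ℂ π X) {W : Set F} (hW : IsOpen W) {σ : F → E} (h : Sec X π W σ) {q : F} (hq : q ∈ W) :
    σ q ∈ Reg X π ∧ map σ (𝓝 q) = 𝓝[X] (σ q) ∧ ∀ᶠ y in 𝓝[X] (σ q), π y ∈ W ∧ σ (π y) = y := by
  have hr : σ q ∈ Reg X π := by
    rw [Reg_eq_Sub hX hn]
    exact Sec.sub hπ hW h hq
  obtain ⟨O, W', σ', oO, -, xO, -, -, -, hO⟩ := Reg.sec hX hn hπ hr univ_mem
  have tπ : Tendsto π (𝓝[X] (σ q)) (𝓝 q) := by
    have := (hπ _ hr.1).continuousWithinAt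
    unfold ContinuousWithinAt at this
    rwa [(h.2 q hq).2] at this
  have tσ : Tendsto σ (𝓝 q) (𝓝 (σ q)) := (h.1 q hq).continuousAt
  have h3 : ∀ᶠ y in 𝓝[X] (σ q), π y ∈ W ∧ σ (π y) = y := by
    filter_upwards [self_mem_nhdsWithin, mem_nhdsWithin_of_mem_nhds (oO.mem_nhds xO), tπ (hW.mem_nhds hq),
      tπ (tσ (oO.mem_nhds xO))] with y h1 h2 h3 h4
    refine ⟨h3, ?_⟩
    have e1 := (hO (σ (π y)) ⟨(h.2 _ h3).1, h4⟩).2
    rw [(h.2 _ h3).2, (hO y ⟨h1, h2⟩).2] at e1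
    exact e1.symm
  refine ⟨hr, le_antisymm ?_ ?_, h3⟩
  · refine tendsto_nhdsWithin_iff.2 ⟨tσ, ?_⟩
    filter_upwards [hW.mem_nhds hq] with s hs using (h.2 s hs).1
  · intro S hS
    filter_upwards [h3, tπ hS] with y h1 h2
    rw [← h1.2]
    exact h2

/-- two sections over a connected set which meet coincide -/
theorem Sec.eqOn {n : ℕ} {X : Set E} (hX : Mfd n X) (hn : Module.finrank ℂ F = n) {π : E → F}
    (hπ : AnalyticOn ℂ π X) {W W' V : Set F} (hW : IsOpen W) (hW' : IsOpen W') {σ σ' : F → E} (h : Sec X π W σ)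
    (h' : Sec X π W' σ') (hV : IsPreconnected V) (hVW : V ⊆ W ∩ W') {q : F} (hq : q ∈ V) (he : σ q = σ' q) :
    EqOn σ σ' V := by
  have hq' := hVW hq
  have h1 := (Sec.nhds hX hn hπ hW h hq'.1).2.2
  have h2 := (Sec.nhds hX hn hπ hW' h' hq'.2).2.1
  rw [he, ← h2, eventually_map] at h1
  refine AnalyticOnNhd.eqOn_of_preconnected_of_eventuallyEq (h.1.mono fun z hz => (hVW hz).1)
    (h'.1.mono fun z hz => (hVW hz).2) hV hq ?_
  filter_upwards [h1, hW'.mem_nhds hq'.2] with z h3 h4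
  have := h3.2
  rwa [(h'.2 z h4).2] at this

theorem Sec.mono {X : Set E} {π : E → F} {W W' : Set F} {σ : F → E} (h : Sec X π W σ) (hW : W' ⊆ W) :
    Sec X π W' σ := by
  exact ⟨h.1.mono hW, fun q hq => h.2 q (hW hq)⟩

theorem Sub.open {n : ℕ} {X : Set E} (hX : Mfd n X) {π : E → F} (hπ : AnalyticOn ℂ π X) {x : E}
    (hx : x ∈ Sub X π) : ∀ᶠ y in 𝓝[X] x, y ∈ Sub X π := by
  obtain ⟨k, Ψ, O, W, c, hxW⟩ := hX x hx.1
  obtain ⟨h1, h2⟩ := c.hW x ⟨hx.1, hxW⟩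
  have key : ∀ v ∈ O, ∀ e, fderiv ℂ (fun u => π (k u)) v e = Dv X π (k v) (fderiv ℂ k v e) := fun v hv e =>
    (fderiv_comp_param (c.ah v hv).differentiableAt
      (mem_of_superset (c.oO.mem_nhds hv) fun u hu => (c.hO u hu).1.1) (anW_diff (hπ _ (c.hO v hv).1.1)) e).2.2
  have hs : LinearMap.range (fderiv ℂ (fun u => π (k u)) (Ψ x) : (Fin n → ℂ) →ₗ[ℂ] F) = ⊤ := by
    refine LinearMap.range_eq_top.2 fun q => ?_
    obtain ⟨v, hv, e⟩ := hx.2 q
    have := (c.tan h1).1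
    rw [h2] at this
    rw [this] at hv
    obtain ⟨u, rfl⟩ := hv
    refine ⟨u, ?_⟩
    have := key _ h1 u
    rw [h2] at this
    exact this.trans e
  obtain ⟨R, hR⟩ := ContinuousLinearMap.exists_rightInverse_of_surjective _ hs
  have ha : AnalyticAt ℂ (fun u => π (k u)) (Ψ x) := (c.an_iff h1).1 (by rw [h2]; exact hπ x hx.1)
  have hc : ContinuousAt (fun v => (fderiv ℂ (fun u => π (k u)) v).comp R) (Ψ x) :=
    ha.fderiv.continuousAt.clm_comp continuousAt_const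
  have hu : ∀ᶠ v in 𝓝 (Ψ x), IsUnit ((fderiv ℂ (fun u => π (k u)) v).comp R) :=
    hc.eventually (Units.isOpen.mem_nhds (by simp only [mem_ofPred_eq, hR]; exact isUnit_one))
  have hm := c.map_nhds h1
  rw [h2] at hm
  rw [← hm, eventually_map]
  filter_upwards [hu, c.oO.mem_nhds h1] with v hv hvO
  refine ⟨(c.hO v hvO).1.1, fun q => ?_⟩
  obtain ⟨T, hT⟩ := hv.exists_right_inv
  refine ⟨fderiv ℂ k v (R (T q)), ?_, ?_⟩
  · rw [(c.tan hvO).1]; exact ⟨_, rfl⟩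
  · rw [← key v hvO]
    exact congrArg (fun L : F →L[ℂ] F => L q) hT

/-- normal form of a submersion: product coordinates whose first component is `π` -/
theorem Sub.chart {n : ℕ} {X : Set E} (hX : Mfd n X) {π : E → F} (hπ : AnalyticOn ℂ π X) {x : E}
    (hx : x ∈ Sub X π) {U : Set E} (hU : U ∈ 𝓝 x) :
    ∃ (k : ℕ) (Λ : E → Fin k → ℂ) (O : Set E) (δ : ℝ) (h : F × (Fin k → ℂ) → E), Module.finrank ℂ F + k = n ∧
      IsOpen O ∧ x ∈ O ∧ O ⊆ U ∧ 0 < δ ∧ Λ x = 0 ∧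
      Bih (X ∩ O) (ball (π x) δ ×ˢ ball 0 δ) (fun y => (π y, Λ y)) h := by
  set L : Tan X x →ₗ[ℂ] F := (Dv X π x : E →ₗ[ℂ] F).domRestrict (Tan X x) with hL
  have hr : LinearMap.range L = ⊤ := by
    rw [eq_top_iff]
    intro c _
    obtain ⟨v, hv, hc⟩ := hx.2 c
    exact ⟨⟨v, hv⟩, hc⟩
  have hk := LinearMap.finrank_range_add_finrank_ker L
  rw [hr, finrank_top, hX.finrank_tan hx.1] at hk
  set k := Module.finrank ℂ (LinearMap.ker L) with hkdef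
  let e : LinearMap.ker L ≃ₗ[ℂ] (Fin k → ℂ) := (Module.finBasis ℂ (LinearMap.ker L)).equivFun
  obtain ⟨g₁, hg₁⟩ := LinearMap.exists_extend (e : LinearMap.ker L →ₗ[ℂ] (Fin k → ℂ))
  obtain ⟨g₂, hg₂⟩ := LinearMap.exists_extend g₁
  let M : E →L[ℂ] (Fin k → ℂ) := LinearMap.toContinuousLinearMap g₂
  have hMa : ∀ y, AnalyticAt ℂ (fun y => M y - M x) y := fun y => (M.analyticAt y).sub analyticAt_const
  have hY : Mfd n (univ : Set (F × (Fin k → ℂ))) := by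
    have : Module.finrank ℂ (F × (Fin k → ℂ)) = n := by
      rw [Module.finrank_prod, Module.finrank_fin_fun, hk]
    exact this ▸ Mfd.of_isOpen isOpen_univ
  have hf : AnalyticOn ℂ (fun y => (π y, M y - M x)) (X ∩ U) := fun y hy =>
    ((hπ y hy.1).mono inter_subset_left).prod (hMa y).analyticWithinAt
  have hi : ∀ v ∈ Tan X x, Dv X (fun y => (π y, M y - M x)) x v = 0 → v = 0 := by
    intro v hv h0
    rw [Dv_prod (anW_diff (hπ x hx.1)) (hMa x).differentiableAt.differentiableWithinAt hv, Prod.mk_eq_zero] at h0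
    have h1 : Dv X (fun y => M y - M x) x v = M v :=
      Dv_of_has (M.hasFDerivAt.sub_const (M x)).hasFDerivWithinAt hv
    have h2 : (⟨v, hv⟩ : Tan X x) ∈ LinearMap.ker L := h0.1
    have h3 : M v = e ⟨⟨v, hv⟩, h2⟩ := by
      have a1 := LinearMap.congr_fun hg₂ ⟨v, hv⟩
      have a2 := LinearMap.congr_fun hg₁ ⟨⟨v, hv⟩, h2⟩
      exact a1.trans a2
    have h4 : e ⟨⟨v, hv⟩, h2⟩ = 0 := by rw [← h3, ← h1, h0.2]
    have h5 := e.map_eq_zero_iff.1 h4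
    exact congrArg (fun z : LinearMap.ker L => (z.1 : E)) h5
  obtain ⟨g, V₀, hV₀, h⟩ := idb_loc_inv hX hY hx.1 hU hf (mapsTo_univ _ _) hi
  obtain ⟨δ, hδ, hV⟩ := Metric.mem_nhds_iff.1 hV₀
  obtain ⟨O, oO, xO, OU, hB⟩ := h _ isOpen_ball (mem_ball_self hδ) hV
  refine ⟨k, fun y => M y - M x, O, δ, g, hk, oO, xO, OU, hδ, sub_self _, ?_⟩
  rw [univ_inter, sub_self, ← ball_prod_same] at hB
  exact hB

/-- if a manifold contains a biholomorphic copy of an open subset of `G` as an open piece, the dimensions agree -/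
theorem Mfd.dim_eq {n : ℕ} {X O : Set E} (hX : Mfd n X) (hO : IsOpen O) {V : Set G} (hV : IsOpen V)
    (hne : V.Nonempty) {f : E → G} {g : G → E} (h : Bih (X ∩ O) V f g) : Module.finrank ℂ G = n := by
  exact (Mfd.of_isOpen hV).dim_unique ((hX.inter hO).bih h) hne

/-- germ conditions at one point give a manifold near that point -/
theorem retract_germ {X : Set E} {x : E} {h : G → E} {Ψ : E → G} (hΨ : AnalyticAt ℂ Ψ x)
    (hh : AnalyticAt ℂ h (Ψ x)) (h1 : ∀ᶠ v in 𝓝 (Ψ x), h v ∈ X ∧ Ψ (h v) = v)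
    (h2 : ∀ᶠ y in 𝓝[X] x, h (Ψ y) = y) :
    ∃ O, IsOpen O ∧ x ∈ O ∧ Mfd (Module.finrank ℂ G) (X ∩ O) := by
  have h3 : ∀ᶠ y in 𝓝 x, AnalyticAt ℂ Ψ y ∧ AnalyticAt ℂ h (Ψ y) ∧
      (∀ᶠ v in 𝓝 (Ψ y), h v ∈ X ∧ Ψ (h v) = v) ∧ (y ∈ X → h (Ψ y) = y) :=
    hΨ.eventually_analyticAt.and ((hΨ.continuousAt.eventually hh.eventually_analyticAt).and
      ((hΨ.continuousAt.eventually h1.eventually_nhds).and (eventually_nhdsWithin_iff.1 h2)))
  obtain ⟨O, hO, hOo, hxO⟩ := _root_.eventually_nhds_iff.1 h3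
  refine ⟨O, hOo, hxO, Mfd.of_germ rfl fun y hy => ⟨h, Ψ, (hO y hy.2).1, (hO y hy.2).2.1, ?_, ?_⟩⟩
  · have h4 : ∀ᶠ v in 𝓝 (Ψ y), h v ∈ O := by
      apply (hO y hy.2).2.1.continuousAt.eventually
      rw [(hO y hy.2).2.2.2 hy.1]
      exact hOo.mem_nhds hy.2
    filter_upwards [(hO y hy.2).2.2.1, h4] with v hv hv' using ⟨⟨hv.1, hv'⟩, hv.2⟩
  · filter_upwards [self_mem_nhdsWithin] with z hz using (hO z hz.2).2.2.2 hz.1

/-- an analytic idempotent germ is conjugate to its linear part -/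
theorem retract_lin {r : G → G} {a : G} (hr : AnalyticAt ℂ r a) (ha : r a = a) (hi : ∀ᶠ v in 𝓝 a, r (r v) = r v) :
    ∃ (L : G →L[ℂ] G) (u w : G → G), (∀ v, L (L v) = L v) ∧ AnalyticAt ℂ u a ∧ AnalyticAt ℂ w (u a) ∧
      (∀ᶠ v in 𝓝 a, w (u v) = v) ∧ (∀ᶠ z in 𝓝 (u a), u (w z) = z) ∧ (∀ v, r v = v → L (u v) = u v) ∧
      ∀ᶠ v in 𝓝 a, L (u v) = u v → r v = v := by
  set L : G →L[ℂ] G := fderiv ℂ r a with hL
  have hd : HasFDerivAt r L a := hr.differentiableAt.hasFDerivAt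
  have hLL : ∀ v, L (L v) = L v := by
    have h1 : HasFDerivAt (fun v => r (r v)) (L.comp L) a := (by rw [ha]; exact hd : HasFDerivAt r L (r a)).comp a hd
    have h2 : HasFDerivAt r (L.comp L) a := h1.congr_of_eventuallyEq (hi.mono fun v hv => hv.symm)
    intro v
    exact congrArg (fun T : G →L[ℂ] G => T v) (h2.unique hd)
  let u : G → G := fun v => L (r v) + ((v - r v) - L (v - r v))
  have hu : AnalyticAt ℂ u a :=
    ((L.analyticAt _).comp hr).add ((analyticAt_id.sub hr).sub ((L.analyticAt _).comp (analyticAt_id.sub hr)))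
  have hu' : fderiv ℂ u a = (ContinuousLinearEquiv.refl ℂ G : G →L[ℂ] G) := by
    have h1 : HasFDerivAt u (L.comp L + ((ContinuousLinearMap.id ℂ G - L) -
        L.comp (ContinuousLinearMap.id ℂ G - L))) a :=
      (L.hasFDerivAt.comp a hd).add (((hasFDerivAt_id a).sub hd).sub
        (L.hasFDerivAt.comp a ((hasFDerivAt_id a).sub hd)))
    rw [h1.fderiv]
    ext v
    simp [hLL]
  have hs : HasStrictFDerivAt u (ContinuousLinearEquiv.refl ℂ G : G →L[ℂ] G) a := by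
    rw [← hu']; exact hu.hasStrictFDerivAt
  have hLu : ∀ v, L (u v) = L (r v) := fun v => by simp [u, hLL]
  refine ⟨L, u, hs.localInverse u _ a, hLL, hu,
    (hs.toOpenPartialHomeomorph u).analyticAt_symm' hs.mem_toOpenPartialHomeomorph_source hu hu',
    hs.eventually_left_inverse, hs.eventually_right_inverse, fun v hv => ?_, ?_⟩
  · rw [hLu]; simp [u, hv]
  · have h1 : ∀ᶠ v in 𝓝 a, hs.localInverse u _ a (u (r v)) = r v := by
      apply hr.continuousAt.eventually (p := fun z => hs.localInverse u _ a (u z) = z)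
      rw [ha]; exact hs.eventually_left_inverse
    filter_upwards [h1, hs.eventually_left_inverse, hi] with v hv hv' hv'' he
    have h2 : u (r v) = u v := by rw [← he, hLu]; simp [u, hv'']
    rw [← hv, h2, hv']

theorem retract_loc {n : ℕ} {X : Set E} (hX : Mfd n X) {ρ : E → E} (ha : AnalyticOn ℂ ρ X)
    (hm : MapsTo ρ X X) (hi : ∀ x ∈ X, ρ (ρ x) = ρ x) {x : E} (hx : x ∈ ρ '' X) :
    ∃ k O, IsOpen O ∧ x ∈ O ∧ Mfd k (ρ '' X ∩ O) := by
  have hfix : ∀ y ∈ ρ '' X, y ∈ X ∧ ρ y = y := by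
    rintro _ ⟨z, hz, rfl⟩
    exact ⟨hm hz, hi z hz⟩
  obtain ⟨hxX, hρx⟩ := hfix x hx
  obtain ⟨h, Ψ, O, W, c, hxW⟩ := hX x hxX
  obtain ⟨haO, hha⟩ := c.hW x ⟨hxX, hxW⟩
  have hO : ∀ᶠ v in 𝓝 (Ψ x), v ∈ O := c.oO.mem_nhds haO
  have hΨ : AnalyticAt ℂ Ψ x := c.aΨ x hxW
  have hh : AnalyticAt ℂ h (Ψ x) := c.ah _ haO
  have hρh : AnalyticAt ℂ (fun v => ρ (h v)) (Ψ x) :=
    anAt_comp_param hh (hO.mono fun v hv => (c.hO v hv).1.1) (by rw [hha]; exact ha x hxX)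
  have hρW : ∀ᶠ v in 𝓝 (Ψ x), ρ (h v) ∈ W := by
    apply hρh.continuousAt.eventually (p := fun z => z ∈ W)
    beta_reduce
    rw [hha, hρx]; exact c.oW.mem_nhds hxW
  have hkey : ∀ᶠ v in 𝓝 (Ψ x), h (Ψ (ρ (h v))) = ρ (h v) := by
    filter_upwards [hO, hρW] with v hv hv' using (c.hW _ ⟨hm (c.hO v hv).1.1, hv'⟩).2
  obtain ⟨L, u, w, hLL, hu, hw, hwu, huw, hr1, hr2⟩ := retract_lin (r := fun v => Ψ (ρ (h v))) (a := Ψ x)
    (AnalyticAt.comp (f := fun v => ρ (h v)) (by rw [hha, hρx]; exact hΨ : AnalyticAt ℂ Ψ (ρ (h (Ψ x)))) hρh)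
    (by rw [hha, hρx])
    (by filter_upwards [hO, hkey] with v hv hv'; rw [hv', hi _ (c.hO v hv).1.1])
  let S : Submodule ℂ (Fin n → ℂ) := LinearMap.range (L : (Fin n → ℂ) →ₗ[ℂ] (Fin n → ℂ))
  let P : (Fin n → ℂ) →L[ℂ] S := L.codRestrict S fun v => ⟨v, rfl⟩
  have hP : ∀ v, (P v : Fin n → ℂ) = L v := fun v => rfl
  have hS : ∀ s : S, L s = s := by
    rintro ⟨_, v, rfl⟩
    exact hLL v
  have e0 : (P (u (Ψ x)) : Fin n → ℂ) = u (Ψ x) := hr1 _ (by rw [hha, hρx])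
  have hw0 : w (u (Ψ x)) = Ψ x := hwu.self_of_nhds
  have t0 : Tendsto (fun s : S => (s : Fin n → ℂ)) (𝓝 (P (u (Ψ x)))) (𝓝 (u (Ψ x))) := by
    have h1 := (continuous_subtype_val (p := fun v => v ∈ S)).tendsto (P (u (Ψ x)))
    rwa [e0] at h1
  have t1 : Tendsto (fun s : S => w s) (𝓝 (P (u (Ψ x)))) (𝓝 (Ψ x)) := by
    have h1 := hw.continuousAt.tendsto
    rw [hw0] at h1
    exact h1.comp t0
  refine ⟨_, retract_germ (G := S) (h := fun s => h (w s)) (Ψ := fun y => P (u (Ψ y)))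
    ((P.analyticAt _).comp (hu.comp hΨ)) ?_ ?_ ?_⟩
  · have h1 : AnalyticAt ℂ (fun s : S => w s) (P (u (Ψ x))) :=
      (by rw [e0]; exact hw : AnalyticAt ℂ w (P (u (Ψ x)))).comp (S.subtypeL.analyticAt _)
    exact AnalyticAt.comp (f := fun s : S => w s)
      (by rw [e0, hw0]; exact hh : AnalyticAt ℂ h (w (P (u (Ψ x))))) h1
  · filter_upwards [t0.eventually huw, t1.eventually hO, t1.eventually hkey, t1.eventually hr2] with s h1 h2 h3 h4
    have h5 := h4 (by rw [h1, hS])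
    refine ⟨⟨h (w s), (c.hO _ h2).1.1, by rw [← h3, h5]⟩, Subtype.ext ?_⟩
    rw [hP, (c.hO _ h2).2, h1, hS]
  · have h1 : ∀ᶠ y in 𝓝 x, y ∈ W := c.oW.mem_nhds hxW
    filter_upwards [self_mem_nhdsWithin, nhdsWithin_le_nhds h1,
      nhdsWithin_le_nhds (hΨ.continuousAt.eventually hwu)] with y hy hyW hy'
    obtain ⟨hyX, hρy⟩ := hfix y hy
    have h2 := (c.hW y ⟨hyX, hyW⟩).2
    rw [hP, hr1 _ (by rw [h2, hρy]), hy', h2]

/-- The image of a holomorphic idempotent.  At a fixed point `x`, in a chart, `L = Dρ x` is a projection and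
`u = id + (2 L - 1) ∘ (ρ - L)` satisfies `u ∘ ρ = L ∘ u`... (any proof); the rank of the projection `Dρ` is locally
constant along the connected set `ρ '' X`. -/
theorem retract {n : ℕ} {X : Set E} (hX : Mfd n X) (hc : IsPreconnected X) {ρ : E → E} (ha : AnalyticOn ℂ ρ X)
    (hm : MapsTo ρ X X) (hi : ∀ x ∈ X, ρ (ρ x) = ρ x) :
    ∃ k, Mfd k (ρ '' X) ∧ ∀ x ∈ ρ '' X, Tan (ρ '' X) x = (Tan X x).map (Dv X ρ x : E →ₗ[ℂ] E) := by
  have hfix : ∀ y ∈ ρ '' X, y ∈ X ∧ ρ y = y := by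
    rintro _ ⟨z, hz, rfl⟩
    exact ⟨hm hz, hi z hz⟩
  have hT : ∀ x ∈ ρ '' X, Tan (ρ '' X) x = (Tan X x).map (Dv X ρ x : E →ₗ[ℂ] E) := by
    intro x hx
    obtain ⟨hxX, hρx⟩ := hfix x hx
    have hd := anW_diff (ha x hxX)
    have hsub : ∀ᶠ y in 𝓝[ρ '' X] x, y ∈ X := eventually_mem_nhdsWithin.mono fun y hy => (hfix y hy).1
    apply le_antisymm
    · intro v hv
      refine ⟨v, Tan_mono hsub hv, ?_⟩
      change Dv X ρ x v = v
      rw [← Dv_mono hd hsub hv, Dv_congr (g := fun y => y) hx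
        (eventually_mem_nhdsWithin.mono fun y hy => (hfix y hy).2), Dv_id hv]
    · rintro _ ⟨v, hv, rfl⟩
      have h1 := Dv_mem_tan (Y := ρ '' X) hd (eventually_mem_nhdsWithin.mono fun y hy => mem_image_of_mem ρ hy) hv
      rwa [hρx] at h1
  rcases (ρ '' X).eq_empty_or_nonempty with he | ⟨x₀, hx₀⟩
  · exact ⟨0, fun x hx => by rw [he] at hx; exact hx.elim, hT⟩
  have hloc : ∀ x ∈ ρ '' X, ∃ O, IsOpen O ∧ x ∈ O ∧ ∀ y ∈ ρ '' X ∩ O,
      Mfd (Module.finrank ℂ (Tan (ρ '' X) y)) (ρ '' X ∩ O) := by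
    intro x hx
    obtain ⟨k, O, hO, hxO, hk⟩ := retract_loc hX ha hm hi hx
    refine ⟨O, hO, hxO, fun y hy => ?_⟩
    rwa [← Tan_inter (hO.mem_nhds hy.2), hk.finrank_tan hy]
  have hlc : ∀ x ∈ ρ '' X, ∀ᶠ y in 𝓝[ρ '' X] x,
      Module.finrank ℂ (Tan (ρ '' X) y) = Module.finrank ℂ (Tan (ρ '' X) x) := by
    intro x hx
    obtain ⟨O, hO, hxO, hk⟩ := hloc x hx
    filter_upwards [inter_mem_nhdsWithin (ρ '' X) (hO.mem_nhds hxO)] with y hy
    exact (hk y hy).dim_unique (hk x ⟨hx, hxO⟩) ⟨y, hy⟩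
  have hall : ρ '' X ⊆ {y | Module.finrank ℂ (Tan (ρ '' X) y) = Module.finrank ℂ (Tan (ρ '' X) x₀)} := by
    refine clopen_ind (hc.image ρ ha.continuousOn) ⟨x₀, hx₀, rfl⟩ (fun x hx hA => ?_) fun x hx hA => ?_
    · filter_upwards [hlc x hx] with y hy using hy.trans hA
    · obtain ⟨y, h1, h2⟩ := (hA.and_eventually (hlc x hx)).exists
      exact h2.symm.trans h1
  refine ⟨Module.finrank ℂ (Tan (ρ '' X) x₀), Mfd.of_local fun x hx => ?_, hT⟩
  obtain ⟨O, hO, hxO, hk⟩ := hloc x hx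
  exact ⟨O, hO.mem_nhds hxO, hall hx ▸ hk x ⟨hx, hxO⟩⟩

/-- if the values of finitely many holomorphic maps span at most `k` complex dimensions near a point, they do so
everywhere (minors) -/
theorem rank_le {n : ℕ} {X : Set E} (hX : Mfd n X) (hc : IsPreconnected X) {J : Type} {f : J → E → F}
    (hf : ∀ j, AnalyticOn ℂ (f j) X) {k : ℕ} {x : E} (hx : x ∈ X)
    (h : ∀ᶠ y in 𝓝[X] x, Module.finrank ℂ (Submodule.span ℂ (range fun j => f j y)) ≤ k) :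
    ∀ y ∈ X, Module.finrank ℂ (Submodule.span ℂ (range fun j => f j y)) ≤ k := by
  intro y hy
  by_contra hlt
  obtain ⟨κ, a, -, hsp, hli⟩ := exists_linearIndependent' ℂ (fun j => f j y)
  have : Finite κ := hli.finite
  have := Fintype.ofFinite κ
  classical
  have hcard : k < Fintype.card κ := by
    rw [← finrank_span_eq_card hli, hsp]
    exact not_le.1 hlt
  obtain ⟨P, hP⟩ := LinearMap.exists_leftInverse_of_injective
    (Fintype.linearCombination ℂ ((fun j => f j y) ∘ a))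
    (LinearMap.ker_eq_bot.2 (linearIndependent_iff_injective_fintypeLinearCombination.1 hli))
  let M : E → Matrix κ κ ℂ := fun z => Matrix.of fun i j => P (f (a i) z) j
  have hM : ∀ i j, AnalyticOn ℂ (fun z => M z i j) X := fun i j =>
    ((LinearMap.toContinuousLinearMap ((LinearMap.proj j).comp P)).analyticOnNhd univ).comp_analyticOn
      (hf (a i)) (mapsTo_univ _ _)
  have hD : AnalyticOn ℂ (fun z => (M z).det) X := by
    simp only [Matrix.det_apply']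
    exact Finset.analyticOn_fun_sum _ fun σ _ =>
      analyticOn_const.mul (Finset.analyticOn_fun_prod _ fun i _ => hM _ _)
  have h0 : (fun z => (M z).det) =ᶠ[𝓝[X] x] fun _ => 0 := by
    filter_upwards [h] with z hz
    by_contra hne
    have h1 : LinearIndependent ℂ (fun i => P (f (a i) z)) := Matrix.linearIndependent_rows_of_det_ne_zero hne
    have h2 : LinearIndependent ℂ (fun i => f (a i) z) := LinearIndependent.of_comp P h1
    have h3 : Fintype.card κ ≤ Module.finrank ℂ (Submodule.span ℂ (range fun j => f j z)) := by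
      rw [← finrank_span_eq_card h2]
      exact Submodule.finrank_mono (Submodule.span_mono (by rintro _ ⟨i, rfl⟩; exact ⟨a i, rfl⟩))
    omega
  have h1 := ident hX hc hD analyticOn_const hx h0 y hy
  have h2 : M y = 1 := by
    ext i j
    have := congrArg (fun L : (κ → ℂ) →ₗ[ℂ] (κ → ℂ) => L (Pi.single i 1) j) hP
    simp only [LinearMap.comp_apply, Fintype.linearCombination_apply_single, one_smul, LinearMap.id_apply] at this
    simp only [M, Matrix.of_apply, Matrix.one_apply]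
    rw [Pi.single_apply] at this
    simpa [eq_comm] using this
  rw [h2, Matrix.det_one] at h1
  exact one_ne_zero h1

end Crest.Agent.R264
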