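import Crest.Agent.R264.Base.Ident

/-! Proofs for `Base/Montel.lean` (part a), in dependency order. -/

set_option autoImplicit false
set_option linter.unusedSectionVars false
open Set Filter Topology Metric Complex

namespace Crest.Agent.R264

variable {E F : Type}
  [NormedAddCommGroup E] [NormedSpace ℂ E] [NormedSpace ℝ E] [IsScalarTower ℝ ℂ E] [FiniteDimensional ℂ E]
  [NormedAddCommGroup F] [NormedSpace ℂ F] [NormedSpace ℝ F] [IsScalarTower ℝ ℂ F] [FiniteDimensional ℂ F]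

theorem mA_chart_an {n : ℕ} {X W U : Set E} {h : (Fin n → ℂ) → E} {Ψ : E → Fin n → ℂ} {O : Set (Fin n → ℂ)}
    (c : IsChart X h Ψ O W) (hWU : W ⊆ U) {f : E → F} (hf : AnalyticOn ℂ f (X ∩ U)) :
    AnalyticOnNhd ℂ (fun v => f (h v)) O := fun v hv =>
  anAt_comp_param (c.ah v hv)
    (by filter_upwards [c.oO.mem_nhds hv] with s hs using ⟨(c.hO s hs).1.1, hWU (c.hO s hs).1.2⟩)
    (hf _ ⟨(c.hO v hv).1.1, hWU (c.hO v hv).1.2⟩)

theorem mA_unif_lip {n : ℕ} {X : Set E} (hX : Mfd n X) {x : E} (hx : x ∈ X) {U : Set E} (hU : U ∈ 𝓝 x) :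
    ∃ O ∈ 𝓝 x, O ⊆ U ∧ ∃ L : ℝ, 0 ≤ L ∧ ∀ (f : E → F) (C : ℝ), AnalyticOn ℂ f (X ∩ U) → (∀ y ∈ X ∩ U, ‖f y‖ ≤ C) →
      (∀ y ∈ X ∩ O, ∀ y' ∈ X ∩ O, ‖f y - f y'‖ ≤ L * C * ‖y - y'‖) ∧
      ∀ y ∈ X ∩ O, ∀ v ∈ Tan X y, ‖Dv X f y v‖ ≤ L * C * ‖v‖ := by
  obtain ⟨h, Ψ, δ, W, W', hδ, c, c', hWW, hWU, hxW, h0⟩ := hX.ball hx hU
  obtain ⟨K, t, ht, hK⟩ := ((c.aΨ x hxW).contDiffAt (n := 1)).exists_lipschitzOnWith
  refine ⟨W ∩ interior t, inter_mem (c.oW.mem_nhds hxW) (interior_mem_nhds.2 ht),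
    fun y hy => hWU (hWW hy.1), 2 * K / δ, by positivity, fun f C hf hC => ?_⟩
  have hC0 : 0 ≤ C := (norm_nonneg _).trans (hC x ⟨hx, hWU (hWW hxW)⟩)
  have ha := mA_chart_an c' hWU hf
  have hsub : ∀ v ∈ ball (0 : Fin n → ℂ) δ, ball v δ ⊆ ball 0 (2 * δ) := fun v hv =>
    ball_subset_ball' (by have := mem_ball.1 hv; linarith)
  have hd : ∀ v ∈ ball (0 : Fin n → ℂ) δ, DifferentiableAt ℂ (fun v => f (h v)) v := fun v hv =>
    (ha v (hsub v hv (mem_ball_self hδ))).differentiableAt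
  have hb : ∀ v ∈ ball (0 : Fin n → ℂ) δ, ‖fderiv ℂ (fun v => f (h v)) v‖ ≤ 2 * C / δ := fun v hv =>
    R245.norm_fderiv_le_ball hδ (ha.differentiableOn.mono (hsub v hv)) fun w hw =>
      hC _ ⟨(c'.hO w (hsub v hv hw)).1.1, hWU (c'.hO w (hsub v hv hw)).1.2⟩
  constructor
  · intro y hy y' hy'
    have e := c.hW y ⟨hy.1, hy.2.1⟩
    have e' := c.hW y' ⟨hy'.1, hy'.2.1⟩
    have h1 := (convex_ball (0 : Fin n → ℂ) δ).norm_image_sub_le_of_norm_fderiv_le hd hb e'.1 e.1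
    simp only [e.2, e'.2] at h1
    have h2 := hK.dist_le_mul y (interior_subset hy.2.2) y' (interior_subset hy'.2.2)
    rw [dist_eq_norm, dist_eq_norm] at h2
    calc _ ≤ 2 * C / δ * (K * ‖y - y'‖) := h1.trans (mul_le_mul_of_nonneg_left h2 (by positivity))
      _ = _ := by ring
  · intro y hy v hv
    have e := c.hW y ⟨hy.1, hy.2.1⟩
    have hΨ : DifferentiableAt ℂ Ψ y := (c.aΨ y hy.2.1).differentiableAt
    have hev : f =ᶠ[𝓝[X] y] (fun v => f (h v)) ∘ Ψ := by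
      filter_upwards [self_mem_nhdsWithin, mem_nhdsWithin_of_mem_nhds (c.oW.mem_nhds hy.2.1)] with z h1 h2
      simp only [Function.comp, (c.hW z ⟨h1, h2⟩).2]
    rw [Dv_eq_fderiv hy.1 ((hd _ e.1).comp y hΨ) hev hv, fderiv_comp y (hd _ e.1) hΨ,
      ContinuousLinearMap.comp_apply]
    have h2 : ‖fderiv ℂ Ψ y‖ ≤ K := norm_fderiv_le_of_lipschitzOn ℂ (mem_interior_iff_mem_nhds.1 hy.2.2) hK
    calc _ ≤ ‖fderiv ℂ (fun v => f (h v)) (Ψ y)‖ * (‖fderiv ℂ Ψ y‖ * ‖v‖) :=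
          ((fderiv ℂ (fun v => f (h v)) (Ψ y)).le_opNorm _).trans
            (mul_le_mul_of_nonneg_left ((fderiv ℂ Ψ y).le_opNorm v) (norm_nonneg _))
      _ ≤ 2 * C / δ * (K * ‖v‖) := by
          have := hb _ e.1
          gcongr
      _ = _ := by ring

theorem mA_locUnif {n : ℕ} {X : Set E} (hX : Mfd n X) {J : Type} {l : Filter J} {f : J → E → F}
    {g : E → F} (h : ∀ x ∈ X, ∃ O ∈ 𝓝 x, ∃ C : ℝ, ∀ᶠ j in l, AnalyticOn ℂ (f j) (X ∩ O) ∧ ∀ y ∈ X ∩ O, ‖f j y‖ ≤ C)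
    (hp : ∀ x ∈ X, Tendsto (fun j => f j x) l (𝓝 (g x))) : TendstoLocallyUniformlyOn f g l X := by
  rcases l.eq_or_neBot with rfl | hl
  · exact fun u hu x hx => ⟨univ, univ_mem, eventually_bot⟩
  refine Metric.tendstoLocallyUniformlyOn_iff.2 fun ε hε x hx => ?_
  obtain ⟨U, hU, C, hC⟩ := h x hx
  obtain ⟨O, hO, hOU, L, hL, hlip⟩ := mA_unif_lip (F := F) hX hx hU
  have hxO : x ∈ X ∩ O := ⟨hx, mem_of_mem_nhds hO⟩
  have h1 : ∀ᶠ j in l, ∀ y ∈ X ∩ O, ‖f j y - f j x‖ ≤ L * C * ‖y - x‖ :=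
    hC.mono fun j hj y hy => (hlip _ C hj.1 hj.2).1 y hy x hxO
  have h2 : ∀ y ∈ X ∩ O, ‖g y - g x‖ ≤ L * C * ‖y - x‖ := fun y hy =>
    le_of_tendsto ((hp y hy.1).sub (hp x hx)).norm (h1.mono fun j hj => hj y hy)
  have h3 : ∀ᶠ y in 𝓝 x, L * C * ‖y - x‖ < ε / 3 := by
    have : Continuous fun y : E => L * C * ‖y - x‖ := by fun_prop
    exact this.continuousAt.eventually_lt continuousAt_const (by simpa using by linarith)
  refine ⟨(X ∩ O) ∩ {y | L * C * ‖y - x‖ < ε / 3},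
    inter_mem (inter_mem_nhdsWithin X hO) (mem_nhdsWithin_of_mem_nhds h3), ?_⟩
  filter_upwards [h1, Metric.tendsto_nhds.1 (hp x hx) (ε / 3) (by linarith)] with j a1 a2 y hy
  have b1 := a1 y hy.1
  have b2 := h2 y hy.1
  have b3 : L * C * ‖y - x‖ < ε / 3 := hy.2
  rw [← dist_eq_norm] at b1 b2
  linarith [dist_triangle4 (g y) (g x) (f j x) (f j y), dist_comm (g x) (f j x), dist_comm (f j x) (f j y)]

theorem mA_an {n : ℕ} {X : Set E} (hX : Mfd n X) {J : Type} {l : Filter J} [l.NeBot] {f : J → E → F}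
    {g : E → F} (h : ∀ x ∈ X, ∃ O ∈ 𝓝 x, ∀ᶠ j in l, AnalyticOn ℂ (f j) (X ∩ O))
    (hl : TendstoLocallyUniformlyOn f g l X) : AnalyticOn ℂ g X := by
  intro x hx
  obtain ⟨U, hU, hf⟩ := h x hx
  obtain ⟨h, Ψ, δ, W, W', hδ, c, c', hWW, hWU, hxW, h0⟩ := hX.ball hx hU
  have hsub : closedBall (0 : Fin n → ℂ) δ ⊆ ball 0 (2 * δ) := closedBall_subset_ball (by linarith)
  have hu : TendstoUniformlyOn (fun j => f j ∘ h) (g ∘ h) l (closedBall 0 δ) :=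
    (tendstoLocallyUniformlyOn_iff_tendstoUniformlyOn_of_compact (isCompact_closedBall _ _)).1
      (hl.comp h (fun v hv => (c'.hO v (hsub hv)).1.1) (c'.ah.continuousOn.mono hsub))
  have hex : ∀ m : ℕ, ∃ j, AnalyticOnNhd ℂ (fun v => f j (h v)) (ball 0 (2 * δ)) ∧
      ∀ q ∈ closedBall (0 : Fin n → ℂ) δ, ‖f j (h q) - g (h q)‖ ≤ 1 / ((m : ℝ) + 1) := fun m => by
    obtain ⟨j, h1, h2⟩ := (hf.and (Metric.tendstoUniformlyOn_iff.1 hu (1 / ((m : ℝ) + 1))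
      (by positivity))).exists
    refine ⟨j, mA_chart_an c' hWU h1, fun q hq => ?_⟩
    rw [← dist_eq_norm, dist_comm]
    exact (h2 q hq).le
  choose j hj1 hj2 using hex
  obtain ⟨B, hB⟩ := (isCompact_closedBall (0 : Fin n → ℂ) δ).exists_bound_of_continuousOn
    ((hj1 0).continuousOn.mono hsub)
  have hd : DifferentiableOn ℂ (fun v => g (h v)) (ball 0 δ) := fun z hz => by
    obtain ⟨R, hR, hRs⟩ := Metric.isOpen_iff.1 isOpen_ball z hz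
    have hs : ball z R ⊆ closedBall 0 δ := hRs.trans ball_subset_closedBall
    refine (R245.differentiableAt_of_unif (G := fun m v => f (j m) (h v)) (B := B + 1) hR
      (fun m => (hj1 m).differentiableOn.mono (hs.trans hsub)) tendsto_one_div_add_atTop_nhds_zero_nat
      (fun m q hq => hj2 m q (hs hq)) fun q hq => ?_).differentiableWithinAt
    have a1 := hB q (hs hq)
    have a2 := hj2 0 q (hs hq)
    have a3 := norm_sub_le (f (j 0) (h q)) (f (j 0) (h q) - g (h q))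
    rw [sub_sub_cancel] at a3
    simp only [Nat.cast_zero, zero_add, div_one] at a2
    linarith
  rw [← h0]
  exact (c.an_iff (mem_ball_self hδ)).2 (R266.osgood isOpen_ball hd 0 (mem_ball_self hδ))

theorem mA_montel {n : ℕ} {X : Set E} (hX : Mfd n X) {J : Type} (U : Ultrafilter J) {f : J → E → F}
    (h : ∀ x ∈ X, ∃ O ∈ 𝓝 x, ∃ C : ℝ, ∀ᶠ j in U, AnalyticOn ℂ (f j) (X ∩ O) ∧ ∀ y ∈ X ∩ O, ‖f j y‖ ≤ C) :
    ∃ g : E → F, AnalyticOn ℂ g X ∧ TendstoLocallyUniformlyOn f g U X := by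
  have hp : ∀ x ∈ X, ∃ a, Tendsto (fun j => f j x) U (𝓝 a) := fun x hx => by
    obtain ⟨O, hO, C, hC⟩ := h x hx
    obtain ⟨a, -, ha⟩ := (isCompact_closedBall (0 : F) C).ultrafilter_le_nhds (U.map fun j => f j x)
      (le_principal_iff.2 (mem_map.2 (hC.mono fun j hj =>
        mem_closedBall_zero_iff.2 (hj.2 x ⟨hx, mem_of_mem_nhds hO⟩))))
    exact ⟨a, ha⟩
  choose! g hg using hp
  have hl := mA_locUnif hX h hg
  refine ⟨g, mA_an hX (fun x hx => ?_) hl, hl⟩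
  obtain ⟨O, hO, C, hC⟩ := h x hx
  exact ⟨O, hO, hC.mono fun j hj => hj.1⟩

end Crest.Agent.R264
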