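import Crest.Agent.R264.Base.Ident

/-! Auxiliary lemmas for `Base/Montel.lean` (derivatives of limits, parametric integrals). -/

set_option autoImplicit false
set_option linter.unusedSectionVars false
open Set Filter Topology Metric Complex

namespace Crest.Agent.R264

variable {E F G : Type}
  [NormedAddCommGroup E] [NormedSpace ℂ E] [NormedSpace ℝ E] [IsScalarTower ℝ ℂ E] [FiniteDimensional ℂ E]
  [NormedAddCommGroup F] [NormedSpace ℂ F] [NormedSpace ℝ F] [IsScalarTower ℝ ℂ F] [FiniteDimensional ℂ F]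
  [NormedAddCommGroup G] [NormedSpace ℂ G] [NormedSpace ℝ G] [IsScalarTower ℝ ℂ G] [FiniteDimensional ℂ G]

theorem IsChart.ev_eq {n : ℕ} {X W : Set E} {h : (Fin n → ℂ) → E} {Ψ : E → Fin n → ℂ} {O : Set (Fin n → ℂ)}
    (c : IsChart X h Ψ O W) {y : E} (hy : y ∈ W) (f : E → F) : f =ᶠ[𝓝[X] y] fun z => f (h (Ψ z)) := by
  filter_upwards [self_mem_nhdsWithin, mem_nhdsWithin_of_mem_nhds (c.oW.mem_nhds hy)] with z h1 h2
  rw [(c.hW z ⟨h1, h2⟩).2]

theorem IsChart.Dv_eq {n : ℕ} {X W : Set E} {h : (Fin n → ℂ) → E} {Ψ : E → Fin n → ℂ} {O : Set (Fin n → ℂ)}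
    (c : IsChart X h Ψ O W) {y v : E} (hy : y ∈ X ∩ W) {f : E → F}
    (hf : DifferentiableAt ℂ (fun u => f (h u)) (Ψ y)) (hv : v ∈ Tan X y) :
    Dv X f y v = fderiv ℂ (fun u => f (h u)) (Ψ y) (fderiv ℂ Ψ y v) := by
  have hΨ : DifferentiableAt ℂ Ψ y := (c.aΨ y hy.2).differentiableAt
  have h1 := hf.hasFDerivAt.comp y hΨ.hasFDerivAt
  rw [Dv_eq_fderiv hy.1 h1.differentiableAt (c.ev_eq hy.2 f) hv, h1.fderiv]
  rfl

theorem anW_of_inter {X O : Set E} {f : E → F} {y : E} (hO : O ∈ 𝓝 y) (hf : AnalyticWithinAt ℂ f (X ∩ O) y) :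
    AnalyticWithinAt ℂ f X y :=
  hf.mono_of_mem_nhdsWithin (inter_mem_nhdsWithin X hO)

/-- Cauchy estimate for the derivative -/
theorem Dv_bound {n : ℕ} {X : Set E} (hX : Mfd n X) {x : E} (hx : x ∈ X) {U : Set E} (hU : U ∈ 𝓝 x) :
    ∃ O ∈ 𝓝 x, O ⊆ U ∧ ∃ L : ℝ, 0 ≤ L ∧ ∀ (f : E → F) (C : ℝ), AnalyticOn ℂ f (X ∩ U) →
      (∀ y ∈ X ∩ U, ‖f y‖ ≤ C) → ∀ y ∈ X ∩ O, ∀ v ∈ Tan X y, ‖Dv X f y v‖ ≤ L * C * ‖v‖ := by
  obtain ⟨h, Ψ, δ, W, W', hδ, c, c', hWW, hWU, hxW, -⟩ := hX.ball hx hU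
  have hc : ContinuousAt (fun y => ‖fderiv ℂ Ψ y‖) x := (c.aΨ x hxW).fderiv.continuousAt.norm
  have hev : ∀ᶠ y in 𝓝 x, ‖fderiv ℂ Ψ y‖ < ‖fderiv ℂ Ψ x‖ + 1 := hc.eventually (gt_mem_nhds (lt_add_one _))
  refine ⟨W ∩ {y | ‖fderiv ℂ Ψ y‖ < ‖fderiv ℂ Ψ x‖ + 1}, inter_mem (c.oW.mem_nhds hxW) hev,
    fun y hy => hWU (hWW hy.1), 2 / δ * (‖fderiv ℂ Ψ x‖ + 1), by positivity, ?_⟩
  intro f C hf hC y hy v hv
  have hyW : y ∈ X ∩ W := ⟨hy.1, hy.2.1⟩
  have hd : ∀ u ∈ ball (0 : Fin n → ℂ) (2 * δ), DifferentiableAt ℂ (fun u => f (h u)) u := by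
    intro u hu
    have h1 := (c'.hO u hu).1
    exact ((c'.an_iff hu).1 (anW_of_inter (mem_of_superset (c'.oW.mem_nhds h1.2) hWU)
      (hf _ ⟨h1.1, hWU h1.2⟩))).differentiableAt
  have hΨy := (c.hW y hyW).1
  have hsub : ball (Ψ y) δ ⊆ ball (0 : Fin n → ℂ) (2 * δ) := by
    intro u hu
    rw [mem_ball] at hu hΨy ⊢
    linarith [dist_triangle u (Ψ y) 0]
  have hb := R245.norm_fderiv_le_ball (f := fun u => f (h u)) (c := Ψ y) (M := C) hδ
    (fun u hu => (hd u (hsub hu)).differentiableWithinAt)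
    (fun u hu => hC _ ⟨(c'.hO u (hsub hu)).1.1, hWU (c'.hO u (hsub hu)).1.2⟩)
  have hC0 : 0 ≤ C := (norm_nonneg _).trans (hC y ⟨hy.1, hWU (hWW hy.2.1)⟩)
  rw [c.Dv_eq hyW (hd _ (hsub (mem_ball_self hδ))) hv]
  have h2 : ‖fderiv ℂ Ψ y‖ ≤ ‖fderiv ℂ Ψ x‖ + 1 := le_of_lt hy.2.2
  calc _ ≤ ‖fderiv ℂ (fun u => f (h u)) (Ψ y)‖ * ‖fderiv ℂ Ψ y v‖ := ContinuousLinearMap.le_opNorm _ _
    _ ≤ (2 * C / δ) * (‖fderiv ℂ Ψ y‖ * ‖v‖) := by
      gcongr
      exact ContinuousLinearMap.le_opNorm _ _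
    _ ≤ (2 * C / δ) * ((‖fderiv ℂ Ψ x‖ + 1) * ‖v‖) := by gcongr
    _ = _ := by ring

/-- locally uniform convergence of the derivatives on tangent vectors -/
theorem Dv_unif {n : ℕ} {X : Set E} (hX : Mfd n X) {J : Type} {l : Filter J} {f : J → E → F}
    {g : E → F} (h : ∀ x ∈ X, ∃ O ∈ 𝓝 x, ∀ᶠ j in l, AnalyticOn ℂ (f j) (X ∩ O))
    (hl : TendstoLocallyUniformlyOn f g l X) (hg : AnalyticOn ℂ g X) {x : E} (hx : x ∈ X) :
    ∃ O ∈ 𝓝 x, ∀ ε > 0, ∀ᶠ j in l, ∀ y ∈ X ∩ O, ∀ v ∈ Tan X y,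
      ‖Dv X g y v - Dv X (f j) y v‖ ≤ ε * ‖v‖ := by
  obtain ⟨O₁, hO₁, h₁⟩ := h x hx
  obtain ⟨O₂, hO₂, hxO, hO₂₁, -, hK, hKX⟩ := hX.nbhd hx hO₁
  have hu : TendstoUniformlyOn f g l (closure (X ∩ O₂)) :=
    (tendstoLocallyUniformlyOn_iff_tendstoUniformlyOn_of_compact hK).1
      (hl.mono (hKX.trans inter_subset_left))
  obtain ⟨O, hO, hOO, L, hL, hb⟩ := Dv_bound (F := F) hX hx (hO₂.mem_nhds hxO)
  refine ⟨O, hO, fun ε hε => ?_⟩
  filter_upwards [h₁, Metric.tendstoUniformlyOn_iff.1 hu (ε / (L + 1)) (by positivity)] with j hj hj' y hy v hv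
  have hj2 : AnalyticOn ℂ (f j) (X ∩ O₂) := hj.mono (inter_subset_inter_right _ hO₂₁)
  have h2 := hb (fun z => g z - f j z) (ε / (L + 1)) ((hg.mono inter_subset_left).sub hj2)
    (fun z hz => by rw [← dist_eq_norm]; exact (hj' z (subset_closure hz)).le) y hy v hv
  rw [Dv_sub (anW_diff (hg y hy.1))
    (anW_diff (anW_of_inter (hO₂.mem_nhds (hOO hy.2)) (hj2 y ⟨hy.1, hOO hy.2⟩))) hv] at h2
  refine h2.trans (mul_le_mul_of_nonneg_right ?_ (norm_nonneg _))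
  rw [mul_div_assoc', div_le_iff₀ (by positivity)]
  nlinarith

theorem der_tendsto' {n : ℕ} {X : Set E} (hX : Mfd n X) {J : Type} {l : Filter J} {f : J → E → F}
    {g : E → F} (h : ∀ x ∈ X, ∃ O ∈ 𝓝 x, ∀ᶠ j in l, AnalyticOn ℂ (f j) (X ∩ O))
    (hl : TendstoLocallyUniformlyOn f g l X) (hg : AnalyticOn ℂ g X) {W : E → E} (hW : VF X W) :
    TendstoLocallyUniformlyOn (fun j => der X W (f j)) (der X W g) l X := by
  rw [Metric.tendstoLocallyUniformlyOn_iff]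
  intro ε hε x hx
  obtain ⟨O, hO, h₁⟩ := Dv_unif hX h hl hg hx
  have hc : ContinuousWithinAt (fun y => ‖W y‖) X x := (hW.an.continuousOn x hx).norm
  have hev : ∀ᶠ y in 𝓝[X] x, ‖W y‖ < ‖W x‖ + 1 := hc.eventually (gt_mem_nhds (lt_add_one _))
  refine ⟨X ∩ O ∩ {y | ‖W y‖ < ‖W x‖ + 1}, inter_mem (inter_mem_nhdsWithin X hO) hev, ?_⟩
  filter_upwards [h₁ (ε / (‖W x‖ + 1)) (by positivity)] with j hj y hy
  rw [dist_eq_norm]
  refine (hj y hy.1 (W y) (hW.tan y hy.1.1)).trans_lt ?_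
  have h2 : ‖W y‖ < ‖W x‖ + 1 := hy.2
  rw [div_mul_eq_mul_div, div_lt_iff₀ (by positivity)]
  gcongr

theorem Dv_tendsto' {n : ℕ} {X : Set E} (hX : Mfd n X) {J : Type} {l : Filter J} {f : J → E → F}
    {g : E → F} (h : ∀ x ∈ X, ∃ O ∈ 𝓝 x, ∀ᶠ j in l, AnalyticOn ℂ (f j) (X ∩ O))
    (hl : TendstoLocallyUniformlyOn f g l X) (hg : AnalyticOn ℂ g X) {x v : E} (hx : x ∈ X)
    (hv : v ∈ Tan X x) : Tendsto (fun j => Dv X (f j) x v) l (𝓝 (Dv X g x v)) := by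
  rw [Metric.tendsto_nhds]
  intro ε hε
  obtain ⟨O, hO, h₁⟩ := Dv_unif hX h hl hg hx
  filter_upwards [h₁ (ε / (‖v‖ + 1)) (by positivity)] with j hj
  rw [dist_comm, dist_eq_norm]
  refine (hj x ⟨hx, mem_of_mem_nhds hO⟩ v hv).trans_lt ?_
  rw [div_mul_eq_mul_div, div_lt_iff₀ (by positivity)]
  gcongr
  exact lt_add_one _

/-- differentiation under the integral in a vector space -/
theorem flat_int {K : ℝ → G → F} {O : Set G} {a b : ℝ} (hO : IsOpen O)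
    (hd : ∀ t ∈ uIcc a b, DifferentiableOn ℂ (K t) O)
    (hc : ContinuousOn (fun p : ℝ × G => K p.1 p.2) (uIcc a b ×ˢ O)) {u : G} (hu : u ∈ O) :
    ContinuousOn (fun t => fderiv ℂ (K t) u) (uIcc a b) ∧
      HasFDerivAt (fun u => ∫ t in a..b, K t u) (∫ t in a..b, fderiv ℂ (K t) u) u := by
  obtain ⟨r', hr', hsub'⟩ := nhds_basis_closedBall.mem_iff.1 (hO.mem_nhds hu)
  obtain ⟨r, hr, hsub⟩ : ∃ r > 0, closedBall u (2 * r) ⊆ O := ⟨r' / 2, by positivity, by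
    rwa [show 2 * (r' / 2) = r' by ring]⟩
  have hK : IsCompact (uIcc a b ×ˢ closedBall u (2 * r)) := isCompact_uIcc.prod (isCompact_closedBall _ _)
  have hcK := hc.mono (prod_mono subset_rfl hsub)
  obtain ⟨M, hM⟩ := hK.exists_bound_of_continuousOn hcK
  have hbs : ∀ w ∈ ball u r, ball w r ⊆ closedBall u (2 * r) := by
    intro w hw z hz
    rw [mem_ball] at hw hz
    rw [mem_closedBall]
    linarith [dist_triangle z w u]
  have hda : ∀ t ∈ uIcc a b, ∀ w ∈ O, DifferentiableAt ℂ (K t) w := fun t ht w hw =>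
    (hd t ht).differentiableAt (hO.mem_nhds hw)
  have hcont : ContinuousOn (fun t => fderiv ℂ (K t) u) (uIcc a b) := by
    intro t₀ ht₀
    have hun : TendstoUniformlyOn K (K t₀) (𝓝[uIcc a b] t₀) (closedBall u (2 * r)) :=
      UniformContinuousOn.tendstoUniformlyOn (hK.uniformContinuousOn_of_continuous hcK) ht₀
    rw [ContinuousWithinAt, Metric.tendsto_nhds]
    intro ε hε
    filter_upwards [self_mem_nhdsWithin, Metric.tendstoUniformlyOn_iff.1 hun (ε * r / 4) (by positivity)]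
      with t ht h1
    have h2 := R245.norm_fderiv_le_ball (f := fun w => K t₀ w - K t w) (c := u) (M := ε * r / 4) hr
      (fun w hw => ((hda t₀ ht₀ w (hsub (hbs u (mem_ball_self hr) hw))).sub
        (hda t ht w (hsub (hbs u (mem_ball_self hr) hw)))).differentiableWithinAt)
      (fun w hw => by rw [← dist_eq_norm]; exact (h1 w (hbs u (mem_ball_self hr) hw)).le)
    rw [fderiv_fun_sub (hda t₀ ht₀ u hu) (hda t ht u hu)] at h2
    rw [dist_comm, dist_eq_norm]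
    refine h2.trans_lt ?_
    rw [div_lt_iff₀ hr]
    nlinarith [mul_pos hε hr]
  refine ⟨hcont, ?_⟩
  have hcw : ∀ w ∈ O, ContinuousOn (fun t => K t w) (uIcc a b) := fun w hw =>
    hc.comp (f := fun t => (t, w)) (by fun_prop) (fun t ht => ⟨ht, hw⟩)
  refine intervalIntegral.hasFDerivAt_integral_of_dominated_of_fderiv_le (𝕜 := ℂ) (μ := MeasureTheory.volume)
    (F := fun w t => K t w) (F' := fun w t => fderiv ℂ (K t) w) (bound := fun _ => 2 * M / r)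
    (ball_mem_nhds u hr) ?_ (hcw u hu).intervalIntegrable ?_ ?_ intervalIntegrable_const ?_
  · filter_upwards [hO.mem_nhds hu] with w hw
    exact ((hcw w hw).mono uIoc_subset_uIcc).aestronglyMeasurable measurableSet_uIoc
  · exact (hcont.mono uIoc_subset_uIcc).aestronglyMeasurable measurableSet_uIoc
  · refine Eventually.of_forall fun t ht w hw => ?_
    have ht' := uIoc_subset_uIcc ht
    exact R245.norm_fderiv_le_ball hr (fun z hz => (hda t ht' z (hsub (hbs w hw hz))).differentiableWithinAt)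
      (fun z hz => hM (t, z) ⟨ht', hbs w hw hz⟩)
  · refine Eventually.of_forall fun t ht w hw => ?_
    exact (hda t (uIoc_subset_uIcc ht) w (hsub (hbs w hw (mem_ball_self hr)))).hasFDerivAt

theorem an_integral' {n : ℕ} {X : Set E} (hX : Mfd n X) {k : ℝ → E → F} {a b : ℝ}
    (ha : ∀ t ∈ uIcc a b, AnalyticOn ℂ (k t) X) (hc : ContinuousOn (fun p : ℝ × E => k p.1 p.2) (uIcc a b ×ˢ X)) :
    AnalyticOn ℂ (fun x => ∫ t in a..b, k t x) X ∧ ∀ x ∈ X, ∀ v ∈ Tan X x,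
      ContinuousOn (fun t => Dv X (k t) x v) (uIcc a b) ∧
      Dv X (fun x => ∫ t in a..b, k t x) x v = ∫ t in a..b, Dv X (k t) x v := by
  have key : ∀ x ∈ X, AnalyticWithinAt ℂ (fun x => ∫ t in a..b, k t x) X x ∧ ∀ v ∈ Tan X x,
      ContinuousOn (fun t => Dv X (k t) x v) (uIcc a b) ∧
      Dv X (fun x => ∫ t in a..b, k t x) x v = ∫ t in a..b, Dv X (k t) x v := by
    intro x hx
    obtain ⟨h, Ψ, O, W, c, hxW⟩ := hX x hx
    have hd : ∀ t ∈ uIcc a b, ∀ u ∈ O, DifferentiableAt ℂ (fun u => k t (h u)) u := fun t ht u hu =>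
      ((c.an_iff hu).1 (ha t ht _ (c.hO u hu).1.1)).differentiableAt
    have hcc : ContinuousOn (fun p : ℝ × (Fin n → ℂ) => k p.1 (h p.2)) (uIcc a b ×ˢ O) :=
      hc.comp (f := fun p : ℝ × (Fin n → ℂ) => (p.1, h p.2))
        (continuousOn_fst.prodMk (c.ah.continuousOn.comp continuousOn_snd fun p hp => hp.2))
        (fun p hp => ⟨hp.1, (c.hO p.2 hp.2).1.1⟩)
    have hf := fun u (hu : u ∈ O) => flat_int (K := fun t u => k t (h u)) c.oO
      (fun t ht u hu => (hd t ht u hu).differentiableWithinAt) hcc hu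
    have hx' := c.hW x ⟨hx, hxW⟩
    have han : AnalyticOnNhd ℂ (fun u => ∫ t in a..b, k t (h u)) O :=
      R266.osgood c.oO fun u hu => (hf u hu).2.differentiableAt.differentiableWithinAt
    refine ⟨?_, fun v hv => ?_⟩
    · have := (c.an_iff (f := fun x => ∫ t in a..b, k t x) hx'.1).2 (han _ hx'.1)
      rwa [hx'.2] at this
    · have h1 : ∀ t ∈ uIcc a b, Dv X (k t) x v = fderiv ℂ (fun u => k t (h u)) (Ψ x) (fderiv ℂ Ψ x v) :=
        fun t ht => c.Dv_eq ⟨hx, hxW⟩ (hd t ht _ hx'.1) hv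
      refine ⟨ContinuousOn.congr ((hf _ hx'.1).1.clm_apply continuousOn_const) h1, ?_⟩
      rw [c.Dv_eq (f := fun x => ∫ t in a..b, k t x) ⟨hx, hxW⟩ (hf _ hx'.1).2.differentiableAt hv,
        (hf _ hx'.1).2.fderiv, ContinuousLinearMap.intervalIntegral_apply (hf _ hx'.1).1.intervalIntegrable]
      exact (intervalIntegral.integral_congr h1).symm
  exact ⟨fun x hx => (key x hx).1, fun x hx => (key x hx).2⟩

end Crest.Agent.R264
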