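import Crest.Agent.R264.Base.Ident
import Crest.Agent.R264.Base.MontelB
import Crest.Agent.R264.Base.MontelAux

set_option autoImplicit false
set_option linter.unusedSectionVars false
open Set Filter Topology Metric Complex

namespace Crest.Agent.R264

variable {E F G : Type}
  [NormedAddCommGroup E] [NormedSpace ℂ E] [NormedSpace ℝ E] [IsScalarTower ℝ ℂ E] [FiniteDimensional ℂ E]
  [NormedAddCommGroup F] [NormedSpace ℂ F] [NormedSpace ℝ F] [IsScalarTower ℝ ℂ F] [FiniteDimensional ℂ F]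
  [NormedAddCommGroup G] [NormedSpace ℂ G] [NormedSpace ℝ G] [IsScalarTower ℝ ℂ G] [FiniteDimensional ℂ G]

/-! Montel's theorem along ultrafilters; limits of holomorphic maps. -/

/-- Montel.  The limit is the pointwise ultrafilter limit (closed balls are compact); in a chart the maps are
uniformly Lipschitz on smaller balls (`R245.norm_fderiv_le_ball`), which gives locally uniform convergence. -/
theorem montel {n : ℕ} {X : Set E} (hX : Mfd n X) {J : Type} (U : Ultrafilter J) {f : J → E → F}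
    (h : ∀ x ∈ X, ∃ O ∈ 𝓝 x, ∃ C : ℝ, ∀ᶠ j in U, AnalyticOn ℂ (f j) (X ∩ O) ∧ ∀ y ∈ X ∩ O, ‖f j y‖ ≤ C) :
    ∃ g : E → F, AnalyticOn ℂ g X ∧ TendstoLocallyUniformlyOn f g U X := by
  exact mA_montel hX U h

/-- Weierstrass -/
theorem an_of_tendsto {n : ℕ} {X : Set E} (hX : Mfd n X) {J : Type} {l : Filter J} [l.NeBot] {f : J → E → F}
    {g : E → F} (h : ∀ x ∈ X, ∃ O ∈ 𝓝 x, ∀ᶠ j in l, AnalyticOn ℂ (f j) (X ∩ O))
    (hl : TendstoLocallyUniformlyOn f g l X) : AnalyticOn ℂ g X := by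
  exact mA_an hX h hl

/-- derivatives along a holomorphic tangent field converge locally uniformly -/
theorem der_tendsto {n : ℕ} {X : Set E} (hX : Mfd n X) {J : Type} {l : Filter J} [l.NeBot] {f : J → E → F}
    {g : E → F} (h : ∀ x ∈ X, ∃ O ∈ 𝓝 x, ∀ᶠ j in l, AnalyticOn ℂ (f j) (X ∩ O))
    (hl : TendstoLocallyUniformlyOn f g l X) {W : E → E} (hW : VF X W) :
    TendstoLocallyUniformlyOn (fun j => der X W (f j)) (der X W g) l X := by
  exact der_tendsto' hX h hl (an_of_tendsto hX h hl) hW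

theorem Dv_tendsto {n : ℕ} {X : Set E} (hX : Mfd n X) {J : Type} {l : Filter J} [l.NeBot] {f : J → E → F}
    {g : E → F} (h : ∀ x ∈ X, ∃ O ∈ 𝓝 x, ∀ᶠ j in l, AnalyticOn ℂ (f j) (X ∩ O))
    (hl : TendstoLocallyUniformlyOn f g l X) {x v : E} (hx : x ∈ X) (hv : v ∈ Tan X x) :
    Tendsto (fun j => Dv X (f j) x v) l (𝓝 (Dv X g x v)) := by
  exact Dv_tendsto' hX h hl (an_of_tendsto hX h hl) hx hv

/-- Vitali type statement: pointwise convergence and local bounds give locally uniform convergence -/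
theorem locUnif_of_pointwise {n : ℕ} {X : Set E} (hX : Mfd n X) {J : Type} {l : Filter J} {f : J → E → F}
    {g : E → F} (h : ∀ x ∈ X, ∃ O ∈ 𝓝 x, ∃ C : ℝ, ∀ᶠ j in l, AnalyticOn ℂ (f j) (X ∩ O) ∧ ∀ y ∈ X ∩ O, ‖f j y‖ ≤ C)
    (hp : ∀ x ∈ X, Tendsto (fun j => f j x) l (𝓝 (g x))) : TendstoLocallyUniformlyOn f g l X := by
  exact mA_locUnif hX h hp

/-- moving points -/
theorem tendsto_moving {X : Set E} {J : Type} {l : Filter J} {f : J → E → F} {g : E → F}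
    (hl : TendstoLocallyUniformlyOn f g l X) {x : E} (hx : x ∈ X) (hg : ContinuousWithinAt g X x) {y : J → E}
    (hy : Tendsto y l (𝓝[X] x)) : Tendsto (fun j => f j (y j)) l (𝓝 (g x)) := by
  exact hl.tendsto_comp hg hx hy

/-- uniform local Lipschitz and derivative bounds for bounded holomorphic maps (Cauchy estimates in a chart) -/
theorem unif_lip {n : ℕ} {X : Set E} (hX : Mfd n X) {x : E} (hx : x ∈ X) {U : Set E} (hU : U ∈ 𝓝 x) :
    ∃ O ∈ 𝓝 x, O ⊆ U ∧ ∃ L : ℝ, 0 ≤ L ∧ ∀ (f : E → F) (C : ℝ), AnalyticOn ℂ f (X ∩ U) → (∀ y ∈ X ∩ U, ‖f y‖ ≤ C) →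
      (∀ y ∈ X ∩ O, ∀ y' ∈ X ∩ O, ‖f y - f y'‖ ≤ L * C * ‖y - y'‖) ∧
      ∀ y ∈ X ∩ O, ∀ v ∈ Tan X y, ‖Dv X f y v‖ ≤ L * C * ‖v‖ := by
  exact mA_unif_lip hX hx hU

/-- parametric integrals of holomorphic maps -/
theorem an_integral {n : ℕ} {X : Set E} (hX : Mfd n X) {k : ℝ → E → F} {a b : ℝ}
    (ha : ∀ t ∈ uIcc a b, AnalyticOn ℂ (k t) X) (hc : ContinuousOn (fun p : ℝ × E => k p.1 p.2) (uIcc a b ×ˢ X)) :
    AnalyticOn ℂ (fun x => ∫ t in a..b, k t x) X ∧ ∀ x ∈ X, ∀ v ∈ Tan X x,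
      ContinuousOn (fun t => Dv X (k t) x v) (uIcc a b) ∧
      Dv X (fun x => ∫ t in a..b, k t x) x v = ∫ t in a..b, Dv X (k t) x v := by
  exact an_integral' hX ha hc

end Crest.Agent.R264
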