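import Mathlib

/-! Row 264: the maximum principle behind boundary uniqueness. -/

set_option autoImplicit false
open Set Filter Topology Metric Complex

namespace Crest.Agent.R264

theorem oneB_max {ι : Type} [Fintype ι] {ρ M : ℝ} (hρ : 0 < ρ) {r : ι → ℂ → ℝ} {f : ι → ℂ → ℂ}
    (hr : ∀ k, ∀ z ∈ closedBall (0 : ℂ) ρ, ContinuousAt (r k) z)
    (hf : ∀ k, ∀ z ∈ closedBall (0 : ℂ) ρ, 0 < r k z → DifferentiableAt ℂ (f k) z ∧ ‖f k z‖ ≤ M)
    (hl : ∀ k, ∀ z ∈ closedBall (0 : ℂ) ρ, r k z = 0 → Tendsto (f k) (𝓝[{z' | 0 < r k z'}] z) (𝓝 0))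
    (hs : ∀ z : ℂ, ‖z‖ = ρ → ∃ k, r k z < 0) (h0 : ∀ k, 0 < r k 0) : ∏ k, f k 0 = 0 := by
  classical
  set U : Set ℂ := {z | z ∈ ball (0 : ℂ) ρ ∧ ∀ k, 0 < r k z} with hU
  have hUb : U ⊆ closedBall 0 ρ := fun z hz => ball_subset_closedBall hz.1
  have hUo : IsOpen U := isOpen_iff_mem_nhds.2 fun z hz =>
    (isOpen_ball.eventually_mem hz.1).and (eventually_all.2 fun k =>
      (hr k z (hUb hz)).eventually (lt_mem_nhds (hz.2 k)))
  have hcl : closure U ⊆ closedBall 0 ρ := closure_minimal hUb isClosed_closedBall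
  set G : ℂ → ℂ := U.indicator fun z => ∏ k, f k z with hG
  have hd : ∀ z ∈ U, DifferentiableAt ℂ G z := fun z hz => by
    refine (DifferentiableAt.fun_finsetProd (u := Finset.univ) fun k _ =>
      (hf k z (hUb hz) (hz.2 k)).1).congr_of_eventuallyEq ?_
    filter_upwards [hUo.mem_nhds hz] with y hy using indicator_of_mem hy _
  have hc : ContinuousOn G (closure U) := fun z hz => by
    by_cases hzU : z ∈ U
    · exact (hd z hzU).continuousAt.continuousWithinAt
    have hge : ∀ k, 0 ≤ r k z := fun k => by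
      by_contra hlt
      obtain ⟨y, h1, h2⟩ := mem_closure_iff_nhds.1 hz _
        ((hr k z (hcl hz)).eventually (gt_mem_nhds (not_le.1 hlt)))
      exact lt_asymm h1 (h2.2 k)
    obtain ⟨k, hk⟩ : ∃ k, r k z = 0 := by
      by_contra hne
      push Not at hne
      refine hzU ⟨mem_ball_zero_iff.2 ((mem_closedBall_zero_iff.1 (hcl hz)).lt_of_ne fun h => ?_),
        fun k => (hge k).lt_of_ne' (hne k)⟩
      obtain ⟨k, hk⟩ := hs z h
      exact absurd (hge k) (not_le.2 hk)
    refine ContinuousAt.continuousWithinAt ?_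
    rw [ContinuousAt, hG, indicator_of_notMem hzU, ← nhdsWithin_univ, ← union_compl_self U,
      nhdsWithin_union, tendsto_sup]
    constructor
    · have h1 := ((hl k z (hcl hz) hk).mono_left
        (nhdsWithin_mono z (s := U) fun y hy => hy.2 k)).norm.mul_const (∏ _j ∈ Finset.univ.erase k, M)
      rw [norm_zero, zero_mul] at h1
      refine squeeze_zero_norm' ?_ h1
      filter_upwards [self_mem_nhdsWithin] with y hy
      rw [indicator_of_mem hy, ← Finset.mul_prod_erase _ _ (Finset.mem_univ k), norm_mul, norm_prod]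
      exact mul_le_mul_of_nonneg_left (Finset.prod_le_prod (fun _ _ => norm_nonneg _)
        fun j _ => (hf j y (hUb hy) (hy.2 j)).2) (norm_nonneg _)
    · refine tendsto_const_nhds.congr' ?_
      filter_upwards [self_mem_nhdsWithin] with y hy using (indicator_of_notMem hy _).symm
  have h0U : (0 : ℂ) ∈ U := ⟨mem_ball_self hρ, h0⟩
  have h := norm_le_of_forall_mem_frontier_norm_le (isBounded_closedBall.subset hUb)
    ⟨fun z hz => (hd z hz).differentiableWithinAt, hc⟩ (C := 0)
    (fun z hz => by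
      rw [hUo.frontier_eq] at hz
      rw [hG, indicator_of_notMem hz.2, norm_zero]) (subset_closure h0U)
  rwa [hG, indicator_of_mem h0U, norm_le_zero_iff] at h

theorem oneB_rot (z : ℂ) : ∃ k : Fin 4, (I ^ (k : ℕ) * z).re ≤ -(‖z‖ / 2) := by
  have h := norm_le_abs_re_add_abs_im z
  by_contra hc
  push Not at hc
  have h0 := hc 0
  have h1 := hc 1
  have h2 := hc 2
  have h3 := hc 3
  simp [pow_succ] at h0 h1 h2 h3
  cases abs_cases z.re <;> cases abs_cases z.im <;> linarith

theorem oneB_dir {E : Type} [NormedAddCommGroup E] [NormedSpace ℂ E] [NormedSpace ℝ E] [IsScalarTower ℝ ℂ E]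
    {l : E →L[ℝ] ℝ} (hl : l ≠ 0) : ∃ e : E, ∀ z : ℂ, l (z • e) = z.re := by
  obtain ⟨v, hv⟩ : ∃ v, l v ≠ 0 := by
    by_contra h
    push Not at h
    exact hl (ContinuousLinearMap.ext h)
  have key : ∀ z : ℂ, l (z • v) = z.re * l v + z.im * l (I • v) := fun z => by
    conv_lhs => rw [← re_add_im z, add_smul, mul_smul, map_add]
    rw [show ((z.re : ℂ)) • v = z.re • v from algebraMap_smul ℂ z.re v,
      show ((z.im : ℂ)) • I • v = z.im • I • v from algebraMap_smul ℂ z.im _, map_smul, map_smul]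
    rfl
  have hp : 0 < l v ^ 2 + l (I • v) ^ 2 := by positivity
  refine ⟨(⟨l v / (l v ^ 2 + l (I • v) ^ 2), l (I • v) / (l v ^ 2 + l (I • v) ^ 2)⟩ : ℂ) • v,
    fun z => ?_⟩
  rw [smul_smul, key]
  simp only [mul_re, mul_im]
  field_simp
  ring

end Crest.Agent.R264
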