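import Crest.Agent.R264.Base.Montel
import Crest.Agent.R264.Base.OneB

set_option autoImplicit false
set_option linter.unusedSectionVars false
open Set Filter Topology Metric Complex

namespace Crest.Agent.R264

variable {E F G : Type}
  [NormedAddCommGroup E] [NormedSpace ℂ E] [NormedSpace ℝ E] [IsScalarTower ℝ ℂ E] [FiniteDimensional ℂ E]
  [NormedAddCommGroup F] [NormedSpace ℂ F] [NormedSpace ℝ F] [IsScalarTower ℝ ℂ F] [FiniteDimensional ℂ F]
  [NormedAddCommGroup G] [NormedSpace ℂ G] [NormedSpace ℝ G] [IsScalarTower ℝ ℂ G] [FiniteDimensional ℂ G]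

/-! Harnack in a sector, boundary uniqueness. -/

/-- the sector `{Im w ≥ -|w|/2}` (opening `4π/3`) -/
def Sect : Set ℂ := {w | -(‖w‖ / 2) ≤ w.im}

/-- a holomorphic function with values in the sector which vanishes at a point is locally constant (`open_map`) -/
theorem sect_zero {n : ℕ} {X : Set E} (hX : Mfd n X) {f : E → ℂ} {x : E} (hx : x ∈ X)
    (hf : AnalyticWithinAt ℂ f X x) (hs : ∀ᶠ y in 𝓝[X] x, f y ∈ Sect) (h0 : f x = 0) : ∀ᶠ y in 𝓝[X] x, f y = 0 := by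
  rcases open_map hX hx hf with h | h
  · simpa only [h0] using h
  have h1 : ∀ᶠ w in 𝓝 (0 : ℂ), w ∈ Sect := h0 ▸ h hs
  have h2 : Tendsto (fun t : ℝ => -(t : ℂ) * I) (𝓝[>] 0) (𝓝 0) :=
    (Continuous.tendsto' (by fun_prop) 0 0 (by simp)).mono_left nhdsWithin_le_nhds
  obtain ⟨t, h3, h4⟩ := ((h2.eventually h1).and self_mem_nhdsWithin).exists
  have h4 : 0 < t := h4
  simp [Sect, abs_of_pos h4] at h3
  linarith

theorem onea_bc {g : E → ℂ} {c : E} {δ M : ℝ} (hg : DifferentiableOn ℂ g (ball c δ))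
    (hp : ∀ z ∈ ball c δ, -M ≤ (g z - g c).im) {z : E} (hz : z ∈ ball c (δ / 2)) : ‖g z - g c‖ ≤ 2 * M := by
  have hm : MapsTo (fun ζ : ℂ => c + ζ • (z - c)) (ball 0 2) (ball c δ) := fun ζ hζ => by
    rw [mem_ball_zero_iff] at hζ
    rw [mem_ball, dist_eq_norm] at hz ⊢
    rw [add_sub_cancel_left, norm_smul]
    nlinarith [norm_nonneg ζ, norm_nonneg (z - c)]
  have hM : 0 ≤ M := by simpa using hp _ (hm (mem_ball_self two_pos))
  refine le_of_forall_pos_le_add fun ε hε => ?_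
  have := borelCaratheodory_zero (f := fun ζ : ℂ => I * (g (c + ζ • (z - c)) - g c)) (M := M + ε / 2) (R := 2) (z := 1)
    (by positivity) (((hg.comp (by fun_prop) hm).sub_const _).const_mul _)
    (fun ζ hζ => by
      have := hp _ (hm hζ)
      simp only [mem_ofPred_eq, mul_re, I_re, I_im]
      linarith) two_pos (by simp) (by simp)
  norm_num at this
  linarith

theorem onea_loc {n : ℕ} {N : Set E} (hN : Mfd n N) {x : E} (hx : x ∈ N) : ∃ O ∈ 𝓝 x, ∀ f : E → ℂ,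
    AnalyticOn ℂ f N → (∀ y ∈ N, f y ∈ Sect) → ∀ z ∈ N ∩ O, ∀ z' ∈ N ∩ O, ∀ C, ‖f z'‖ ≤ C →
      ‖f z‖ ≤ Real.exp (4 * Real.pi) * (C + 1) + 1 := by
  obtain ⟨h, Ψ, δ, -, W, hδ, -, c, -, -, -, h0⟩ := hN.ball hx univ_mem
  obtain ⟨h1, h2⟩ := c.hO 0 (mem_ball_self (by positivity))
  rw [h0] at h1 h2
  refine ⟨W ∩ Ψ ⁻¹' ball 0 (δ / 4), inter_mem (c.oW.mem_nhds h1.2)
    ((c.aΨ x h1.2).continuousAt (by rw [h2]; exact ball_mem_nhds _ (by positivity))),
    fun f hf hs z hz z' hz' C hC => ?_⟩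
  have sl : ∀ y ∈ N, 1 - I * f y ∈ slitPlane := fun y hy => by
    have := hs y hy
    by_cases e : (f y).re = 0
    · left
      have e' : ‖f y‖ = |(f y).im| := (abs_im_eq_norm.2 e).symm
      simp only [Sect, mem_ofPred_eq, e'] at this
      simp only [sub_re, one_re, mul_re, I_re, I_im]
      cases abs_cases (f y).im <;> linarith
    · right
      simpa using e
  have a1 : ‖Ψ z‖ < δ / 4 := mem_ball_zero_iff.1 hz.2.2
  have a2 : ‖Ψ z'‖ < δ / 4 := mem_ball_zero_iff.1 hz'.2.2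
  have sub : ball (Ψ z') δ ⊆ ball 0 (2 * δ) := ball_subset_ball' (by rw [dist_zero_right]; linarith)
  have := onea_bc (g := fun v => log (1 - I * f (h v))) (c := Ψ z') (δ := δ) (M := 2 * Real.pi) (z := Ψ z)
    (fun v hv => ((analyticAt_const.sub (analyticAt_const.mul ((c.an_iff (sub hv)).1
      (hf _ (c.hO v (sub hv)).1.1)))).clog (sl _ (c.hO v (sub hv)).1.1)).differentiableAt.differentiableWithinAt)
    (fun v _ => by
      rw [sub_im, log_im, log_im]
      linarith [neg_pi_lt_arg (1 - I * f (h v)), arg_le_pi (1 - I * f (h (Ψ z')))])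
    (by rw [mem_ball, dist_eq_norm]; linarith [norm_sub_le (Ψ z) (Ψ z')])
  rw [(c.hW z ⟨hz.1, hz.2.1⟩).2, (c.hW z' ⟨hz'.1, hz'.2.1⟩).2] at this
  have b1 := (re_le_norm _).trans this
  have p1 := norm_pos_iff.2 (slitPlane_ne_zero (sl z hz.1))
  have p2 := norm_pos_iff.2 (slitPlane_ne_zero (sl z' hz'.1))
  rw [sub_re, log_re, log_re, ← Real.log_div p1.ne' p2.ne', Real.log_le_iff_le_exp (by positivity),
    div_le_iff₀ p2, show 2 * (2 * Real.pi) = 4 * Real.pi by ring] at b1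
  have b2 : ‖1 - I * f z'‖ ≤ C + 1 := (norm_sub_le _ _).trans (by simp; linarith)
  have b3 : ‖f z‖ ≤ ‖1 - I * f z‖ + 1 := by
    have := norm_sub_le 1 (1 - I * f z)
    simp at this
    linarith
  exact b3.trans (by gcongr; exact b1.trans (by gcongr))

/-- Harnack: `h = (-I * (f + I)) ^ (1/2)` has positive real part, comparable to `‖h‖`; on balls use the Schwarz lemma,
then a clopen argument for the set of points near which the family is eventually uniformly bounded. -/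
theorem sect_harnack {n : ℕ} {N : Set E} (hN : Mfd n N) (hc : IsPreconnected N) {J : Type} {l : Filter J}
    {f : J → E → ℂ} (hf : ∀ᶠ j in l, AnalyticOn ℂ (f j) N ∧ ∀ y ∈ N, f j y ∈ Sect) {y₀ : E} (hy₀ : y₀ ∈ N)
    {y : J → E} (hy : Tendsto y l (𝓝[N] y₀)) {M : ℝ} (hM : ∀ᶠ j in l, ‖f j (y j)‖ ≤ M) :
    ∀ x ∈ N, ∃ O ∈ 𝓝 x, ∃ C : ℝ, ∀ᶠ j in l, ∀ z ∈ N ∩ O, ‖f j z‖ ≤ C := by
  let Q : E → Prop := fun x => ∃ C : ℝ, ∀ᶠ j in l, ‖f j x‖ ≤ C
  have h0 : Q y₀ := by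
    obtain ⟨O, hO, h⟩ := onea_loc hN hy₀
    refine ⟨Real.exp (4 * Real.pi) * (M + 1) + 1, ?_⟩
    filter_upwards [hf, hM, hy.eventually (inter_mem_nhdsWithin N hO)] with j h1 h2 h3
    exact h _ h1.1 h1.2 _ ⟨hy₀, mem_of_mem_nhds hO⟩ _ h3 _ h2
  intro x hx
  obtain ⟨C, hC⟩ := hc.induction₂' (fun a b => Q a → Q b) (fun a ha => by
    obtain ⟨O, hO, h⟩ := onea_loc hN ha
    have ha' : a ∈ N ∩ O := ⟨ha, mem_of_mem_nhds hO⟩
    filter_upwards [inter_mem_nhdsWithin N hO] with b hb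
    exact ⟨fun ⟨C, hC⟩ => ⟨_, (hf.and hC).mono fun j hj => h _ hj.1.1 hj.1.2 _ hb _ ha' _ hj.2⟩,
      fun ⟨C, hC⟩ => ⟨_, (hf.and hC).mono fun j hj => h _ hj.1.1 hj.1.2 _ ha' _ hb _ hj.2⟩⟩)
    (fun _ _ _ _ _ _ h h' q => h' (h q)) hy₀ hx h0
  obtain ⟨O, hO, h⟩ := onea_loc hN hx
  exact ⟨O, hO, _, (hf.and hC).mono fun j hj z hz => h _ hj.1.1 hj.1.2 _ hz _ ⟨hx, mem_of_mem_nhds hO⟩ _ hj.2⟩

/-- Harnack and Cauchy estimates on a ball for functions with positive imaginary part -/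
theorem im_pos_est {f : E → ℂ} {c : E} {δ : ℝ} (hδ : 0 < δ) (hf : DifferentiableOn ℂ f (ball c δ))
    (hp : ∀ z ∈ ball c δ, 0 < (f z).im) :
    (∀ z ∈ ball c (δ / 2), ‖f z + I‖ ≤ 9 * ‖f c + I‖ ∧ (f z).im ≤ 9 * ‖f c + I‖) ∧
      ‖fderiv ℂ f c‖ ≤ 36 / δ * ‖f c + I‖ := by
  have i : ∀ w : ℂ, w.im ≤ ‖w + I‖ := fun w => le_trans (by simp) (im_le_norm (w + I))
  have h : ∀ z ∈ ball c (δ / 2), ‖f z - f c‖ ≤ 2 * ‖f c + I‖ := fun z hz =>
    onea_bc hf (fun w hw => by rw [sub_im]; linarith [hp w hw, i (f c)]) hz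
  refine ⟨fun z hz => ?_, (norm_fderiv_le_div_of_mapsTo_ball (hf.mono (ball_subset_ball (half_le_self hδ.le)))
    (fun z hz => mem_closedBall_iff_norm.2 (h z hz)) (half_pos hδ)).trans ?_⟩
  · have := norm_add_le (f z - f c) (f c + I)
    rw [← add_assoc, sub_add_cancel] at this
    constructor <;> linarith [h z hz, i (f z), norm_nonneg (f c + I)]
  · calc 2 * ‖f c + I‖ / (δ / 2) = 4 / δ * ‖f c + I‖ := by field_simp; ring
      _ ≤ _ := by gcongr; norm_num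

/-- Borel–Carathéodory -/
theorem fderiv_le_of_im {f : E → ℂ} {c : E} {δ M : ℝ} (hδ : 0 < δ) (hf : DifferentiableOn ℂ f (ball c δ))
    (hp : ∀ z ∈ ball c δ, |(f z).im| ≤ M) : ‖fderiv ℂ f c‖ ≤ 8 * M / δ := by
  refine (norm_fderiv_le_div_of_mapsTo_ball (R₂ := 2 * (2 * M)) (hf.mono (ball_subset_ball (half_le_self hδ.le)))
    (fun z hz => mem_closedBall_iff_norm.2 (onea_bc hf (fun w hw => ?_) hz)) (half_pos hδ)).trans_eq ?_
  · rw [sub_im]
    linarith [(abs_le.1 (hp w hw)).1, (abs_le.1 (hp c (mem_ball_self hδ))).2]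
  · field_simp; ring

/-- Boundary uniqueness.  Rotation trick: restrict to the complex line through a point `c` of `{r > 0}` close to `q`
in the direction of the complex normal, take `ρ` with a third of the circle `|ζ| = ρ` (and of the larger circles up to
a fixed radius) outside `{r > 0}`; `Π_k f (c + ω^k ζ e)` tends to `0` at the boundary of the component of `0` in
`{ζ | |ζ| < ρ, ∀ k, r (c + ω^k ζ e) > 0}`; maximum principle gives `f c = 0`. -/
theorem bdry_unique {f : E → ℂ} {r : E → ℝ} {q : E} (hr : AnalyticAt ℝ r q) (h0 : r q = 0) (hd : fderiv ℝ r q ≠ 0)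
    {M : ℝ} (hf : ∀ᶠ x in 𝓝 q, 0 < r x → AnalyticAt ℂ f x ∧ ‖f x‖ ≤ M)
    (hl : ∀ᶠ x in 𝓝 q, r x = 0 → Tendsto f (𝓝[{x' | 0 < r x'}] x) (𝓝 0)) : ∀ᶠ x in 𝓝 q, 0 < r x → f x = 0 := by
  obtain ⟨e, he⟩ := oneB_dir hd
  set l := fderiv ℝ r q with hl'
  set ε : ℝ := 1 / (4 * (‖e‖ + 1)) with hε
  have hε0 : 0 < ε := by positivity
  have hεe : ε * ‖e‖ ≤ 1 / 4 := by
    rw [hε, div_mul_eq_mul_div, div_le_div_iff₀ (by positivity) (by norm_num)]
    linarith
  have ho := (hasFDerivAt_iff_isLittleO.1 hr.differentiableAt.hasFDerivAt).def hε0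
  obtain ⟨δ, hδ, hb⟩ := Metric.eventually_nhds_iff_ball.1
    (hf.and (hl.and (ho.and hr.eventually_analyticAt)))
  set ρ : ℝ := δ / (2 * (‖e‖ + 1)) with hρ
  have hρ0 : 0 < ρ := by positivity
  have hρe : ρ * ‖e‖ ≤ δ / 2 := by
    rw [hρ, div_mul_eq_mul_div, div_le_div_iff₀ (by positivity) (by norm_num)]
    nlinarith
  filter_upwards [ball_mem_nhds q (half_pos hδ),
    ball_mem_nhds q (show 0 < ρ / 4 / (‖l‖ + ε) by positivity)] with c hc1 hc2 hc
  rw [mem_ball_iff_norm] at hc1 hc2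
  rw [lt_div_iff₀ (by positivity)] at hc2
  let p : Fin 4 → ℂ → E := fun k z => c + (I ^ (k : ℕ) * z) • e
  have hp : ∀ k, Differentiable ℂ (p k) := fun k => by fun_prop
  have hn : ∀ k z, ‖p k z - q‖ ≤ ‖c - q‖ + ‖z‖ * ‖e‖ := fun k z => by
    have : p k z - q = c - q + (I ^ (k : ℕ) * z) • e := by simp only [p]; abel
    rw [this]
    refine (norm_add_le _ _).trans (le_of_eq ?_)
    simp [norm_smul]
  have hm : ∀ k, ∀ z ∈ closedBall (0 : ℂ) ρ, p k z ∈ ball q δ := fun k z hz => by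
    rw [mem_ball_iff_norm]
    linarith [hn k z, mul_le_mul_of_nonneg_right (mem_closedBall_zero_iff.1 hz) (norm_nonneg e)]
  have h := oneB_max (M := M) (r := fun k z => r (p k z)) (f := fun k z => f (p k z)) hρ0
    (fun k z hz => (hb _ (hm k z hz)).2.2.2.continuousAt.comp (hp k).continuous.continuousAt)
    (fun k z hz h => ⟨((hb _ (hm k z hz)).1 h).1.differentiableAt.comp z (hp k z),
      ((hb _ (hm k z hz)).1 h).2⟩)
    (fun k z hz h => ((hb _ (hm k z hz)).2.1 h).comp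
      ((hp k).continuous.continuousWithinAt.tendsto_nhdsWithin fun _ hy => hy))
    (fun z hz => by
      obtain ⟨k, hk⟩ := oneB_rot z
      refine ⟨k, ?_⟩
      have h1 := (hb _ (hm k z (mem_closedBall_zero_iff.2 hz.le))).2.2.1
      have h2 : l (p k z - q) = l (c - q) + (I ^ (k : ℕ) * z).re := by
        rw [← he, ← map_add]
        congr 1
        simp only [p]; abel
      have h3 : l (c - q) ≤ ‖l‖ * ‖c - q‖ := (le_abs_self _).trans (l.le_opNorm _)
      have h4 := mul_le_mul_of_nonneg_left (hn k z) hε0.le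
      have h5 := mul_le_mul_of_nonneg_left hεe hρ0.le
      rw [h0, h2, Real.norm_eq_abs] at h1
      rw [hz] at hk h4
      linarith [(abs_le.1 h1).2])
    (fun k => by simpa [p] using hc)
  simpa [p] using h

end Crest.Agent.R264
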