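import Crest.Agent.R264.Base.Small

/-! Removal of small sets: auxiliary lemmas (direction of the discs, Cauchy integral, Baire). -/

set_option autoImplicit false
set_option linter.unusedSectionVars false
open Set Filter Topology Metric Complex

namespace Crest.Agent.R264

variable {E : Type}
  [NormedAddCommGroup E] [NormedSpace ℂ E] [NormedSpace ℝ E] [IsScalarTower ℝ ℂ E] [FiniteDimensional ℂ E]
  {F : Type} [NormedAddCommGroup F] [NormedSpace ℂ F] [FiniteDimensional ℂ F]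

theorem rema_smul (ζ : ℂ) (e : E) : ζ • e = ζ.re • e + ζ.im • (I • e) := by
  have h : ∀ (a : ℝ) (v : E), a • v = (a : ℂ) • v := fun a v => (algebraMap_smul ℂ a v).symm
  rw [h, h, smul_smul, ← add_smul, re_add_im]

theorem rema_dir0 (L : E →L[ℝ] ℝ × ℝ) {e : E}
    (h : (L e).1 * (L (I • e)).2 - (L (I • e)).1 * (L e).2 ≠ 0) :
    ∃ K : ℝ, 0 < K ∧ ∀ ζ : ℂ, ‖ζ‖ ≤ K * ‖L (ζ • e)‖ := by
  let M : ℂ →ₗ[ℝ] ℝ × ℝ :=
    { toFun := fun ζ => L (ζ • e)
      map_add' := fun a b => by rw [add_smul, map_add]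
      map_smul' := fun c a => by rw [smul_assoc, map_smul]; rfl }
  have hM : LinearMap.ker M = ⊥ := by
    refine LinearMap.ker_eq_bot'.2 fun ζ hζ => ?_
    change L (ζ • e) = 0 at hζ
    rw [rema_smul, map_add, map_smul, map_smul] at hζ
    have h1 := congrArg Prod.fst hζ
    have h2 := congrArg Prod.snd hζ
    simp only [Prod.fst_add, Prod.snd_add, Prod.smul_fst, Prod.smul_snd, smul_eq_mul, Prod.fst_zero,
      Prod.snd_zero] at h1 h2
    refine Complex.ext (mul_right_cancel₀ h ?_) (mul_right_cancel₀ h ?_)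
    · rw [zero_re, zero_mul]
      linear_combination (L (I • e)).2 * h1 - (L (I • e)).1 * h2
    · rw [zero_im, zero_mul]
      linear_combination (L e).1 * h2 - (L e).2 * h1
  obtain ⟨K, hK, hA⟩ := M.exists_antilipschitzWith hM
  exact ⟨K, hK, fun ζ => ZeroHomClass.bound_of_antilipschitz M hA ζ⟩

/-- a complex line on which the real surjection `L` is injective -/
theorem rema_dir (L : E →L[ℝ] ℝ × ℝ) (hL : ∀ c, ∃ v, L v = c) :
    ∃ (e : E) (K : ℝ), 0 < K ∧ ∀ ζ : ℂ, ‖ζ‖ ≤ K * ‖L (ζ • e)‖ := by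
  by_contra hc
  have h : ∀ e : E, (L e).1 * (L (I • e)).2 - (L (I • e)).1 * (L e).2 = 0 := fun e => by
    by_contra h
    exact hc ⟨e, rema_dir0 L h⟩
  obtain ⟨u, hu⟩ := hL (1, 0)
  obtain ⟨v, hv⟩ := hL (0, 1)
  have h1 := h u
  have h2 := h v
  have h3 := h (u + v)
  have h4 := h (u + I • v)
  rw [smul_add, smul_smul, I_mul_I, neg_one_smul] at h4
  rw [smul_add] at h3
  simp only [map_add, map_neg, hu, hv, Prod.fst_add, Prod.snd_add, Prod.fst_neg, Prod.snd_neg] at h1 h2 h3 h4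
  have a1 : (L (I • u)).2 = 0 := by linarith
  have a2 : (L (I • v)).1 = 0 := by linarith
  rw [a1, a2] at h3 h4
  have a3 : (L (I • u)).1 = (L (I • v)).2 := by linarith
  rw [a3] at h4
  nlinarith [sq_nonneg (L (I • v)).2]

/-- discs in the direction `e` meet `{g = 0}` at most once -/
theorem rema_inj {g : E → ℝ × ℝ} {p : E} (hg : ContDiffAt ℝ 1 g p) (hs : ∀ c, ∃ v, fderiv ℝ g p v = c) :
    ∃ (e : E) (K : ℝ), 0 < K ∧ ∃ s ∈ 𝓝 p, ∀ (x : E) (ζ ζ' : ℂ), x + ζ • e ∈ s → x + ζ' • e ∈ s →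
      ‖ζ - ζ'‖ ≤ K * ‖g (x + ζ • e) - g (x + ζ' • e)‖ := by
  obtain ⟨e, K, hK, h⟩ := rema_dir _ hs
  have hst : HasStrictFDerivAt g (fderiv ℝ g p) p := hg.hasStrictFDerivAt (by simp)
  have hc : 0 < 1 / (2 * K * (‖e‖ + 1)) := by positivity
  obtain ⟨s, hs, hap⟩ := hst.approximates_deriv_on_nhds (c := ⟨_, hc.le⟩) (Or.inr hc)
  refine ⟨e, 2 * K, by positivity, s, hs, fun x ζ ζ' h1 h2 => ?_⟩
  have h3 := hap _ h1 _ h2
  have e1 : x + ζ • e - (x + ζ' • e) = (ζ - ζ') • e := by rw [sub_smul]; abel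
  rw [e1, norm_smul] at h3
  change _ ≤ 1 / (2 * K * (‖e‖ + 1)) * _ at h3
  have h4 := h (ζ - ζ')
  have h5 : ‖fderiv ℝ g p ((ζ - ζ') • e)‖ ≤ ‖g (x + ζ • e) - g (x + ζ' • e)‖ +
      ‖g (x + ζ • e) - g (x + ζ' • e) - fderiv ℝ g p ((ζ - ζ') • e)‖ := by
    have := norm_sub_le (g (x + ζ • e) - g (x + ζ' • e))
      (g (x + ζ • e) - g (x + ζ' • e) - fderiv ℝ g p ((ζ - ζ') • e))
    rwa [sub_sub_cancel] at this
  have h6 : K * (1 / (2 * K * (‖e‖ + 1)) * (‖ζ - ζ'‖ * ‖e‖)) ≤ ‖ζ - ζ'‖ / 2 := by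
    have : K * (1 / (2 * K * (‖e‖ + 1)) * (‖ζ - ζ'‖ * ‖e‖)) = ‖ζ - ζ'‖ / 2 * (‖e‖ / (‖e‖ + 1)) := by
      field_simp
    rw [this]
    exact mul_le_of_le_one_right (by positivity) ((div_le_one (by positivity)).2 (by linarith))
  nlinarith [mul_le_mul_of_nonneg_left (h5.trans (add_le_add le_rfl h3)) hK.le]

/-- the Cauchy integral over circles in the direction `e` -/
theorem rema_cauchy {f : E → F} {p e : E} {ρ r : ℝ}
    (hf : ∀ x ∈ ball p ρ, ∀ ζ ∈ sphere (0 : ℂ) r, AnalyticAt ℂ f (x + ζ • e)) (hr : 0 < r) :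
    AnalyticOn ℂ (fun x => ∮ ζ in C(0, r), (ζ - 0)⁻¹ • f (x + ζ • e)) (ball p ρ) := by
  have e1 : (fun x => ∮ ζ in C(0, r), (ζ - 0)⁻¹ • f (x + ζ • e)) =
      fun x => ∫ θ in (0 : ℝ)..2 * Real.pi, I • f (x + circleMap 0 r θ • e) := by
    funext x
    refine intervalIntegral.integral_congr fun θ _ => ?_
    have : circleMap 0 r θ ≠ 0 := circleMap_ne_center hr.ne'
    simp only [deriv_circleMap, sub_zero, smul_smul]
    congr 1
    field_simp
  rw [e1]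
  refine (an_integral (Mfd.of_isOpen isOpen_ball) (k := fun θ x => I • f (x + circleMap 0 r θ • e))
    (fun θ _ x hx => ?_) fun q hq => ?_).1
  · exact (((hf x hx _ (circleMap_mem_sphere _ hr.le θ)).comp_of_eq (analyticAt_id.add analyticAt_const)
      rfl).const_smul (c := I)).analyticWithinAt
  · have hc : Continuous fun q : ℝ × E => q.2 + circleMap 0 r q.1 • e :=
      continuous_snd.add (((continuous_circleMap 0 r).comp continuous_fst).smul continuous_const)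
    exact (((hf q.2 hq.2 _ (circleMap_mem_sphere _ hr.le q.1)).continuousAt.comp_of_eq hc.continuousAt
      rfl).const_smul I).continuousWithinAt

/-- removal of a `C¹` submanifold of real codimension two -/
theorem rema_loc {g : E → ℝ × ℝ} {p : E} (hg : ContDiffAt ℝ 1 g p) (h0 : g p = 0)
    (hs : ∀ c, ∃ v, fderiv ℝ g p v = c) {f : E → F} {C : ℝ}
    (hf : ∀ᶠ x in 𝓝 p, g x ≠ 0 → AnalyticAt ℂ f x ∧ ‖f x‖ ≤ C) :
    ∃ F' : E → F, AnalyticAt ℂ F' p ∧ ∀ᶠ x in 𝓝 p, AnalyticAt ℂ f x → F' x = f x := by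
  obtain ⟨e, K, hK, s, hs, hinj⟩ := rema_inj hg hs
  obtain ⟨δ, hδ, hb⟩ := Metric.mem_nhds_iff.1 (inter_mem hs hf)
  set r : ℝ := δ / (2 * (‖e‖ + 1)) with hr
  have hr0 : 0 < r := by positivity
  have hre : r * ‖e‖ ≤ δ / 2 := by
    have : r * ‖e‖ = δ / 2 * (‖e‖ / (‖e‖ + 1)) := by rw [hr]; field_simp
    rw [this]
    exact mul_le_of_le_one_right (by positivity) ((div_le_one (by positivity)).2 (by linarith))
  have hsm : ∀ᶠ x in 𝓝 p, K * ‖g x‖ < r := by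
    have : ContinuousAt (fun x => K * ‖g x‖) p := continuousAt_const.mul hg.continuousAt.norm
    exact this.eventually_lt continuousAt_const (by simpa [h0] using hr0)
  obtain ⟨ρ, hρ, hρb⟩ := Metric.mem_nhds_iff.1 (inter_mem hsm (ball_mem_nhds p (half_pos hδ)))
  have hin : ∀ x ∈ ball p ρ, ∀ ζ ∈ closedBall (0 : ℂ) r, x + ζ • e ∈ ball p δ := fun x hx ζ hζ => by
    have h1 := (hρb hx).2
    rw [mem_ball_iff_norm] at h1 ⊢
    rw [mem_closedBall_zero_iff] at hζ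
    have h2 : x + ζ • e - p = (x - p) + ζ • e := by abel
    have h3 := norm_add_le (x - p) (ζ • e)
    rw [norm_smul] at h3
    rw [h2]
    nlinarith [mul_le_mul_of_nonneg_right hζ (norm_nonneg e)]
  have hzero : ∀ x ∈ ball p ρ, ∀ ζ ∈ closedBall (0 : ℂ) r, g (x + ζ • e) = 0 → ζ ∈ ball (0 : ℂ) r :=
    fun x hx ζ hζ hz => by
      have h1 := hinj x ζ 0 (hb (hin x hx ζ hζ)).1 (hb (hin x hx 0 (mem_closedBall_self hr0.le))).1
      rw [hz, zero_smul, add_zero, sub_zero, zero_sub, norm_neg] at h1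
      exact mem_ball_zero_iff.2 (h1.trans_lt (hρb hx).1)
  have hsph : ∀ x ∈ ball p ρ, ∀ ζ ∈ sphere (0 : ℂ) r, AnalyticAt ℂ f (x + ζ • e) := fun x hx ζ hζ => by
    refine ((hb (hin x hx ζ (sphere_subset_closedBall hζ))).2 fun hz => ?_).1
    have := hzero x hx ζ (sphere_subset_closedBall hζ) hz
    rw [mem_ball_zero_iff] at this
    rw [mem_sphere_zero_iff_norm] at hζ
    linarith
  have han := rema_cauchy hsph hr0
  refine ⟨fun x => (2 * Real.pi * I : ℂ)⁻¹ • ∮ ζ in C(0, r), (ζ - 0)⁻¹ • f (x + ζ • e),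
    ((isOpen_ball.analyticOn_iff_analyticOnNhd.1 han) p (mem_ball_self hρ)).const_smul, ?_⟩
  filter_upwards [ball_mem_nhds p hρ] with x hx hfx
  have hd : ∀ ζ : ℂ, AnalyticAt ℂ f (x + ζ • e) → DifferentiableAt ℂ (fun ζ : ℂ => f (x + ζ • e)) ζ :=
    fun ζ h => (h.comp_of_eq (analyticAt_const.add (analyticAt_id.smul analyticAt_const)) rfl).differentiableAt
  have key : ∮ ζ in C(0, r), (ζ - 0)⁻¹ • f (x + ζ • e) = (2 * Real.pi * I : ℂ) • f x := by
    by_cases hz : ∃ ζ₀ ∈ closedBall (0 : ℂ) r, ζ₀ ≠ 0 ∧ g (x + ζ₀ • e) = 0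
    · obtain ⟨ζ₀, h1, h2, h3⟩ := hz
      have h4 := hzero x hx ζ₀ h1 h3
      have h5 : ∀ ζ ∈ closedBall (0 : ℂ) r \ {ζ₀}, AnalyticAt ℂ f (x + ζ • e) ∧ ‖f (x + ζ • e)‖ ≤ C :=
        fun ζ hζ => (hb (hin x hx ζ hζ.1)).2 fun h6 => hζ.2 <| by
          have := hinj x ζ ζ₀ (hb (hin x hx ζ hζ.1)).1 (hb (hin x hx ζ₀ h1)).1
          rw [h6, h3, sub_self, norm_zero, mul_zero] at this
          exact sub_eq_zero.1 (norm_le_zero_iff.1 this)
      have h7 := differentiableOn_update_limUnder_of_bddAbove (f := fun ζ : ℂ => f (x + ζ • e))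
        (mem_of_superset (isOpen_ball.mem_nhds h4) ball_subset_closedBall)
        (fun ζ hζ => (hd ζ (h5 ζ hζ).1).differentiableWithinAt)
        ⟨C, by rintro _ ⟨ζ, hζ, rfl⟩; exact (h5 ζ hζ).2⟩
      have h8 := h7.circleIntegral_sub_inv_smul (mem_ball_self hr0)
      rw [Function.update_of_ne h2.symm, zero_smul, add_zero] at h8
      rw [← h8]
      refine circleIntegral.integral_congr hr0.le fun ζ hζ => ?_
      have : ζ ≠ ζ₀ := by
        rintro rfl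
        rw [mem_ball_zero_iff] at h4
        rw [mem_sphere_zero_iff_norm] at hζ
        linarith
      simp only [Function.update_of_ne this]
    · push Not at hz
      have h7 : DifferentiableOn ℂ (fun ζ : ℂ => f (x + ζ • e)) (closedBall 0 r) := fun ζ hζ => by
        refine (hd ζ ?_).differentiableWithinAt
        rcases eq_or_ne ζ 0 with rfl | h
        · simpa using hfx
        · exact ((hb (hin x hx ζ hζ)).2 (hz ζ hζ h)).1
      have h8 := h7.circleIntegral_sub_inv_smul (mem_ball_self hr0)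
      rwa [zero_smul, add_zero] at h8
  rw [key, smul_smul, inv_mul_cancel₀ two_pi_I_ne_zero, one_smul]

/-- Baire -/
theorem rema_baire {T O : Set E} (hT : IsClosed T) (hO : IsOpen O) {Z : ℕ → Set E}
    (hcov : ∀ x ∈ T, ∃ i, x ∈ Z i) {p : E} (hp : p ∈ T) (hpO : p ∈ O) :
    ∃ i q, q ∈ T ∧ q ∈ O ∧ q ∈ Z i ∧ ∀ᶠ y in 𝓝 q, y ∈ T → y ∈ closure (Z i) := by
  have : CompleteSpace T := hT.completeSpace_coe
  have hd := dense_iUnion_interior_of_closed (X := T) (f := fun i => Subtype.val ⁻¹' closure (Z i ∩ T))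
    (fun i => isClosed_closure.preimage continuous_subtype_val)
    (eq_univ_of_forall fun x => by
      obtain ⟨i, hi⟩ := hcov x x.2
      exact mem_iUnion.2 ⟨i, subset_closure ⟨hi, x.2⟩⟩)
  obtain ⟨x, hxO, hx⟩ := hd.inter_open_nonempty _ (hO.preimage continuous_subtype_val) ⟨⟨p, hp⟩, hpO⟩
  obtain ⟨i, hi⟩ := mem_iUnion.1 hx
  obtain ⟨N, hN, hNe⟩ := isOpen_induced_iff.1
    (isOpen_interior (s := (Subtype.val ⁻¹' closure (Z i ∩ T) : Set T)))
  have hxN : (x : E) ∈ N := by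
    have : x ∈ (Subtype.val ⁻¹' N : Set T) := hNe ▸ hi
    exact this
  have hxc : (x : E) ∈ closure (Z i ∩ T) :=
    (interior_subset hi : x ∈ (Subtype.val ⁻¹' closure (Z i ∩ T) : Set T))
  obtain ⟨q, ⟨hqN, hqO⟩, hqZ, hqT⟩ := _root_.mem_closure_iff.1 hxc (N ∩ O) (hN.inter hO) ⟨hxN, hxO⟩
  refine ⟨i, q, hqT, hqO, hqZ, ?_⟩
  filter_upwards [hN.mem_nhds hqN] with y hy hyT
  have : (⟨y, hyT⟩ : T) ∈ interior (Subtype.val ⁻¹' closure (Z i ∩ T) : Set T) := hNe ▸ hy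
  have h2 : y ∈ closure (Z i ∩ T) :=
    (interior_subset this : (⟨y, hyT⟩ : T) ∈ (Subtype.val ⁻¹' closure (Z i ∩ T) : Set T))
  exact closure_mono inter_subset_left h2

/-- `f | X \ S` has a holomorphic extension near `x` -/
def RemGood (X S : Set E) (f : E → F) (x : E) : Prop :=
  ∃ F' : E → F, AnalyticAt ℂ F' x ∧ ∀ᶠ y in 𝓝[X \ S] x, F' y = f y

theorem RemGood.eventually {X S : Set E} {f : E → F} {x : E} (h : RemGood X S f x) :
    ∀ᶠ y in 𝓝 x, RemGood X S f y := by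
  obtain ⟨F', h1, h2⟩ := h
  filter_upwards [h1.eventually_analyticAt, eventually_nhds_nhdsWithin.2 h2] with y a b using ⟨F', a, b⟩

theorem rema_lim {X S : Set E} (hd : X ⊆ closure (X \ S)) {f F' : E → F} {x : E} (hx : x ∈ X)
    (h1 : AnalyticAt ℂ F' x) (h2 : ∀ᶠ y in 𝓝[X \ S] x, F' y = f y) :
    Tendsto f (𝓝[X \ S] x) (𝓝 (F' x)) ∧ limUnder (𝓝[X \ S] x) f = F' x := by
  have : (𝓝[X \ S] x).NeBot := mem_closure_iff_nhdsWithin_neBot.1 (hd hx)
  have h3 : Tendsto f (𝓝[X \ S] x) (𝓝 (F' x)) :=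
    (h1.continuousAt.tendsto.mono_left nhdsWithin_le_nhds).congr' h2
  exact ⟨h3, h3.limUnder_eq⟩

theorem RemGood.an {X S : Set E} (hd : X ⊆ closure (X \ S)) {f : E → F} {x : E} (hx : x ∈ X)
    (h : RemGood X S f x) : AnalyticWithinAt ℂ (fun y => limUnder (𝓝[X \ S] y) f) X x := by
  obtain ⟨F', h1, h2⟩ := h
  refine (h1.analyticWithinAt (s := X)).congr_of_eventuallyEq ?_ (rema_lim hd hx h1 h2).2
  filter_upwards [self_mem_nhdsWithin, mem_nhdsWithin_of_mem_nhds h1.eventually_analyticAt,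
    mem_nhdsWithin_of_mem_nhds (eventually_nhds_nhdsWithin.2 h2)] with y hy a b
  exact (rema_lim hd hy a b).2

theorem rema_good {X S : Set E} {f : E → F} (hf : AnalyticOn ℂ f (X \ S)) {x : E} (hx : x ∈ X \ S) :
    ∃ F' : E → F, AnalyticAt ℂ F' x ∧ (∀ᶠ y in 𝓝[X \ S] x, F' y = f y) ∧ F' x = f x := by
  obtain ⟨F', h1, h2⟩ := (anW_iff hx).1 (hf x hx)
  exact ⟨F', h1, h2.symm, (h2.self_of_nhdsWithin hx).symm⟩

theorem rema_main {n : ℕ} {X S : Set E} (hX : Mfd n X) (hS : Small X S) {f : E → F}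
    (hf : AnalyticOn ℂ f (X \ S)) (hb : ∀ x ∈ X, ∃ O ∈ 𝓝 x, ∃ C : ℝ, ∀ y ∈ (X \ S) ∩ O, ‖f y‖ ≤ C) :
    ∃ g : E → F, AnalyticOn ℂ g X ∧ EqOn g f (X \ S) := by
  have hd := hS.dense hX
  have heq : EqOn (fun y => limUnder (𝓝[X \ S] y) f) f (X \ S) := fun x hx => by
    obtain ⟨F', h1, h2, h3⟩ := rema_good hf hx
    exact (rema_lim hd hx.1 h1 h2).2.trans h3
  refine ⟨fun y => limUnder (𝓝[X \ S] y) f, fun p hp => RemGood.an hd hp ?_, heq⟩
  by_contra hbad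
  obtain ⟨Oi, gi, hgi, hcov⟩ := hS
  obtain ⟨O, hO, hpO, -, -, -, hcl⟩ := hX.nbhd hp univ_mem
  have hT : IsClosed (closure (X ∩ O) ∩ {x | ¬ RemGood X S f x}) :=
    isClosed_closure.inter (isOpen_iff_mem_nhds.2 fun x (hx : RemGood X S f x) => hx.eventually).isClosed_compl
  obtain ⟨i, q, ⟨hq1, hq2⟩, hqO, ⟨hqi, hq0⟩, hnear⟩ := rema_baire hT hO (Z := fun i => {x | x ∈ Oi i ∧ gi i x = 0})
    (fun x hx => hcov x ⟨by
      by_contra hxS
      obtain ⟨F', h1, h2, -⟩ := rema_good hf ⟨(hcl hx.1).1, hxS⟩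
      exact hx.2 ⟨F', h1, h2⟩, (hcl hx.1).1⟩) ⟨subset_closure ⟨hp, hpO⟩, hbad⟩ hpO
  have hqX : q ∈ X := (hcl hq1).1
  obtain ⟨hOi, hci, hsur⟩ := hgi i
  -- near `q` the bad points lie in `{g i = 0}`
  have hgood : ∀ᶠ y in 𝓝 q, y ∈ X → gi i y ≠ 0 → RemGood X S f y := by
    filter_upwards [hnear, hO.mem_nhds hqO, hOi.mem_nhds hqi] with y h1 h2 h3 hyX hy0
    by_contra hyb
    have h4 := h1 ⟨subset_closure ⟨hyX, h2⟩, hyb⟩
    have h5 : ContinuousAt (gi i) y := (hci.contDiffAt (hOi.mem_nhds h3)).continuousAt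
    obtain ⟨z, hz1, hz2⟩ := mem_closure_iff_nhds.1 h4 _ (h5.eventually_ne hy0)
    exact hz1 hz2.2
  obtain ⟨O', hO', C, hC⟩ := hb q hqX
  have hbd : ∀ᶠ y in 𝓝 q, y ∈ X → RemGood X S f y → ‖limUnder (𝓝[X \ S] y) f‖ ≤ C := by
    filter_upwards [eventually_mem_nhds_iff.2 hO'] with y hy hyX ⟨F', h1, h2⟩
    have : (𝓝[X \ S] y).NeBot := mem_closure_iff_nhdsWithin_neBot.1 (hd hyX)
    obtain ⟨h3, h4⟩ := rema_lim hd hyX h1 h2
    rw [h4]
    refine le_of_tendsto h3.norm ?_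
    filter_upwards [self_mem_nhdsWithin, mem_nhdsWithin_of_mem_nhds hy] with z a b using hC z ⟨a, b⟩
  obtain ⟨h, Ψ, U, W, c, hqW⟩ := hX q hqX
  obtain ⟨hv, hhv⟩ := c.hW q ⟨hqX, hqW⟩
  have hah := c.ah _ hv
  have hgq : ContDiffAt ℝ 1 (gi i) (h (Ψ q)) := by
    rw [hhv]; exact hci.contDiffAt (hOi.mem_nhds hqi)
  have hhr : ContDiffAt ℝ 1 h (Ψ q) := (hah.contDiffAt (n := 1)).restrict_scalars ℝ
  have hten : Tendsto h (𝓝 (Ψ q)) (𝓝 q) := by
    have := hah.continuousAt.tendsto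
    rwa [hhv] at this
  obtain ⟨F', a1, a2⟩ := rema_loc (g := fun v => gi i (h v)) (p := Ψ q) (hgq.comp _ hhr) (by rw [hhv, hq0])
    (fun w => by
      obtain ⟨v, hv1, hv2⟩ := hsur q ⟨hqX, hqi⟩ hq0 w
      have ht := (c.tan hv).1
      rw [hhv] at ht
      rw [ht] at hv1
      obtain ⟨u, rfl⟩ := hv1
      refine ⟨u, ?_⟩
      have h1 : HasFDerivAt (fun v => gi i (h v)) ((fderiv ℝ (gi i) (h (Ψ q))).comp
          ((fderiv ℂ h (Ψ q)).restrictScalars ℝ)) (Ψ q) :=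
        (hgq.differentiableAt (by simp)).hasFDerivAt.comp _
          (hah.differentiableAt.hasFDerivAt.restrictScalars ℝ)
      rw [h1.fderiv, hhv]
      exact hv2)
    (f := fun v => limUnder (𝓝[X \ S] (h v)) f) (C := C) (by
      filter_upwards [hten.eventually hgood, hten.eventually hbd, c.oO.mem_nhds hv] with v b1 b2 b3 b4
      have b5 := (c.hO v b3).1.1
      exact ⟨(c.an_iff b3).1 (RemGood.an hd b5 (b1 b5 b4)), b2 b5 (b1 b5 b4)⟩)
  have haΨ := c.aΨ q hqW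
  refine hq2 ⟨fun y => F' (Ψ y), a1.comp haΨ, ?_⟩
  filter_upwards [self_mem_nhdsWithin, mem_nhdsWithin_of_mem_nhds (haΨ.continuousAt.eventually a2),
    mem_nhdsWithin_of_mem_nhds (c.oW.mem_nhds hqW)] with y hy b1 b2
  obtain ⟨b3, b4⟩ := c.hW y ⟨hy.1, b2⟩
  obtain ⟨F'', b5, b6, -⟩ := rema_good hf hy
  have b7 := RemGood.an hd hy.1 ⟨F'', b5, b6⟩
  rw [← b4] at b7
  have b8 := b1 ((c.an_iff b3).1 b7)
  rw [b8, b4]
  exact heq hy

end Crest.Agent.R264
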