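import Crest.Agent.R264.Base.Small
import Crest.Agent.R264.Base.RemA

set_option autoImplicit false
set_option linter.unusedSectionVars false
open Set Filter Topology Metric Complex

namespace Crest.Agent.R264

variable {E F G : Type}
  [NormedAddCommGroup E] [NormedSpace ℂ E] [NormedSpace ℝ E] [IsScalarTower ℝ ℂ E] [FiniteDimensional ℂ E]
  [NormedAddCommGroup F] [NormedSpace ℂ F] [NormedSpace ℝ F] [IsScalarTower ℝ ℂ F] [FiniteDimensional ℂ F]
  [NormedAddCommGroup G] [NormedSpace ℂ G] [NormedSpace ℝ G] [IsScalarTower ℝ ℂ G] [FiniteDimensional ℂ G]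

/-! Removal of closed small sets. -/

/-- Removal.  Let `S*` be the (relatively closed) set of points of `X` near which `f` has no holomorphic extension;
extensions patch since `X \ S` is dense.  If `S* ≠ ∅`, Baire gives a point near which `S*` lies in one `{g i = 0}`,
in a chart a `C¹` graph `ζ = φ(x')` over a complement of a complex line `ℂ e` (choose `e` with
`Im (ℓ₁ e * conj (ℓ₂ e)) ≠ 0` where `dg = (Re ℓ₁, Re ℓ₂)`): each line `x' + ℂ e` meets `S*` near the point at most once,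
close to the centre; the Cauchy integral over a fixed circle is holomorphic and equals `f` off `S*`. -/
theorem removal {n : ℕ} {X S : Set E} (hX : Mfd n X) (hS : Small X S) (hcl : ClIn X S) {f : E → F}
    (hf : AnalyticOn ℂ f (X \ S)) (hb : ∀ x ∈ X, ∃ O ∈ 𝓝 x, ∃ C : ℝ, ∀ y ∈ (X \ S) ∩ O, ‖f y‖ ≤ C) :
    ∃ g : E → F, AnalyticOn ℂ g X ∧ EqOn g f (X \ S) := by
  exact rema_main hX hS hf hb

theorem ClIn.exists_open {X S : Set E} (h : ClIn X S) : ∃ O, IsOpen O ∧ X \ S = X ∩ O := by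
  refine ⟨(closure (S ∩ X))ᶜ, isClosed_closure.isOpen_compl, ?_⟩
  ext x
  exact ⟨fun hx => ⟨hx.1, fun hc => hx.2 (h x hx.1 hc)⟩, fun hx => ⟨hx.1, fun hs => hx.2 (subset_closure ⟨hs, hx.1⟩)⟩⟩

theorem Mfd.diff {n : ℕ} {X S : Set E} (hX : Mfd n X) (h : ClIn X S) : Mfd n (X \ S) := by
  obtain ⟨O, hO, e⟩ := h.exists_open
  rw [e]
  exact hX.inter hO

theorem remb_closed {n : ℕ} {X S : Set E} (hX : Mfd n X) (hS : Small X S) {g : E → F} (hg : AnalyticOn ℂ g X)
    {T : Set F} (hT : IsClosed T) (hm : MapsTo g (X \ S) T) : MapsTo g X T := by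
  intro x hx
  have h1 : ContinuousWithinAt g (X \ S) x := (hg.continuousOn x hx).mono sdiff_subset
  exact hT.closure_subset (h1.mem_closure (hS.dense hX hx) hm)

/-- a locally constant `{0,1}`-valued function extends holomorphically -/
theorem Small.preconn {n : ℕ} {X S : Set E} (hX : Mfd n X) (hc : IsPreconnected X) (hS : Small X S)
    (hcl : ClIn X S) : IsPreconnected (X \ S) := by
  classical
  rintro u v hu hv huv ⟨a, ha, hau⟩ ⟨b, hb, hbv⟩
  by_contra hne
  have hd : ∀ y ∈ X \ S, y ∈ v → y ∉ u := fun y hy h1 h2 => hne ⟨y, hy, h2, h1⟩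
  let f : E → ℂ := fun y => if y ∈ u then 1 else 0
  have hf : AnalyticOn ℂ f (X \ S) := by
    rw [anOn_iff]
    intro x hx
    rcases huv hx with h | h
    · refine ⟨fun _ => 1, analyticAt_const, ?_⟩
      filter_upwards [mem_nhdsWithin_of_mem_nhds (hu.mem_nhds h)] with y hy
      exact if_pos hy
    · refine ⟨fun _ => 0, analyticAt_const, ?_⟩
      filter_upwards [mem_nhdsWithin_of_mem_nhds (hv.mem_nhds h), self_mem_nhdsWithin] with y hy hy'
      exact if_neg (hd y hy' hy)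
  have hf1 : ∀ y, f y ∈ ({0, 1} : Set ℂ) := fun y => by
    by_cases h : y ∈ u
    · exact Or.inr (if_pos h)
    · exact Or.inl (if_neg h)
  obtain ⟨g, hg, he⟩ := removal hX hS hcl hf fun x _ => ⟨univ, univ_mem, 1, fun y _ => by
    rcases hf1 y with h | h
    · rw [h]; simp
    · rw [mem_singleton_iff.1 h]; simp⟩
  have hfin : ({0, 1} : Set ℂ).Finite := toFinite _
  have hm : MapsTo g X {0, 1} := remb_closed hX hS hg hfin.isClosed fun y hy => by rw [he hy]; exact hf1 y
  have := hc.constant_of_mapsTo hfin.isDiscrete hg.continuousOn hm ha.1 hb.1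
  rw [he ha, he hb] at this
  have h1 : f a = 1 := if_pos hau
  have h0 : f b = 0 := if_neg (hd b hb hbv)
  rw [h1, h0] at this
  exact one_ne_zero this

theorem cd_diff {n : ℕ} {X S : Set E} (hX : Mfd n X) (hS : Small X S) (hcl : ClIn X S) {x y : E}
    (hx : x ∈ X \ S) (hy : y ∈ X \ S) : cd (X \ S) x y = cd X x y := by
  refine le_antisymm (cd_le fun f hf hb => ?_) (cd_le fun f hf hb => ?_)
  · obtain ⟨g, hg, he⟩ := removal hX hS hcl hf fun x _ => ⟨univ, univ_mem, 1, fun y hy => hb y hy.1⟩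
    have hm : MapsTo g X (closedBall 0 1) := remb_closed hX hS hg isClosed_closedBall fun y hy => by
      rw [he hy, mem_closedBall_zero_iff]
      exact hb y hy
    rw [← he hx, ← he hy]
    exact le_cd hx.1 hy.1 hg fun z hz => mem_closedBall_zero_iff.1 (hm hz)
  · exact le_cd hx hy (hf.mono sdiff_subset) fun z hz => hb z hz.1

/-- extension of maps into a `CM` target (`cd_diff`, `cd_map_le`, `CM.lim_mem`) -/
theorem removal_map {n m : ℕ} {X S : Set E} (hX : Mfd n X) (hS : Small X S) (hcl : ClIn X S) {Y : Set F}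
    (hY : CM m Y) {f : E → F} (hf : AnalyticOn ℂ f (X \ S)) (hm : MapsTo f (X \ S) Y) :
    ∃ g : E → F, AnalyticOn ℂ g X ∧ MapsTo g X Y ∧ EqOn g f (X \ S) := by
  obtain ⟨C, hC⟩ := hY.bdd.exists_norm_le
  obtain ⟨g, hg, he⟩ := removal hX hS hcl hf fun x _ => ⟨univ, univ_mem, C, fun y hy => hC _ (hm hy.1)⟩
  refine ⟨g, hg, fun x hx => ?_, he⟩
  obtain ⟨ε, hε, hl⟩ := hY.lim_mem
  obtain ⟨O, hO, L, hL, hOL⟩ := cd_le_norm hX hx
  have : (𝓝[X \ S] x).NeBot := mem_closure_iff_nhdsWithin_neBot.1 (hS.dense hX hx)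
  have hδ : 0 < ε / (2 * (L + 1)) := by positivity
  have hev : ∀ᶠ y in 𝓝[X \ S] x, y ∈ X \ S ∧ y ∈ O ∧ y ∈ ball x (ε / (2 * (L + 1))) := by
    filter_upwards [self_mem_nhdsWithin, mem_nhdsWithin_of_mem_nhds hO,
      mem_nhdsWithin_of_mem_nhds (ball_mem_nhds x hδ)] with y h1 h2 h3 using ⟨h1, h2, h3⟩
  obtain ⟨a, ha, haO, hab⟩ := hev.exists
  refine hl (l := 𝓝[X \ S] x) (y := g) (a := f a) (hm ha) ?_ ((hg.continuousOn x hx).mono sdiff_subset)
  filter_upwards [hev] with y ⟨hy, hyO, hyb⟩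
  rw [he hy]
  refine ⟨hm hy, (cd_map_le hf hm ha hy).trans ?_⟩
  rw [cd_diff hX hS hcl ha hy]
  refine (hOL a ⟨ha.1, haO⟩ y ⟨hy.1, hyO⟩).trans ?_
  have h1 : ‖a - y‖ ≤ 2 * (ε / (2 * (L + 1))) := by
    rw [← dist_eq_norm]
    linarith [dist_triangle_right a y x, mem_ball.1 hab, mem_ball.1 hyb]
  have h2 : (L + 1) * (2 * (ε / (2 * (L + 1)))) = ε := by field_simp
  nlinarith [norm_nonneg (a - y)]

end Crest.Agent.R264
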